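import Vale.Agent.P030.H678.Rows
import Vale.Agent.P030.H792.Lattice

/-!
# P030, odd primes: (O2) = valuations of the single entries, and the bound (B)
-/

open PowerSeries

set_option linter.unusedSectionVars false

namespace Vale.Agent.P030.H678

open Vale.Agent.P030.T Vale.Agent.P030.H792

variable {p : ℕ} [hp : Fact p.Prime]

theorem VB_mon (h2 : p ≠ 2) {N : ℕ} (D : ℕ) (c : Fin 4) (i : ℕ) : VB p N 0 (mon D c i) := by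
  have hs : ∀ m : ℕ, Vg p 0 ((-1 : ℚ) ^ m) := fun m => by
    have := Vg.int (p := p) ((-1) ^ m)
    simpa using this
  match c with
  | 0 => exact (VB.X.pow _).mul0 (VB.geo.pow _)
  | 1 =>
    refine VB.sc0 ?_ (((VB.one.add VB.X).pow _).mul0 (VB_one_sub_X.pow _))
    have := (hs i).mul (Vg_two_pow (p := p) h2 (D - 1))
    simpa [div_eq_mul_inv] using this
  | 2 => exact VB.sc0 (hs _) ((VB.X.pow _).mul0 (VB.geo.pow _))
  | 3 =>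
    exact VB.sc0 (Vg_neg_two_pow h2 _) (((VB.one.add VB.X).pow _).mul0 (VB_one_sub_X.pow _))

theorem VB_lgm2 {N : ℕ} (hN : N ≤ p ^ 2) : VB p N (-2) (lgm ^ 2) := by
  rw [sq]
  exact ((VB.lgm hN).mul (VB.lgm hN)).mono (by omega)

variable {N : ℕ}

theorem val_z1 (h2 : p ≠ 2) (hN : N ≤ p ^ 2) : ∀ j : Fin 8, VB p N (wg .z1 - wr8 j) (tup0 .z1 j)
  | 0 => (VB.one : VB p N 0 1)
  | 1 => VB.zero
  | 2 => (VB.lgm hN : VB p N (-1) lgm)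
  | 3 => (VB.li2 hN : VB p N (-2) li2)
  | 4 => (VB.integ hN (VB.geoa.mul0 (VB.lgm hN)) : VB p N (-1 - 1) (integ (geoa * lgm)))
  | 5 => (VB.sc0 (Vg_half h2) (VB_lgm2 hN) : VB p N (-2) (sc (1 / 2) (lgm ^ 2)))
  | 6 => (VB_one_sub_X.mul0 (VBB h2 hN) : VB p N (-2) ((1 - X) * serB))
  | 7 => (VB_one_sub_X.mul0 (VBB h2 hN).th : VB p N (-2) ((1 - X) * th serB))

theorem val_zl (h2 : p ≠ 2) (hN : N ≤ p ^ 2) : ∀ j : Fin 8, VB p N (wg .zl - wr8 j) (tup0 .zl j)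
  | 0 => VB.zero
  | 1 => (VB.one : VB p N 0 1)
  | 2 => VB.zero
  | 3 => VB.zero
  | 4 => ((VB.sc0 (Vg_half h2) (VB.lgm hN)).add (VB.lgp hN) : VB p N (-1) (sc (1 / 2) lgm + lgp))
  | 5 => (VB.sc0 (Vg_half h2) (VB.lgm hN) : VB p N (-1) (sc (1 / 2) lgm))
  | 6 => VB.zero
  | 7 => VB.zero

theorem val_z8 (h2 : p ≠ 2) : ∀ j : Fin 8, VB p N (wg .z8 - wr8 j) (tup0 .z8 j)
  | 0 => VB.zero
  | 1 => VB.zero
  | 2 => VB.zero
  | 3 => VB.zero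
  | 4 => VB.zero
  | 5 => VB.zero
  | 6 => (VB_one_sub_X.mul0 (VBK h2 N) : VB p N 0 ((1 - X) * serK))
  | 7 => (VB_one_sub_X.mul0 (VBK h2 N).th : VB p N 0 ((1 - X) * th serK))

theorem val_zab : ∀ j : Fin 8, VB p N (wg .zab - wr8 j) (tup0 .zab j)
  | 0 => VB.zero
  | 1 => VB.zero
  | 2 => VB.zero
  | 3 => (VB.one : VB p N 0 1)
  | 4 => VB.zero
  | 5 => VB.zero
  | 6 => VB.zero
  | 7 => VB.zero

theorem Vg_two : Vg p 0 (2 : ℚ) := by simpa using Vg.nat (p := p) 2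

theorem val_w1 (h2 : p ≠ 2) (hN : N + 1 ≤ p ^ 2) :
    ∀ j : Fin 8, VB p N (wg .w1 - wr8 j) (tup0 .w1 j)
  | 0 => (VB.one : VB p N 0 1)
  | 1 => VB.zero
  | 2 => ((VB.lgm (by omega)).neg : VB p N (-1) (-lgm))
  | 3 => ((VB.sc0 Vg_two (VB.integ (by omega) (VB.geo2.mul0 (VB.lgm (by omega))))).neg :
      VB p N (-1 - 1) (-sc 2 (integ (geo2 * lgm))))
  | 4 => ((VB.li2 (by omega)).neg.sub (VB.sc0 (Vg_half h2) (VB_lgm2 (by omega))) :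
      VB p N (-2) (-li2 - sc (1 / 2) (lgm ^ 2)))
  | 5 => (VB.sc0 (Vg_half h2) (VB_lgm2 (by omega)) : VB p N (-2) (sc (1 / 2) (lgm ^ 2)))
  | 6 => (VBB2 h2 (by omega) : VB p N (-2) serB2)
  | 7 => (VB.tw h2 (VBB2 h2 hN) : VB p N (-2) (tw serB2))

theorem val_wl (h2 : p ≠ 2) (hN : N ≤ p ^ 2) : ∀ j : Fin 8, VB p N (wg .wl - wr8 j) (tup0 .wl j)
  | 0 => VB.zero
  | 1 => (VB.one : VB p N 0 1)
  | 2 => (VB.one.neg : VB p N 0 (-1))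
  | 3 => (((VB.lgp hN).add (VB.lgm hN)).neg : VB p N (-1) (-(lgp + lgm)))
  | 4 => ((VB.sc0 (Vg_half h2) (VB.lgm hN)).neg : VB p N (-1) (-sc (1 / 2) lgm))
  | 5 => (VB.sc0 (Vg_half h2) (VB.lgm hN) : VB p N (-1) (sc (1 / 2) lgm))
  | 6 => VB.zero
  | 7 => VB.zero

theorem Vg_four_thirds (h3 : p ≠ 3) : Vg p 0 (4 / 3 : ℚ) := by
  have hd : ¬ p ∣ 3 := fun h => h3 ((Nat.prime_dvd_prime_iff_eq hp.1 Nat.prime_three).1 h)
  have h4 : Vg p 0 (4 : ℚ) := by simpa using Vg.nat (p := p) 4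
  have := Vg.div_unit (p := p) (n := 3) hd h4
  simpa using this

theorem val_wy (h2 : p ≠ 2) (h3 : p ≠ 3) : ∀ j : Fin 8, VB p N (wg .wy - wr8 j) (tup0 .wy j)
  | 0 => VB.zero
  | 1 => VB.zero
  | 2 => VB.zero
  | 3 => ((VB.C (Vg_four_thirds h3)).neg : VB p N 0 (-C (4 / 3)))
  | 4 => ((VB.C (Vg_four_thirds h3)).neg : VB p N 0 (-C (4 / 3)))
  | 5 => VB.zero
  | 6 => ((VBK h2 N).neg : VB p N 0 (-serK))
  | 7 => ((VB.tw h2 (VBK h2 (N + 1))).neg : VB p N 0 (-tw serK))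

theorem val_w8 (h2 : p ≠ 2) : ∀ j : Fin 8, VB p N (wg .w8 - wr8 j) (tup0 .w8 j)
  | 0 => VB.zero
  | 1 => VB.zero
  | 2 => VB.zero
  | 3 => VB.zero
  | 4 => VB.zero
  | 5 => VB.zero
  | 6 => (VBK h2 N : VB p N 0 serK)
  | 7 => (VB.tw h2 (VBK h2 (N + 1)) : VB p N 0 (tw serK))

theorem val_wab : ∀ j : Fin 8, VB p N (wg .wab - wr8 j) (tup0 .wab j)
  | 0 => VB.zero
  | 1 => VB.zero
  | 2 => VB.zero
  | 3 => (VB.one : VB p N 0 1)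
  | 4 => VB.zero
  | 5 => VB.zero
  | 6 => VB.zero
  | 7 => VB.zero

theorem val_wf7 : ∀ j : Fin 8, VB p N (wg .wf7 - wr8 j) (tup0 .wf7 j)
  | 0 => VB.zero
  | 1 => VB.zero
  | 2 => VB.zero
  | 3 => VB.zero
  | 4 => VB.zero
  | 5 => (VB.one : VB p N 0 1)
  | 6 => VB.zero
  | 7 => VB.zero

theorem val_v2 : ∀ j : Fin 8, VB p N (wg .v2 - wr8 j) (tup0 .v2 j)
  | 0 => VB.zero
  | 1 => VB.zero
  | 2 => VB.zero
  | 3 => (VB.one.neg : VB p N 0 (-1))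
  | 4 => (VB.one.neg : VB p N 0 (-1))
  | 5 => (VB.one : VB p N 0 1)
  | 6 => VB.zero
  | 7 => VB.zero

theorem val_vl : ∀ j : Fin 8, VB p N (wg .vl - wr8 j) (tup0 .vl j)
  | 0 => VB.zero
  | 1 => VB.zero
  | 2 => VB.zero
  | 3 => VB.zero
  | 4 => (VB.one.neg : VB p N 0 (-1))
  | 5 => (VB.one : VB p N 0 1)
  | 6 => VB.zero
  | 7 => VB.zero

theorem val_v8 (h2 : p ≠ 2) : ∀ j : Fin 8, VB p N (wg .v8 - wr8 j) (tup0 .v8 j)
  | 0 => VB.zero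
  | 1 => VB.zero
  | 2 => VB.zero
  | 3 => VB.zero
  | 4 => VB.zero
  | 5 => VB.zero
  | 6 => ((VB_one_sub_X.mul0 (VBK h2 N)).neg : VB p N 0 (-((1 - X) * serK)))
  | 7 => (VB_one_sub_X.mul0 (VB.dd (VB.X.mul0 (VBK h2 (N + 1)))) :
      VB p N 0 ((1 - X) * dd (X * serK)))

theorem val_vb (hN : N ≤ p ^ 2) : ∀ j : Fin 8, VB p N (wg .vb - wr8 j) (tup0 .vb j)
  | 0 => VB.zero
  | 1 => VB.zero
  | 2 => (VB.one : VB p N 0 1)
  | 3 => VB.zero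
  | 4 => (VB.lgp hN : VB p N (-1) lgp)
  | 5 => (VB.lgm hN : VB p N (-1) lgm)
  | 6 => VB.zero
  | 7 => VB.zero

theorem val_x2 (h2 : p ≠ 2) : ∀ j : Fin 8, VB p N (wg .x2 - wr8 j) (tup0 .x2 j)
  | 0 => VB.zero
  | 1 => VB.zero
  | 2 => VB.zero
  | 3 => VB.zero
  | 4 => VB.zero
  | 5 => (VB.C (Vg_half h2) : VB p N 0 (C (1 / 2)))
  | 6 => (VB.sc0 (Vg_eighth h2) (VB.X.mul0 (VBK h2 N)) : VB p N 0 (sc (1 / 8) (X * serK)))
  | 7 => (VB.sc0 (Vg_eighth h2) (VB.X.mul0 (VB.tw h2 (VBK h2 (N + 1)))) :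
      VB p N 0 (sc (1 / 8) (X * tw serK)))

theorem val_xl (h2 : p ≠ 2) : ∀ j : Fin 8, VB p N (wg .xl - wr8 j) (tup0 .xl j)
  | 0 => VB.zero
  | 1 => VB.zero
  | 2 => VB.zero
  | 3 => VB.zero
  | 4 => (VB.one.neg : VB p N 0 (-1))
  | 5 => (VB.one : VB p N 0 1)
  | 6 => ((VB.X.mul0 (VBK h2 N)).neg : VB p N 0 (-(X * serK)))
  | 7 => ((VB.X.mul0 (VB.tw h2 (VBK h2 (N + 1)))).neg : VB p N 0 (-(X * tw serK)))

theorem val_x1 (h2 : p ≠ 2) (hN : N + 1 ≤ p ^ 2) :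
    ∀ j : Fin 8, VB p N (wg .x1 - wr8 j) (tup0 .x1 j)
  | 0 => VB.zero
  | 1 => VB.zero
  | 2 => (VB.one.neg : VB p N 0 (-1))
  | 3 => (((VB.lgp (by omega)).add (VB.lgm (by omega))).neg : VB p N (-1) (-(lgp + lgm)))
  | 4 => ((VB.lgm (by omega)).neg : VB p N (-1) (-lgm))
  | 5 => (VB.lgm (by omega) : VB p N (-1) lgm)
  | 6 => (VB.sc0 (Vg_quarter h2) (VB.X.mul0 (VBM h2 (by omega))) :
      VB p N (-1) (sc (1 / 4) (X * serM)))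
  | 7 => (VB.sc0 (Vg_quarter h2) ((VB.X.mul0 (VB.tw h2 (VBM h2 hN))).add
      ((VB.sc0 (Vg_half h2) ((VB.one.sub (VB.X.pow 2)).mul0 (VBK h2 N))).mono (by omega))) :
      VB p N (-1) (sc (1 / 4) (X * tw serM + sc (1 / 2) ((1 - X ^ 2) * serK))))

/-- **(O2) for the tuples** -/
theorem val_tup0 (h2 : p ≠ 2) (h3 : p ≠ 3) (hN : N + 1 ≤ p ^ 2) (g : Gp) (j : Fin 8) :
    VB p N (wg g - wr8 j) (tup0 g j) := by
  have hN' : N ≤ p ^ 2 := by omega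
  cases g with
  | z1 => exact val_z1 h2 hN' j
  | zl => exact val_zl h2 hN' j
  | z8 => exact val_z8 h2 j
  | zab => exact val_zab j
  | w1 => exact val_w1 h2 hN j
  | wl => exact val_wl h2 hN' j
  | wy => exact val_wy h2 h3 j
  | w8 => exact val_w8 h2 j
  | wab => exact val_wab j
  | wf7 => exact val_wf7 j
  | v2 => exact val_v2 j
  | vl => exact val_vl j
  | v8 => exact val_v8 h2 j
  | vb => exact val_vb hN' j
  | x2 => exact val_x2 h2 j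
  | xl => exact val_xl h2 j
  | x1 => exact val_x1 h2 hN j

theorem val_tup1_z1 (h2 : p ≠ 2) : ∀ j : Fin 8, VB p N 0 (tup1 .z1 j)
  | 0 => VB.zero
  | 1 => VB.zero
  | 2 => VB.zero
  | 3 => VB.zero
  | 4 => VB.zero
  | 5 => VB.zero
  | 6 => ((VB_one_sub_X.mul0 (VBK h2 N)).neg : VB p N 0 (-((1 - X) * serK)))
  | 7 => ((VB_one_sub_X.mul0 (VBK h2 N).th).neg : VB p N 0 (-((1 - X) * th serK)))

theorem val_tup1 (h2 : p ≠ 2) (g : Gp) (j : Fin 8) : VB p N 0 (tup1 g j) := by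
  cases g with
  | z1 => exact val_tup1_z1 h2 j
  | _ => exact VB.zero

/-- **(O2) literally** -/
theorem O2_ent0 (h2 : p ≠ 2) (h3 : p ≠ 3) {D k : ℕ} (hk : k + 2 ≤ p ^ 2) (g : Gp) (i : ℕ)
    (j : Fin 8) : padicNorm p (ent0 D g k i j) ≤ (p : ℚ) ^ (-(wg g - wr8 j)) :=
  (VB_mon h2 D g.cusp i).mul0 (val_tup0 h2 h3 (N := k + 1) hk g j) k (by omega)

theorem O2_ent1 (h2 : p ≠ 2) {D : ℕ} (k : ℕ) (g : Gp) (i : ℕ) (j : Fin 8) :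
    padicNorm p (ent1 D g k i j) ≤ 1 := by
  have h := (VB_mon h2 D g.cusp i).mul0 (val_tup1 h2 (N := k + 1) g j) k (by omega)
  unfold Vg at h
  simpa [ent1] using h

/-- **(B), unconditional** -/
theorem bound_B {P : Par} {c0 s : ℕ} {x : ℚ} {σ : Fin (P.D0 * s) × Fin 8 → Cl}
    (hσ : Adm P c0 s σ) (hdet : (Mx (P.D0 * s) x σ).det ≠ 0) (h2 : p ≠ 2) (h3 : p ≠ 3)
    (hpD : p ≤ P.D0 * s) (hx : padicNorm p x ≤ 1)
    (hN : ∀ g, P.ht g * s + c0 + 1 ≤ p ^ 2) :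
    5 * ((P.D0 * s : ℕ) : ℤ) - p + 1 - ∑ g : Gp, (2 - wg g) * (P.ht g * s + c0 : ℕ)
      ≤ padicValRat p (Mx (P.D0 * s) x σ).det := by
  have hk : ∀ g k, k < P.ht g * s + c0 → k + 2 ≤ p ^ 2 := fun g k h => by
    have := hN g; omega
  exact le_val_B hσ hdet hpD hx hK_zero rfl (by intro g; cases g <;> decide)
    (fun g k i j h _ => O2_ent0 h2 h3 (hk g k h) g i j)
    (fun g k i j _ _ => O2_ent1 h2 k g i j)
    (fun g k a h ha => O1_ent0 h2 ha (hk g k h) g)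
    (fun g k a h ha => O1_ent1 h2 ha (hk g k h) g)

end Vale.Agent.P030.H678
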