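import Vale.Agent.P030.H678.Wr

/-!
# P030, odd primes: the rows `u^a (H e_T - θH e_F)` for all 17 groups
-/

open PowerSeries

set_option linter.unusedSectionVars false

namespace Vale.Agent.P030.H678

open Vale.Agent.P030.T

variable {p : ℕ} [hp : Fact p.Prime]

/-- coefficients of the truncated `K` -/
noncomputable def hK (q : ℕ) : ℚ := coeff q serK

theorem hK_zero : hK 0 = 1 := by simp [hK, T.serK]

/-- the row as a series, for arbitrary F- and T-components -/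
noncomputable def rowS (p D a : ℕ) (c : Fin 4) (f6 f7 : ℚ⟦X⟧) : ℚ⟦X⟧ :=
  ∑ q ∈ Finset.range p, (C (hK q) * (mon D c (a + q) * f7)
    - C ((q : ℚ) * hK q) * (mon D c (a + q) * f6))

theorem coeff_rowS (D a : ℕ) (c : Fin 4) (f6 f7 : ℚ⟦X⟧) (k : ℕ) :
    coeff k (rowS p D a c f6 f7) = ∑ q ∈ Finset.range p, hK q * coeff k (mon D c (a + q) * f7)
      - ∑ q ∈ Finset.range p, (q : ℚ) * hK q * coeff k (mon D c (a + q) * f6) := by
  unfold rowS
  rw [map_sum, ← Finset.sum_sub_distrib]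
  refine Finset.sum_congr rfl fun q _ => ?_
  rw [map_sub, coeff_C_mul, coeff_C_mul]

/-- if `mon D c i = m u^i` -/
theorem rowS_chart {D a : ℕ} {c : Fin 4} (m u f6 f7 : ℚ⟦X⟧) (ha : a + p ≤ D)
    (hm : ∀ i < D, mon D c i = m * u ^ i) :
    rowS p D a c f6 f7 = m * u ^ a * (Hc p 0 u * f7 - Hc p 1 u * f6) := by
  unfold rowS Hc
  rw [Finset.sum_mul, Finset.sum_mul, ← Finset.sum_sub_distrib, Finset.mul_sum]
  refine Finset.sum_congr rfl fun q hq => ?_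
  have hq' := Finset.mem_range.1 hq
  rw [hm (a + q) (by omega), pow_add]
  have e1 : (C ((q : ℚ) ^ 0 * coeff q serK) : ℚ⟦X⟧) = C (hK q) := by simp [hK]
  have e2 : (C ((q : ℚ) ^ 1 * coeff q serK) : ℚ⟦X⟧) = C ((q : ℚ) * hK q) := by simp [hK]
  rw [e1, e2]; ring

theorem mon0 (D i : ℕ) : mon D 0 i = geo ^ (D - 1) * X ^ i := by
  show X ^ i * geo ^ (D - 1) = _
  ring

theorem geo_one_sub_pow (i : ℕ) : (1 - X : ℚ⟦X⟧) ^ i * geo ^ i = 1 := by
  rw [← mul_pow, mul_comm (1 - X : ℚ⟦X⟧), geo_mul, one_pow]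

theorem mon1 {D i : ℕ} (hi : i < D) :
    mon D 1 i = sc (1 / 2 ^ (D - 1)) ((1 - X) ^ (D - 1)) * ch (-1) ^ i := by
  show sc ((-1) ^ i / 2 ^ (D - 1)) ((1 + X) ^ i * (1 - X) ^ (D - 1 - i)) = _
  have h := geo_one_sub_pow i
  have e : (1 - X : ℚ⟦X⟧) ^ (D - 1) = (1 - X) ^ (D - 1 - i) * (1 - X) ^ i := by
    rw [← pow_add]; congr 1; omega
  unfold ch T.sc
  rw [e, mul_pow, mul_pow, ← map_pow]
  have e2 : (C ((-1) ^ i / 2 ^ (D - 1)) : ℚ⟦X⟧) = C (1 / 2 ^ (D - 1)) * C ((-1) ^ i) := by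
    rw [← map_mul]; congr 1; ring
  rw [e2]
  linear_combination (-(C (1 / 2 ^ (D - 1)) * C ((-1) ^ i) * (1 + X) ^ i * (1 - X) ^ (D - 1 - i))) * h

theorem mon3 {D i : ℕ} (hi : i < D) :
    mon D 3 i = sc (1 / (-2) ^ (D - 1)) ((1 - X) ^ (D - 1)) * ch 1 ^ i := by
  show sc (1 / (-2) ^ (D - 1)) ((1 + X) ^ i * (1 - X) ^ (D - 1 - i)) = _
  have h := geo_one_sub_pow i
  have e : (1 - X : ℚ⟦X⟧) ^ (D - 1) = (1 - X) ^ (D - 1 - i) * (1 - X) ^ i := by
    rw [← pow_add]; congr 1; omega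
  unfold ch T.sc
  rw [e, map_one, one_mul, mul_pow]
  linear_combination (-(C (1 / (-2) ^ (D - 1)) * (1 + X) ^ i * (1 - X) ^ (D - 1 - i))) * h

theorem Vg_two_pow (h2 : p ≠ 2) (m : ℕ) : Vg p 0 (1 / 2 ^ m : ℚ) := by
  have h3 : ¬ p ∣ 2 ^ m := fun h => not_dvd_two h2 (hp.1.dvd_of_dvd_pow h)
  have := Vg.div_unit (p := p) (n := 2 ^ m) (x := 1) (e := 0) h3 Vg.one
  simpa using this

theorem Vg_neg_two_pow (h2 : p ≠ 2) (m : ℕ) : Vg p 0 (1 / (-2) ^ m : ℚ) := by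
  rcases neg_one_pow_eq_or ℚ m with h | h
  · have : (1 / (-2) ^ m : ℚ) = 1 / 2 ^ m := by
      rw [neg_pow, h, one_mul]
    rw [this]; exact Vg_two_pow h2 m
  · have : (1 / (-2) ^ m : ℚ) = -(1 / 2 ^ m) := by
      rw [neg_pow, h, neg_one_mul, div_neg]
    rw [this]; exact (Vg_two_pow h2 m).neg

theorem VB_one_sub_X {N : ℕ} : VB p N 0 (1 - X : ℚ⟦X⟧) := VB.one.sub VB.X

/-! ### cusp `c3` and `c1` -/

theorem row3 (h2 : p ≠ 2) {D a N : ℕ} (ha : a + p ≤ D) {f6 f7 : ℚ⟦X⟧} {e : ℤ}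
    (h : VB p N e (Hc p 0 (ch 1) * f7 - Hc p 1 (ch 1) * f6)) :
    VB p N e (rowS p D a 3 f6 f7) := by
  rw [rowS_chart _ _ f6 f7 ha (fun i hi => mon3 hi)]
  refine VB.mul0 (VB.mul0 (VB.sc0 (Vg_neg_two_pow h2 _) (VB_one_sub_X.pow _)) ?_) h
  exact (VB_ch (Or.inl rfl)).pow a

theorem row1 (h2 : p ≠ 2) {D a N : ℕ} (ha : a + p ≤ D) {f6 f7 : ℚ⟦X⟧} {e : ℤ}
    (h : VB p N e (Hc p 0 (ch (-1)) * f7 - Hc p 1 (ch (-1)) * f6)) :
    VB p N e (rowS p D a 1 f6 f7) := by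
  rw [rowS_chart _ _ f6 f7 ha (fun i hi => mon1 hi)]
  refine VB.mul0 (VB.mul0 (VB.sc0 (Vg_two_pow h2 _) (VB_one_sub_X.pow _)) ?_) h
  exact (VB_ch (Or.inr rfl)).pow a

theorem Vg_eighth (h2 : p ≠ 2) : Vg p 0 (1 / 8 : ℚ) := by
  have := Vg_two_pow (p := p) h2 3
  norm_num at this; exact this

theorem Vg_quarter (h2 : p ≠ 2) : Vg p 0 (1 / 4 : ℚ) := by
  have := Vg_two_pow (p := p) h2 2
  norm_num at this; exact this

theorem row_x2 (h2 : p ≠ 2) {D a N : ℕ} (ha : a + p ≤ D) (hN : N + 1 ≤ p ^ 2) :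
    VB p N 1 (rowS p D a 3 (tup0 .x2 6) (tup0 .x2 7)) := by
  apply row3 h2 ha
  have e : Hc p 0 (ch 1) * tup0 .x2 7 - Hc p 1 (ch 1) * tup0 .x2 6
      = sc (1 / 8) (X * WW p 1 serK) := by
    show Hc p 0 (ch 1) * sc (1 / 8) (X * tw serK) - Hc p 1 (ch 1) * sc (1 / 8) (X * serK) = _
    unfold WW T.sc; ring
  rw [e]
  exact VB.sc0 (Vg_eighth h2) (VB.X.mul0 (VB_WW_K h2 (Or.inl rfl) hN))

theorem row_xl (h2 : p ≠ 2) {D a N : ℕ} (ha : a + p ≤ D) (hN : N + 1 ≤ p ^ 2) :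
    VB p N 1 (rowS p D a 3 (tup0 .xl 6) (tup0 .xl 7)) := by
  apply row3 h2 ha
  have e : Hc p 0 (ch 1) * tup0 .xl 7 - Hc p 1 (ch 1) * tup0 .xl 6
      = -(X * WW p 1 serK) := by
    show Hc p 0 (ch 1) * (-(X * tw serK)) - Hc p 1 (ch 1) * (-(X * serK)) = _
    unfold WW; ring
  rw [e]
  exact VB.neg (VB.X.mul0 (VB_WW_K h2 (Or.inl rfl) hN))

theorem row_x1 (h2 : p ≠ 2) {D a N : ℕ} (ha : a + p ≤ D) (hN : N + 1 ≤ p ^ 2) :
    VB p N 0 (rowS p D a 3 (tup0 .x1 6) (tup0 .x1 7)) := by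
  apply row3 h2 ha
  have e : Hc p 0 (ch 1) * tup0 .x1 7 - Hc p 1 (ch 1) * tup0 .x1 6
      = sc (1 / 4) (YY p 1) := by
    show Hc p 0 (ch 1) * sc (1 / 4) (X * tw serM + sc (1 / 2) ((1 - X ^ 2) * serK))
      - Hc p 1 (ch 1) * sc (1 / 4) (X * serM) = _
    unfold YY WW T.sc; ring
  rw [e]
  exact VB.sc0 (Vg_quarter h2) (VB_YY h2 (Or.inl rfl) hN)

theorem row_w8 (h2 : p ≠ 2) {D a N : ℕ} (ha : a + p ≤ D) (hN : N + 1 ≤ p ^ 2) :
    VB p N 1 (rowS p D a 1 (tup0 .w8 6) (tup0 .w8 7)) := by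
  apply row1 h2 ha
  have e : Hc p 0 (ch (-1)) * tup0 .w8 7 - Hc p 1 (ch (-1)) * tup0 .w8 6
      = WW p (-1) serK := rfl
  rw [e]
  exact VB_WW_K h2 (Or.inr rfl) hN

theorem row_wy (h2 : p ≠ 2) {D a N : ℕ} (ha : a + p ≤ D) (hN : N + 1 ≤ p ^ 2) :
    VB p N 1 (rowS p D a 1 (tup0 .wy 6) (tup0 .wy 7)) := by
  apply row1 h2 ha
  have e : Hc p 0 (ch (-1)) * tup0 .wy 7 - Hc p 1 (ch (-1)) * tup0 .wy 6
      = -WW p (-1) serK := by
    show Hc p 0 (ch (-1)) * (-tw serK) - Hc p 1 (ch (-1)) * (-serK) = _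
    unfold WW; ring
  rw [e]
  exact VB.neg (VB_WW_K h2 (Or.inr rfl) hN)

theorem row_w1 (h2 : p ≠ 2) {D a N : ℕ} (ha : a + p ≤ D) (hN : N + 1 ≤ p ^ 2) :
    VB p N (-1) (rowS p D a 1 (tup0 .w1 6) (tup0 .w1 7)) := by
  apply row1 h2 ha
  have e : Hc p 0 (ch (-1)) * tup0 .w1 7 - Hc p 1 (ch (-1)) * tup0 .w1 6
      = WW p (-1) serB2 := rfl
  rw [e]
  exact VB_WW_B2 h2 (Or.inr rfl) hN

theorem row_zero (D a : ℕ) (c : Fin 4) : rowS p D a c 0 0 = 0 := by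
  unfold rowS; simp

/-! ### cusp `c0` -/

/-- `H θG - θH G` at `c0` -/
noncomputable def W0 (p : ℕ) (G : ℚ⟦X⟧) : ℚ⟦X⟧ := Hc p 0 X * th G - Hc p 1 X * G

theorem VB_W0 (h2 : p ≠ 2) {G : ℚ⟦X⟧} {N : ℕ} {e : ℤ}
    (hN : N ≤ p ^ 2) (hE : VB p N e (EE G)) (hG : VB p N (e - 2) G) :
    VB p N (e - 1) (W0 p G) := by
  have hx : (X : ℚ⟦X⟧) * dd X = X := by rw [dd_X, mul_one]
  have hode : (1 - (X : ℚ⟦X⟧) ^ 2) * (X * dd (X * dd G)) - 2 * X ^ 2 * (X * dd G) - X ^ 2 * G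
      = X * EE G := by
    rw [X_EE, th_eq (th G), th_eq G]; ring
  have w := wronskian (odd_of_ne_two h2) hx hode
  have hV : Hc p 0 X * (X * dd G) - G * Hc p 1 X = W0 p G := by
    unfold W0; rw [th_eq]; ring
  rw [hV, ← th_eq] at w
  have h1 : VB p N e (th ((1 - X ^ 2) * W0 p G)) := by
    rw [w]
    refine VB.add ((VB_Hc h2 VB.X 0).mul0 (VB.X.mul0 hE)) ?_
    have h3 : VB p N 2 (C ((p : ℚ) ^ 2 * coeff (p - 1) serK) * X ^ (p + 1) : ℚ⟦X⟧) := by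
      simpa using (VB.C (Vg_psq (p := p) h2)).mul ((VB.X (N := N)).pow (p + 1))
    exact (hG.mul h3).mono (by omega)
  have h0 : coeff 0 ((1 - X ^ 2) * W0 p G) = 0 := by
    have hH1 : coeff 0 (Hc p 1 X) = 0 := by
      unfold Hc
      rw [map_sum]
      refine Finset.sum_eq_zero fun j _ => ?_
      rw [coeff_C_mul]
      cases j with
      | zero => simp
      | succ j => simp
    have hth : coeff 0 (th G) = 0 := by simp [T.th]
    have : coeff 0 (W0 p G) = 0 := by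
      unfold W0
      rw [coeff_zero_eq_constantCoeff_apply] at hth hH1 ⊢
      rw [map_sub, map_mul, map_mul, hth, hH1]; ring
    rw [coeff_zero_eq_constantCoeff_apply] at this ⊢
    rw [map_mul, this, mul_zero]
  have h3 := VB_of_th hN h1 (by rw [h0]; exact Vg.zero _)
  have h4 : W0 p G = geo2 * ((1 - X ^ 2) * W0 p G) := by
    linear_combination (-W0 p G) * geo2_mul
  rw [h4]
  exact VB.geo2.mul0 h3

theorem row0 {D a N : ℕ} (ha : a + p ≤ D) {f6 f7 : ℚ⟦X⟧} {e : ℤ}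
    (h : VB p N e (Hc p 0 X * f7 - Hc p 1 X * f6)) :
    VB p N e (rowS p D a 0 f6 f7) := by
  rw [rowS_chart _ _ f6 f7 ha (fun i _ => mon0 D i)]
  exact VB.mul0 (VB.mul0 (VB.geo.pow _) (VB.X.pow a)) h

theorem row_z8 (h2 : p ≠ 2) {D a N : ℕ} (ha : a + p ≤ D) (hN : N ≤ p ^ 2) :
    VB p N 1 (rowS p D a 0 (tup0 .z8 6) (tup0 .z8 7)) := by
  apply row0 ha
  have e : Hc p 0 X * tup0 .z8 7 - Hc p 1 X * tup0 .z8 6 = (1 - X) * W0 p serK := by
    show Hc p 0 X * ((1 - X) * th serK) - Hc p 1 X * ((1 - X) * serK) = _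
    unfold W0; ring
  rw [e]
  have := VB_W0 (p := p) (e := 2) (G := serK) h2 hN (by rw [EE_K]; exact VB.zero) (VBK h2 N)
  exact VB_one_sub_X.mul0 this

theorem row_z1x (h2 : p ≠ 2) {D a N : ℕ} (ha : a + p ≤ D) (hN : N ≤ p ^ 2) :
    VB p N 1 (rowS p D a 0 (tup1 .z1 6) (tup1 .z1 7)) := by
  apply row0 ha
  have e : Hc p 0 X * tup1 .z1 7 - Hc p 1 X * tup1 .z1 6 = -((1 - X) * W0 p serK) := by
    show Hc p 0 X * (-((1 - X) * th serK)) - Hc p 1 X * (-((1 - X) * serK)) = _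
    unfold W0; ring
  rw [e]
  have := VB_W0 (p := p) (e := 2) (G := serK) h2 hN (by rw [EE_K]; exact VB.zero) (VBK h2 N)
  exact (VB_one_sub_X.mul0 this).neg

theorem row_z1 (h2 : p ≠ 2) {D a N : ℕ} (ha : a + p ≤ D) (hN : N ≤ p ^ 2) :
    VB p N (-1) (rowS p D a 0 (tup0 .z1 6) (tup0 .z1 7)) := by
  apply row0 ha
  have e : Hc p 0 X * tup0 .z1 7 - Hc p 1 X * tup0 .z1 6 = (1 - X) * W0 p serB := by
    show Hc p 0 X * ((1 - X) * th serB) - Hc p 1 X * ((1 - X) * serB) = _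
    unfold W0; ring
  rw [e]
  have h4 : Vg p 0 (-1 / 4 : ℚ) := by
    have := Vg.div_unit (p := p) (n := 4) (x := -1) (e := 0) (not_dvd_four h2) (Vg.one.neg)
    simpa using this
  have := VB_W0 (p := p) (e := 0) (G := serB) h2 hN (by rw [EE_B]; exact VB.sc0 h4 VB.geo)
    ((VBB h2 hN).mono (by omega))
  have h5 := VB_one_sub_X.mul0 this
  simpa using h5

/-! ### cusp `c2` -/

/-- reversed truncated polynomials `Σ_{j<p} j^a K_j X^{p-1-j}` -/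
noncomputable def Hr (p a : ℕ) : ℚ⟦X⟧ :=
  ∑ j ∈ Finset.range p, C ((j : ℚ) ^ a * coeff j serK) * X ^ (p - 1 - j)

theorem th_add (f g : ℚ⟦X⟧) : th (f + g) = th f + th g := by
  rw [th_eq, th_eq, th_eq, dd_add]; ring
theorem th_sub (f g : ℚ⟦X⟧) : th (f - g) = th f - th g := by
  rw [th_eq, th_eq, th_eq, dd_sub]; ring
theorem th_mul (f g : ℚ⟦X⟧) : th (f * g) = f * th g + g * th f := by
  rw [th_eq, th_eq, th_eq, dd_mul]; ring
theorem th_C_mul (q : ℚ) (f : ℚ⟦X⟧) : th (C q * f) = C q * th f := by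
  rw [th_mul, th_eq (C q), dd_C]; ring
theorem th_X_pow (m : ℕ) : th (X ^ m : ℚ⟦X⟧) = C (m : ℚ) * X ^ m := by
  have hx : (X : ℚ⟦X⟧) * dd X = X := by rw [dd_X, mul_one]
  rw [th_eq]; exact tau_dd_pow hx m
theorem th_sum {ι : Type*} (s : Finset ι) (F : ι → ℚ⟦X⟧) :
    th (∑ i ∈ s, F i) = ∑ i ∈ s, th (F i) := by
  rw [th_eq, dd_sum, Finset.mul_sum]
  exact Finset.sum_congr rfl fun i _ => (th_eq _).symm

theorem th_Hr (p a : ℕ) (hp1 : 1 ≤ p) : th (Hr p a) = C ((p : ℚ) - 1) * Hr p a - Hr p (a + 1) := by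
  unfold Hr
  rw [th_sum, Finset.mul_sum, ← Finset.sum_sub_distrib]
  refine Finset.sum_congr rfl fun j hj => ?_
  have hj' := Finset.mem_range.1 hj
  rw [th_C_mul, th_X_pow]
  have e1 : (((p - 1 - j : ℕ) : ℚ)) = (p : ℚ) - 1 - j := by
    rw [Nat.cast_sub (by omega), Nat.cast_sub hp1]; simp
  rw [e1]
  have e2 : (C ((p : ℚ) - 1 - j) : ℚ⟦X⟧) = C ((p : ℚ) - 1) - C (j : ℚ) := by rw [map_sub]
  have e3 : (C ((j : ℚ) ^ (a + 1) * coeff j serK) : ℚ⟦X⟧)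
      = C ((j : ℚ) ^ a * coeff j serK) * C (j : ℚ) := by
    rw [← map_mul]; congr 1; ring
  rw [e2, e3]; ring

theorem Hr_ode {p : ℕ} (h2 : p % 2 = 1) :
    X ^ 2 * Hr p 2 - (Hr p 2 + 2 * Hr p 1 + Hr p 0)
      = -(C ((p : ℚ) ^ 2 * coeff (p - 1) serK)) := by
  -- multiply `Hr` by `X²` and reindex
  have key : Hr p 2 + 2 * Hr p 1 + Hr p 0
      = ∑ j ∈ Finset.range p, C (((j + 2 : ℕ) : ℚ) ^ 2 * coeff (j + 2) serK) * X ^ (p - 1 - j) := by
    unfold Hr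
    rw [Finset.mul_sum (s := Finset.range p) (a := (2 : ℚ⟦X⟧)), ← Finset.sum_add_distrib,
      ← Finset.sum_add_distrib]
    refine Finset.sum_congr rfl fun j _ => ?_
    have h1 := serK_rec j
    have e : (C (((j + 2 : ℕ) : ℚ) ^ 2 * coeff (j + 2) serK) : ℚ⟦X⟧)
        = C ((j : ℚ) ^ 2 * coeff j serK) + C 2 * C ((j : ℚ) ^ 1 * coeff j serK)
          + C ((j : ℚ) ^ 0 * coeff j serK) := by
      rw [← map_mul, ← map_add, ← map_add]; congr 1
      push_cast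
      rw [h1]; ring
    have e2 : (2 : ℚ⟦X⟧) = C 2 := two_eq
    rw [e, e2]; ring
  have key2 : X ^ 2 * Hr p 2
      = ∑ j ∈ Finset.range p, C ((j : ℚ) ^ 2 * coeff j serK) * X ^ (p + 1 - j) := by
    unfold Hr
    rw [Finset.mul_sum]
    refine Finset.sum_congr rfl fun j hj => ?_
    have hj' := Finset.mem_range.1 hj
    have : p + 1 - j = (p - 1 - j) + 2 := by omega
    rw [this, pow_add]; ring
  have tot : ∑ j ∈ Finset.range (p + 2), C ((j : ℚ) ^ 2 * coeff j serK) * X ^ (p + 1 - j)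
      = ∑ j ∈ Finset.range p,
        C (((j + 2 : ℕ) : ℚ) ^ 2 * coeff (j + 2) serK) * X ^ (p - 1 - j) := by
    rw [Finset.sum_range_succ', Finset.sum_range_succ']
    have h1 : coeff 1 serK = 0 := coeff_serK_odd (by norm_num)
    have h3 : (C (((0 + 1 : ℕ) : ℚ) ^ 2 * coeff (0 + 1) serK) : ℚ⟦X⟧)
        * X ^ (p + 1 - (0 + 1)) = 0 := by
      simp [h1]
    have h4 : (C (((0 : ℕ) : ℚ) ^ 2 * coeff 0 serK) : ℚ⟦X⟧) * X ^ (p + 1 - 0) = 0 := by
      simp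
    rw [h3, h4, add_zero, add_zero]
    refine Finset.sum_congr rfl fun j hj => ?_
    have hj' := Finset.mem_range.1 hj
    have e1 : j + 1 + 1 = j + 2 := rfl
    have e2 : p + 1 - (j + 2) = p - 1 - j := by omega
    rw [e1, e2]
  have tot2 : ∑ j ∈ Finset.range (p + 2), C ((j : ℚ) ^ 2 * coeff j serK) * X ^ (p + 1 - j)
      = X ^ 2 * Hr p 2 + C ((p : ℚ) ^ 2 * coeff (p - 1) serK) := by
    rw [Finset.sum_range_succ, Finset.sum_range_succ, key2]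
    have h1 : coeff p serK = 0 := coeff_serK_odd h2
    have h3 := serK_rec (p - 1)
    have e1 : p - 1 + 2 = p + 1 := by omega
    have e2 : ((p - 1 : ℕ) : ℚ) = (p : ℚ) - 1 := by
      rw [Nat.cast_sub (by omega)]; simp
    rw [e1, e2] at h3
    have h4 : (((p + 1 : ℕ) : ℚ)) ^ 2 * coeff (p + 1) serK = (p : ℚ) ^ 2 * coeff (p - 1) serK := by
      push_cast
      linear_combination h3
    rw [h1, h4, Nat.sub_self, pow_zero, mul_one, mul_zero, map_zero, zero_mul, add_zero]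
  rw [key, ← tot, tot2]; ring

/-- `Hr (K + θK) + Hr' K` at `c2` -/
noncomputable def W2 (p : ℕ) : ℚ⟦X⟧ := Hr p 0 * (serK + th serK) + Hr p 1 * serK

theorem th_W2 {p : ℕ} (h2 : p % 2 = 1) :
    th ((1 - X ^ 2) * W2 p) = C (p : ℚ) * ((1 - X ^ 2) * W2 p)
      - C ((p : ℚ) ^ 2 * coeff (p - 1) serK) * serK := by
  have hK := X_EE serK
  rw [EE_K, mul_zero] at hK
  have hr := Hr_ode h2
  have t0 := th_Hr p 0 (by omega)
  have t1 := th_Hr p 1 (by omega)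
  simp only [zero_add, Nat.reduceAdd] at t0 t1
  have e1 : th (1 - X ^ 2 : ℚ⟦X⟧) = -(2 * X ^ 2) := by
    rw [th_eq, dd_sub, dd_one, dd_sq, dd_X]; ring
  unfold W2
  rw [th_mul, e1, th_add (Hr p 0 * (serK + th serK)), th_mul (Hr p 0), th_mul (Hr p 1),
    th_add serK, t0, t1]
  have e2 : (C ((p : ℚ) - 1) : ℚ⟦X⟧) = C (p : ℚ) - 1 := by rw [map_sub, map_one]
  rw [e2]
  linear_combination (-Hr p 0) * hK + serK * hr

theorem VB_Hr (h2 : p ≠ 2) {N : ℕ} (a : ℕ) : VB p N 0 (Hr p a) := by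
  unfold Hr
  refine VB.sum fun j _ => ?_
  have h1 : Vg p 0 ((j : ℚ) ^ a * coeff j serK) := by
    have := Vg.nat_mul (j ^ a) (VgK (p := p) h2 j)
    simpa using this
  exact (VB.C h1).mul0 (VB.X.pow _)

/-- `W2` is even -/
theorem coeff_W2_odd {p m : ℕ} (h2 : p % 2 = 1) (hm : m % 2 = 1) : coeff m (W2 p) = 0 := by
  have hrr : ∀ a n, n % 2 = 1 → coeff n (Hr p a) = 0 := by
    intro a n hn
    unfold Hr
    rw [map_sum]
    refine Finset.sum_eq_zero fun j hj => ?_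
    have hj' := Finset.mem_range.1 hj
    rw [coeff_C_mul, coeff_X_pow]
    split_ifs with h
    · rw [coeff_serK_odd (by omega)]; simp
    · simp
  have hk : ∀ n, n % 2 = 1 → coeff n serK = 0 := fun n hn => coeff_serK_odd hn
  have hmul : ∀ f g : ℚ⟦X⟧, (∀ n, n % 2 = 1 → coeff n f = 0) →
      (∀ n, n % 2 = 1 → coeff n g = 0) → coeff m (f * g) = 0 := by
    intro f g hf hg
    rw [coeff_mul]
    refine Finset.sum_eq_zero fun ij hij => ?_
    have : ij.1 + ij.2 = m := by simpa using hij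
    rcases Nat.mod_two_eq_zero_or_one ij.1 with h | h
    · rw [hg ij.2 (by omega), mul_zero]
    · rw [hf ij.1 h, zero_mul]
  unfold W2
  rw [map_add, hmul _ _ (hrr 0) (fun n hn => by rw [map_add, hk n hn]; simp [T.th, hk n hn]),
    hmul _ _ (hrr 1) hk, add_zero]

theorem VB_W2 (h2 : p ≠ 2) {N : ℕ} (hN : N ≤ p ^ 2) : VB p N 1 (W2 p) := by
  have h := th_W2 (p := p) (odd_of_ne_two h2)
  set Z := (1 - X ^ 2) * W2 p with hZ
  have hp1 := hp.1.one_lt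
  have h1 : VB p N 1 Z := by
    intro m hm
    have hc := congrArg (coeff m) h
    rw [map_sub, coeff_C_mul, coeff_C_mul] at hc
    have hth : coeff m (th Z) = (m : ℚ) * coeff m Z := by simp [T.th]
    rw [hth] at hc
    have hr : Vg p 2 (((p : ℚ) ^ 2 * coeff (p - 1) serK) * coeff m serK) := by
      simpa using (Vg_psq (p := p) h2).mul (VgK (p := p) h2 m)
    rcases lt_trichotomy m p with hlt | heq | hgt
    · have e : coeff m Z = ((p : ℚ) ^ 2 * coeff (p - 1) serK) * coeff m serK / ((p - m : ℕ) : ℚ) := by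
        have hne : ((p - m : ℕ) : ℚ) ≠ 0 := by
          have : p - m ≠ 0 := by omega
          exact_mod_cast this
        rw [eq_div_iff hne, Nat.cast_sub hlt.le]
        linear_combination -hc
      rw [e]
      have hlt2 : p - m < p ^ 2 := by nlinarith [Nat.sub_le p m]
      have := Vg.div_nat (p := p) (n := p - m) (by omega) hlt2 hr
      exact this.mono (by omega)
    · subst heq
      have hodd := odd_of_ne_two h2
      have : coeff m Z = 0 := by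
        rw [hZ, sub_mul, one_mul, map_sub, coeff_W2_odd hodd hodd, mul_comm, coeff_mul_X_pow']
        split_ifs with h3
        · rw [coeff_W2_odd hodd (by omega), sub_zero]
        · rw [sub_zero]
      rw [this]; exact Vg.zero _
    · have e : coeff m Z
          = -(((p : ℚ) ^ 2 * coeff (p - 1) serK) * coeff m serK / ((m - p : ℕ) : ℚ)) := by
        have hne : ((m - p : ℕ) : ℚ) ≠ 0 := by
          have : m - p ≠ 0 := by omega
          exact_mod_cast this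
        rw [← neg_div, eq_div_iff hne, Nat.cast_sub hgt.le]
        linear_combination hc
      rw [e]
      have := Vg.div_nat (p := p) (n := m - p) (by omega) (by omega) hr
      exact (this.neg).mono (by omega)
  have h4 : W2 p = geo2 * Z := by
    rw [hZ]; linear_combination (-W2 p) * geo2_mul
  rw [h4]
  exact VB.geo2.mul0 h1

theorem rowS_c2 {p D a : ℕ} (f6 f7 : ℚ⟦X⟧) (ha : a + p ≤ D) :
    rowS p D a 2 f6 f7 = sc ((-1) ^ (D - 1)) (X ^ (D - a - p) * geo ^ (D - 1))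
      * (Hr p 0 * f7 - Hr p 1 * f6) := by
  unfold rowS Hr
  rw [Finset.sum_mul, Finset.sum_mul, ← Finset.sum_sub_distrib, Finset.mul_sum]
  refine Finset.sum_congr rfl fun q hq => ?_
  have hq' := Finset.mem_range.1 hq
  show C (hK q) * (sc ((-1) ^ (D - 1)) (X ^ (D - 1 - (a + q)) * geo ^ (D - 1)) * f7)
    - C ((q : ℚ) * hK q) * (sc ((-1) ^ (D - 1)) (X ^ (D - 1 - (a + q)) * geo ^ (D - 1)) * f6) = _
  have e : D - 1 - (a + q) = (D - a - p) + (p - 1 - q) := by omega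
  have e1 : (C ((q : ℚ) ^ 0 * coeff q serK) : ℚ⟦X⟧) = C (hK q) := by simp [hK]
  have e2 : (C ((q : ℚ) ^ 1 * coeff q serK) : ℚ⟦X⟧) = C ((q : ℚ) * hK q) := by simp [hK]
  rw [e, pow_add, e1, e2]
  unfold T.sc
  ring

theorem row_v8 (h2 : p ≠ 2) {D a N : ℕ} (ha : a + p ≤ D) (hN : N ≤ p ^ 2) :
    VB p N 1 (rowS p D a 2 (tup0 .v8 6) (tup0 .v8 7)) := by
  rw [rowS_c2 _ _ ha]
  have e : Hr p 0 * tup0 .v8 7 - Hr p 1 * tup0 .v8 6 = (1 - X) * W2 p := by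
    show Hr p 0 * ((1 - X) * dd (X * serK)) - Hr p 1 * (-((1 - X) * serK)) = _
    have : dd (X * serK) = serK + th serK := by
      rw [dd_mul, dd_X, th_eq]; ring
    rw [this]; unfold W2; ring
  rw [e]
  refine VB.mul0 (VB.sc0 ?_ ((VB.X.pow _).mul0 (VB.geo.pow _))) (VB_one_sub_X.mul0 (VB_W2 h2 hN))
  have := Vg.int (p := p) ((-1) ^ (D - 1))
  simpa using this

/-! ### all groups -/

/-- weights of the groups -/
def wg : Gp → ℤ
  | .z1 => 0 | .w1 => 0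
  | .zl => 1 | .wl => 1 | .vb => 1 | .x1 => 1
  | _ => 2

/-- **(O1), part without `x`** -/
theorem row_all (h2 : p ≠ 2) {D a N : ℕ} (ha : a + p ≤ D) (hN : N + 1 ≤ p ^ 2) (g : Gp) :
    VB p N (wg g - 1) (rowS p D a g.cusp (tup0 g 6) (tup0 g 7)) := by
  have hN' : N ≤ p ^ 2 := by omega
  have hz : ∀ (c : Fin 4) (e : ℤ), VB p N e (rowS p D a c 0 0) := by
    intro c e; rw [row_zero]; exact VB.zero
  cases g with
  | z1 => exact row_z1 h2 ha hN'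
  | zl => exact hz _ _
  | z8 => exact row_z8 h2 ha hN'
  | zab => exact hz _ _
  | w1 => exact row_w1 h2 ha hN
  | wl => exact hz _ _
  | wy => exact row_wy h2 ha hN
  | w8 => exact row_w8 h2 ha hN
  | wab => exact hz _ _
  | wf7 => exact hz _ _
  | v2 => exact hz _ _
  | vl => exact hz _ _
  | v8 => exact row_v8 h2 ha hN'
  | vb => exact hz _ _
  | x2 => exact row_x2 h2 ha hN
  | xl => exact row_xl h2 ha hN
  | x1 => exact row_x1 h2 ha hN

/-- **(O1), part with `x`** -/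
theorem row_all_x (h2 : p ≠ 2) {D a N : ℕ} (ha : a + p ≤ D) (hN : N ≤ p ^ 2) (g : Gp) :
    VB p N 1 (rowS p D a g.cusp (tup1 g 6) (tup1 g 7)) := by
  have hz : ∀ (c : Fin 4) (e : ℤ), VB p N e (rowS p D a c 0 0) := by
    intro c e; rw [row_zero]; exact VB.zero
  cases g with
  | z1 => exact row_z1x h2 ha hN
  | _ => exact hz _ _

/-- **(O1) literally** (392 #12578, 792 `le_val_B`, hypothesis `h2`) -/
theorem O1_ent0 (h2 : p ≠ 2) {D a k : ℕ} (ha : a + p ≤ D) (hk : k + 2 ≤ p ^ 2) (g : Gp) :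
    padicNorm p (∑ q ∈ Finset.range p, hK q * ent0 D g k (a + q) 7
      - ∑ q ∈ Finset.range p, (q : ℚ) * hK q * ent0 D g k (a + q) 6)
        ≤ (p : ℚ) ^ (-(wg g - 1)) := by
  have h := row_all h2 (N := k + 1) ha hk g k (by omega)
  rw [coeff_rowS] at h
  exact h

theorem O1_ent1 (h2 : p ≠ 2) {D a k : ℕ} (ha : a + p ≤ D) (hk : k + 2 ≤ p ^ 2) (g : Gp) :
    padicNorm p (∑ q ∈ Finset.range p, hK q * ent1 D g k (a + q) 7
      - ∑ q ∈ Finset.range p, (q : ℚ) * hK q * ent1 D g k (a + q) 6)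
        ≤ (p : ℚ) ^ (-(1 : ℤ)) := by
  have h := row_all_x h2 (N := k + 1) ha (by omega) g k (by omega)
  rw [coeff_rowS] at h
  exact h

end Vale.Agent.P030.H678
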