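import Vale.Agent.P030.H678.RedTab3

/-!
# P030, odd primes: the table `RdTab`, all groups, all orders
-/

open PowerSeries

set_option linter.unusedSectionVars false

namespace Vale.Agent.P030.H678

open Vale.Agent.P030.T Vale.Agent.P030.H792

variable {p : ℕ} [hp : Fact p.Prime] {N : ℕ}

theorem Vg.norm_le {x : ℚ} (h : Vg p 0 x) : padicNorm p x ≤ 1 := by
  unfold Vg at h; simpa using h

/-- the reduced data -/
noncomputable def mdat (p : ℕ) [Fact p.Prime] : H392.MidDat p where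
  phi g j := rdS p (tup0 g ⟨j, by omega⟩)
  beta g := rdS p (bet p g)
  tau g := rdS p (ta p g)
  h q := ((hK q : ℚ) : ZMod p)

/-! ### integrality at the lower level -/

theorem VBp_bet (h2 : p ≠ 2) (g : Gp) : VB p p 0 (bet p g) := by
  cases g with
  | z1 => exact VB_one_sub_X.mul0 (VBp_chiB h2)
  | z8 => exact VB_one_sub_X.mul0 (VBK h2 p)
  | w1 => exact (VB.C Vchi).mul0 (VBp_B2 h2)
  | wy => exact VB.neg ((VB.C Vchi).mul0 (VBK h2 p))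
  | w8 => exact (VB.C Vchi).mul0 (VBK h2 p)
  | v8 => exact VB.neg (VB_one_sub_X.mul0 (VBK h2 p))
  | x2 => exact (VB.C (Vg_eighth h2)).mul0 ((VB.C Vchi).mul0 (VBK h2 p))
  | xl => exact VB.neg ((VB.C Vchi).mul0 (VBK h2 p))
  | x1 => exact (VB.C (Vg_quarter h2)).mul0 ((VB.C Vchi).mul0 (VBp_M h2))
  | _ => exact VB.zero

theorem VB_tw' {M : ℕ} {f : ℚ⟦X⟧} (h2 : p ≠ 2) (h : VB p M 0 f) : VB p (M - 1) 0 (T.tw f) := by
  rcases Nat.eq_zero_or_pos M with h0 | h0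
  · subst h0; intro n hn; omega
  · exact VB.tw h2 (by rwa [Nat.sub_add_cancel h0])

theorem VBp_ta (h2 : p ≠ 2) (g : Gp) (hg : g ≠ .w1) : VB p p 0 (ta p g) := by
  have hp1 := hp.1.pos
  cases g with
  | z1 =>
    have h : VB p p 0 ((1 - X) * th (C (chi p) * serB)) :=
      VB_one_sub_X.mul0 (VBp_chiB h2).th
    have e : ta p .z1 = (1 - X) * th (C (chi p) * serB) := by
      unfold ta
      show C (chi p) * ((1 - X) * th serB) = _
      rw [th_C_mul]; ring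
    rw [e]; exact h
  | w1 => exact absurd rfl hg
  | z8 => exact (VB.C (Vsg _)).mul0 (VB_one_sub_X.mul0 (VBK h2 p).th)
  | wy => exact (VB.C (Vsg _)).mul0 (VB.neg (VB.tw h2 (VBK h2 (p + 1))))
  | w8 => exact (VB.C (Vsg _)).mul0 (VB.tw h2 (VBK h2 (p + 1)))
  | v8 =>
    exact (VB.C (Vsg _)).mul0 (VB_one_sub_X.mul0 (VB.dd (VB.X.mul0 (VBK h2 (p + 1)))))
  | x2 =>
    exact (VB.C (Vsg _)).mul0 (VB.sc0 (Vg_eighth h2) (VB.X.mul0 (VB.tw h2 (VBK h2 (p + 1)))))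
  | xl => exact (VB.C (Vsg _)).mul0 (VB.neg (VB.X.mul0 (VB.tw h2 (VBK h2 (p + 1)))))
  | x1 =>
    refine (VB.C (Vsg _)).mul0 (VB.sc0 (Vg_quarter h2) (VB.add ?_
      (VB.sc0 (Vg_half h2) ((VB.one.sub (VB.X.pow 2)).mul0 (VBK h2 p)))))
    have h := VB_X_mul (VB_tw' h2 (VBp_M (p := p) h2))
    rwa [Nat.sub_add_cancel hp1] at h
  | zl => exact (VB.C (Vsg _)).mul0 VB.zero
  | zab => exact (VB.C (Vsg _)).mul0 VB.zero
  | wl => exact (VB.C (Vsg _)).mul0 VB.zero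
  | wab => exact (VB.C (Vsg _)).mul0 VB.zero
  | wf7 => exact (VB.C (Vsg _)).mul0 VB.zero
  | v2 => exact (VB.C (Vsg _)).mul0 VB.zero
  | vl => exact (VB.C (Vsg _)).mul0 VB.zero
  | vb => exact (VB.C (Vsg _)).mul0 VB.zero

theorem VBp_ta_w1 (h2 : p ≠ 2) : VB p (p - 1) 0 (ta p .w1) :=
  (VB.C (Vsg _)).mul0 (VB_tw' h2 (VBp_B2 h2))

/-! ### reductions -/

theorem rd_hQ0 (h2 : p ≠ 2) (c : Fin 4) : Rd p N (hQ p 0 c)
    (∑ q ∈ Finset.range p, C ((mdat p).h q)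
      * (H392.cA p c ^ q * H392.cB p c ^ (p - 1 - q))) := by
  unfold hQ
  refine Rd.sum fun q _ => ?_
  rw [← cA_eq, ← cB_eq, mul_assoc]
  refine Rd.mul ?_ (((rd_cA h2 c).pow q).mul ((rd_cB h2 c).pow _))
  rw [pow_zero, one_mul]
  exact Rd.C (VhK h2 q).norm_le

theorem rd_hQ1 (h2 : p ≠ 2) (c : Fin 4) : Rd p N (hQ p 1 c)
    (∑ q ∈ Finset.range p, C ((q : ZMod p) * (mdat p).h q)
      * (H392.cA p c ^ q * H392.cB p c ^ (p - 1 - q))) := by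
  unfold hQ
  refine Rd.sum fun q _ => ?_
  rw [← cA_eq, ← cB_eq, mul_assoc]
  refine Rd.mul ?_ (((rd_cA h2 c).pow q).mul ((rd_cB h2 c).pow _))
  rw [pow_one]
  have h := Rd.C (p := p) (N := N) ((Vg.nat (p := p) q).mul0 (VhK h2 q)).norm_le
  rw [red_mul (Vg.nat (p := p) q).norm_le (VhK h2 q).norm_le, Rat.cast_natCast] at h
  exact h

theorem rd_diff (h2 : p ≠ 2) (c : Fin 4) :
    Rd p N (cB ℚ c - cA ℚ c) (H392.cB p c - H392.cA p c) := by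
  rw [← cA_eq, ← cB_eq]
  exact (rd_cB h2 c).sub (rd_cA h2 c)

theorem rd_sum (h2 : p ≠ 2) (c : Fin 4) :
    Rd p N (cA ℚ c + cB ℚ c) (H392.cY p c) := by
  unfold H392.cY
  rw [← cA_eq, ← cB_eq]
  exact (rd_cA h2 c).add (rd_cB h2 c)

theorem rd_r2 (h2 : p ≠ 2) (hN : N ≤ p ^ 2) (g : Gp) :
    Rd p N (C ((p : ℚ) ^ (2 - wg g)) * tup0 g 6)
    ((∑ q ∈ Finset.range p, C ((mdat p).h q)
      * (H392.cA p g.cusp ^ q * H392.cB p g.cusp ^ (p - 1 - q)))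
      * (H392.cB p g.cusp - H392.cA p g.cusp) * H392.up p ((mdat p).beta g)) :=
  Rd.congr (q2_all h2 hN g) (((rd_hQ0 h2 _).mul (rd_diff h2 _)).mul
    (rd_up_of_vb (VB_up_p hN (VBp_bet h2 g))))

theorem rd_r2' (h2 : p ≠ 2) (hN : N + 1 ≤ p ^ 2) (g : Gp) :
    Rd p N (C ((p : ℚ) ^ (2 - wg g)) * tup0 g 7)
    ((∑ q ∈ Finset.range p, C ((q : ZMod p) * (mdat p).h q)
      * (H392.cA p g.cusp ^ q * H392.cB p g.cusp ^ (p - 1 - q)))
      * (H392.cB p g.cusp - H392.cA p g.cusp) * H392.up p ((mdat p).beta g)) :=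
  Rd.congr (q2'_all h2 hN g) (((rd_hQ1 h2 _).mul (rd_diff h2 _)).mul
    (rd_up_of_vb (VB_up_p (by omega) (VBp_bet h2 g))))

theorem rd_X_pow_mul {M k : ℕ} {f : ℚ⟦X⟧} {F : (ZMod p)⟦X⟧} (h : Rd p M f F)
    (hN : N ≤ M + k) : Rd p N (X ^ k * f) (X ^ k * F) := by
  intro n hn
  rw [mul_comm (X ^ k : ℚ⟦X⟧), mul_comm (X ^ k : (ZMod p)⟦X⟧), coeff_mul_X_pow',
    coeff_mul_X_pow']
  split_ifs with hk
  · exact h (n - k) (by omega)
  · simp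

theorem cY_1 (h2 : p ≠ 2) : H392.cY p 1 = -X := by
  unfold H392.cY
  rw [← cA_eq, ← cB_eq]
  show C (-1 / 2 : ZMod p) * (1 + X) + C (1 / 2 : ZMod p) * (1 - X) = -X
  have e : (C (-1 / 2 : ZMod p) : (ZMod p)⟦X⟧) = -C (1 / 2) := by
    rw [← map_neg]; congr 1; ring
  have e2 : (C (1 / 2 : ZMod p) : (ZMod p)⟦X⟧) * 2 = 1 := by
    have h3 : (2 : (ZMod p)⟦X⟧) = C 2 := (map_ofNat (C : ZMod p →+* (ZMod p)⟦X⟧) 2).symm
    rw [h3, ← map_mul]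
    have : (1 / 2 : ZMod p) * 2 = 1 := by
      have := two_ne_zmod (p := p) h2
      field_simp
    rw [this, map_one]
  rw [e]; linear_combination (-X) * e2

theorem rd_r3 (h2 : p ≠ 2) (hN : N + 1 ≤ p ^ 2) (g : Gp) :
    Rd p N (C ((p : ℚ) ^ (1 - wg g)) * (hQ p 0 g.cusp * tup0 g 7 - hQ p 1 g.cusp * tup0 g 6))
      (H392.cY p g.cusp ^ (p - 1) * H392.up p ((mdat p).tau g)) := by
  refine Rd.congr (q3_all h2 hN g) ?_
  by_cases hg : g = .w1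
  · subst hg
    have hodd := odd_of_ne_two h2
    have hp1 := hp.1.pos
    show Rd p N ((cA ℚ 1 + cB ℚ 1) ^ (p - 1) * up p (ta p .w1))
      (H392.cY p 1 ^ (p - 1) * H392.up p (rdS p (ta p .w1)))
    rw [sAB_1, cY_1 h2, even_pow h2]
    have e : (-(X : (ZMod p)⟦X⟧)) ^ (p - 1) = X ^ (p - 1) :=
      Even.neg_pow (Nat.even_iff.2 (by omega)) X
    rw [e]
    refine rd_X_pow_mul (M := p * (p - 1)) (rd_up_of_vb (VB_up (M := p - 1) le_rfl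
      (VBp_ta_w1 h2))) ?_
    obtain ⟨q, hq⟩ : ∃ q, p = q + 1 := ⟨p - 1, by omega⟩
    rw [hq] at hN ⊢
    rw [Nat.add_sub_cancel]
    nlinarith
  · exact ((rd_sum h2 _).pow _).mul (rd_up_of_vb (VB_up_p (by omega) (VBp_ta h2 g hg)))

/-- **the table, all groups, all orders** -/
theorem rdTab (h2 : p ≠ 2) (h3 : p ≠ 3) {N : Gp → ℕ} (hN : ∀ g, N g + 1 ≤ p ^ 2) :
    RdTab p (mdat p) N where
  r1 g j hj := rd_r1 h2 h3 (hN g) g j hj
  r2 g := rd_r2 h2 (by have := hN g; omega) g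
  r2' g := rd_r2' h2 (hN g) g
  r3 g := rd_r3 h2 (hN g) g

end Vale.Agent.P030.H678
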