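import Vale.Agent.P030.H678.SerVal

/-!
# P030, odd primes: differential equations of `K`, `B`, `B2`, `M` and the truncated polynomial `H`
-/

open PowerSeries

set_option linter.unusedSectionVars false

namespace Vale.Agent.P030.H678

open Vale.Agent.P030.T

/-! ### calculus of `dd`, `th` -/

theorem dd_eq (f : ℚ⟦X⟧) : dd f = PowerSeries.derivative ℚ f := by
  ext n; unfold T.dd; rw [coeff_mk, PowerSeries.coeff_derivative]; ring

theorem dd_add (f g : ℚ⟦X⟧) : dd (f + g) = dd f + dd g := by simp [dd_eq]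
theorem dd_sub (f g : ℚ⟦X⟧) : dd (f - g) = dd f - dd g := by simp [dd_eq]
theorem dd_neg (f : ℚ⟦X⟧) : dd (-f) = -dd f := by simp [dd_eq]
theorem dd_mul (f g : ℚ⟦X⟧) : dd (f * g) = f * dd g + g * dd f := by
  simp [dd_eq, Derivation.leibniz, smul_eq_mul]
theorem dd_C (q : ℚ) : dd (C q) = 0 := by simp [dd_eq]
theorem dd_one : dd (1 : ℚ⟦X⟧) = 0 := by
  have := dd_C 1
  simpa using this
theorem dd_zero : dd (0 : ℚ⟦X⟧) = 0 := by simp [dd_eq]
theorem dd_X : dd (X : ℚ⟦X⟧) = 1 := by simp [dd_eq]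
theorem dd_sq (f : ℚ⟦X⟧) : dd (f ^ 2) = 2 * f * dd f := by rw [sq, dd_mul]; ring
theorem dd_sc (q : ℚ) (f : ℚ⟦X⟧) : dd (sc q f) = sc q (dd f) := by
  unfold T.sc; rw [dd_mul, dd_C]; ring
theorem dd_sum {ι : Type*} (s : Finset ι) (F : ι → ℚ⟦X⟧) :
    dd (∑ i ∈ s, F i) = ∑ i ∈ s, dd (F i) := by simp [dd_eq]

theorem th_eq (f : ℚ⟦X⟧) : th f = X * dd f := by
  ext n
  unfold T.th T.dd; rw [coeff_mk]
  cases n with
  | zero => simp
  | succ n => rw [coeff_succ_X_mul, coeff_mk]; push_cast; ring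

theorem geo_mul : geo * (1 - X) = (1 : ℚ⟦X⟧) := by
  have : geo = (mk 1 : ℚ⟦X⟧) := by ext n; simp [T.geo]
  rw [this]; exact PowerSeries.mk_one_mul_one_sub_eq_one ℚ

theorem geo2_mul : geo2 * (1 - X ^ 2) = (1 : ℚ⟦X⟧) := by
  ext n
  rw [mul_sub, mul_one, map_sub]
  unfold T.geo2
  match n with
  | 0 => simp
  | 1 => simp [coeff_mul_X_pow', coeff_one]
  | n + 2 =>
    rw [coeff_mul_X_pow', if_pos (by omega)]
    simp only [coeff_mk, Nat.add_sub_cancel]
    have : Even (n + 2) ↔ Even n := by rw [Nat.even_add]; simp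
    simp [this, coeff_one]

theorem dd_geo : dd geo = geo ^ 2 := by
  have h := congrArg dd geo_mul
  rw [dd_mul, dd_one, dd_sub, dd_one, dd_X] at h
  have h2 : (1 - X : ℚ⟦X⟧) * dd geo = geo := by linear_combination h
  linear_combination geo * h2 - dd geo * geo_mul

theorem two_eq : (2 : ℚ⟦X⟧) = C 2 := (map_ofNat (C : ℚ →+* ℚ⟦X⟧) 2).symm

/-! ### the differential equations -/

/-- the operator of `K` in the parameter `X` -/
noncomputable def EE (G : ℚ⟦X⟧) : ℚ⟦X⟧ := dd (X * (1 - X ^ 2) * dd G) - X * G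

theorem EE_expand (G : ℚ⟦X⟧) :
    EE G = X * (1 - X ^ 2) * dd (dd G) + (1 - 3 * X ^ 2) * dd G - X * G := by
  unfold EE
  rw [dd_mul, dd_mul, dd_sub, dd_one, dd_X, dd_sq, dd_X]; ring

theorem X_EE (G : ℚ⟦X⟧) :
    X * EE G = th (th G) - X ^ 2 * (th (th G) + 2 * th G + G) := by
  rw [EE_expand, th_eq (th G), th_eq G, dd_mul, dd_X]; ring

theorem ode_of_rec (b r : ℕ → ℚ) (hrec : ∀ n : ℕ, ((n : ℚ) + 2) ^ 2 * b (n + 2)
      = ((n : ℚ) + 1) ^ 2 * b n + r (n + 2)) (h1 : b 1 = r 1) (h0 : r 0 = 0) :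
    X * EE (mk b) = mk r := by
  rw [X_EE]
  ext n
  rw [map_sub, mul_comm (X ^ 2 : ℚ⟦X⟧), coeff_mul_X_pow']
  match n with
  | 0 => simp [T.th, h0]
  | 1 => simp [T.th, h1]
  | n + 2 =>
    rw [if_pos (by omega)]
    have e : (2 : ℚ⟦X⟧) = C 2 := two_eq
    simp only [Nat.add_sub_cancel, map_add, e, coeff_C_mul, T.th, coeff_mk]
    push_cast
    linear_combination hrec n

theorem EE_K : EE serK = 0 := by
  have h : X * EE (mk fun n => coeff n serK) = mk fun _ => 0 := by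
    apply ode_of_rec
    · intro n; rw [serK_rec n, add_zero]
    · unfold T.serK; simp
    · rfl
  have e : (mk fun n => coeff n serK) = serK := by ext n; simp
  have e2 : (mk fun _ => (0 : ℚ)) = (0 : ℚ⟦X⟧) := by ext n; simp
  rw [e, e2] at h
  exact (mul_eq_zero.1 h).resolve_left X_ne_zero

theorem EE_B : EE serB = sc (-1 / 4) geo := by
  have h : X * EE (mk cB) = mk fun n => if n = 0 then 0 else -1 / 4 := by
    apply ode_of_rec
    · intro n
      rw [cB]
      have : ((n : ℚ) + 2) ^ 2 ≠ 0 := by positivity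
      field_simp
      simp
      ring
    · simp [cB]
    · simp
  have e2 : (mk fun n => if n = 0 then 0 else (-1 / 4 : ℚ)) = X * sc (-1 / 4) geo := by
    ext n
    cases n with
    | zero => simp
    | succ n => rw [coeff_succ_X_mul]; simp [T.sc, T.geo]
  rw [e2] at h
  exact mul_left_cancel₀ X_ne_zero h

theorem EE_B2 : EE serB2 = C (-1 / 4) := by
  have h : X * EE (mk cB2) = mk fun n => if n = 1 then -1 / 4 else 0 := by
    apply ode_of_rec
    · intro n
      rw [cB2]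
      have : ((n : ℚ) + 2) ^ 2 ≠ 0 := by positivity
      field_simp
      simp
    · simp [cB2]
    · simp
  have e2 : (mk fun n => if n = 1 then (-1 / 4 : ℚ) else 0) = X * C (-1 / 4) := by
    ext n
    cases n with
    | zero => simp
    | succ n => rw [coeff_succ_X_mul]; simp [coeff_C]
  rw [e2] at h
  exact mul_left_cancel₀ X_ne_zero h

theorem EE_M : EE serM = 2 * X * serK - 2 * (1 - X ^ 2) * dd serK := by
  apply mul_left_cancel₀ (X_ne_zero (R := ℚ))
  rw [X_EE]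
  have e3 : X * (2 * X * serK - 2 * (1 - X ^ 2) * dd serK)
      = X ^ 2 * (2 * serK + 2 * th serK) - 2 * th serK := by rw [th_eq]; ring
  rw [e3]
  ext n
  have e : (2 : ℚ⟦X⟧) = C 2 := two_eq
  rw [map_sub, map_sub, mul_comm (X ^ 2 : ℚ⟦X⟧), mul_comm (X ^ 2 : ℚ⟦X⟧), coeff_mul_X_pow',
    coeff_mul_X_pow']
  match n with
  | 0 => simp [T.th, e]
  | 1 =>
    have : coeff 1 serK = 0 := by unfold T.serK; simp
    simp [T.th, e, serM, this]
  | n + 2 =>
    rw [if_pos (by omega), if_pos (by omega)]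
    simp only [Nat.add_sub_cancel, map_add, e, coeff_C_mul, T.th, coeff_mk, serM]
    have h1 := serK_rec n
    rcases Nat.even_or_odd n with hn | hn
    · have h2 : cMs (n + 2) = cMs n + (2 / ((n : ℚ) + 1) - 2 / ((n : ℚ) + 2)) := by
        obtain ⟨k, rfl⟩ := hn
        unfold T.cMs
        have e1 : (k + k + 2) / 2 = k + 1 := by omega
        have e2 : (k + k) / 2 = k := by omega
        rw [e1, e2, Finset.sum_range_succ]
        push_cast
        ring
      rw [h2]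
      have hne1 : ((n : ℚ) + 1) ≠ 0 := by positivity
      have hne2 : ((n : ℚ) + 2) ≠ 0 := by positivity
      have h3 : coeff (n + 2) serK = ((n : ℚ) + 1) ^ 2 * coeff n serK / ((n : ℚ) + 2) ^ 2 := by
        field_simp; linear_combination h1
      rw [h3]
      push_cast
      field_simp
      ring
    · have h3 : coeff n serK = 0 := by
        unfold T.serK; simp [Nat.not_even_iff_odd.2 hn]
      have h4 : coeff (n + 2) serK = 0 := by
        have : ((n : ℚ) + 2) ^ 2 ≠ 0 := by positivity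
        rw [h3, mul_zero] at h1
        exact (mul_eq_zero.1 h1).resolve_left this
      rw [h3, h4]; ring

/-! ### the truncated polynomial `H` in an arbitrary chart -/

/-- `Σ_{j<p} j^a K_j u^j` -/
noncomputable def Hc (p a : ℕ) (u : ℚ⟦X⟧) : ℚ⟦X⟧ :=
  ∑ j ∈ Finset.range p, C ((j : ℚ) ^ a * coeff j serK) * u ^ j

theorem tau_dd_pow {τ u : ℚ⟦X⟧} (hu : τ * dd u = u) (j : ℕ) :
    τ * dd (u ^ j) = C (j : ℚ) * u ^ j := by
  induction j with
  | zero => simp [dd_one]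
  | succ j ih =>
    rw [pow_succ, dd_mul]
    push_cast
    rw [map_add, map_one]
    linear_combination u ^ j * hu + u * ih

theorem tau_dd_Hc {τ u : ℚ⟦X⟧} (hu : τ * dd u = u) (p a : ℕ) :
    τ * dd (Hc p a u) = Hc p (a + 1) u := by
  unfold Hc
  rw [dd_sum, Finset.mul_sum]
  refine Finset.sum_congr rfl fun j _ => ?_
  rw [dd_mul, dd_C]
  have h := tau_dd_pow hu j
  have e : (C ((j : ℚ) ^ (a + 1) * coeff j serK) : ℚ⟦X⟧)
      = C ((j : ℚ) ^ a * coeff j serK) * C (j : ℚ) := by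
    rw [← map_mul]; congr 1; ring
  rw [e]
  linear_combination C ((j : ℚ) ^ a * coeff j serK) * h

theorem coeff_serK_odd {n : ℕ} (h : n % 2 = 1) : coeff n serK = 0 := by
  unfold T.serK; rw [coeff_mk, if_neg]; rw [Nat.even_iff]; omega

theorem Hc_ode {p : ℕ} (h2 : p % 2 = 1) (u : ℚ⟦X⟧) :
    Hc p 2 u - u ^ 2 * (Hc p 2 u + 2 * Hc p 1 u + Hc p 0 u)
      = -(C ((p : ℚ) ^ 2 * coeff (p - 1) serK) * u ^ (p + 1)) := by
  have key : u ^ 2 * (Hc p 2 u + 2 * Hc p 1 u + Hc p 0 u)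
      = ∑ j ∈ Finset.range p, C (((j + 2 : ℕ) : ℚ) ^ 2 * coeff (j + 2) serK) * u ^ (j + 2) := by
    unfold Hc
    rw [Finset.mul_sum (s := Finset.range p) (a := (2 : ℚ⟦X⟧)), ← Finset.sum_add_distrib,
      ← Finset.sum_add_distrib, Finset.mul_sum]
    refine Finset.sum_congr rfl fun j _ => ?_
    have h1 := serK_rec j
    have e : (C (((j + 2 : ℕ) : ℚ) ^ 2 * coeff (j + 2) serK) : ℚ⟦X⟧)
        = C ((j : ℚ) ^ 2 * coeff j serK) + C 2 * C ((j : ℚ) ^ 1 * coeff j serK)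
          + C ((j : ℚ) ^ 0 * coeff j serK) := by
      rw [← map_mul, ← map_add, ← map_add]; congr 1
      push_cast
      rw [h1]; ring
    have e2 : (2 : ℚ⟦X⟧) = C 2 := two_eq
    rw [e, e2]; ring
  have tot : ∑ j ∈ Finset.range (p + 2), C ((j : ℚ) ^ 2 * coeff j serK) * u ^ j
      = ∑ j ∈ Finset.range p, C (((j + 2 : ℕ) : ℚ) ^ 2 * coeff (j + 2) serK) * u ^ (j + 2) := by
    rw [Finset.sum_range_succ', Finset.sum_range_succ']
    have h1 : coeff 1 serK = 0 := coeff_serK_odd (by norm_num)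
    have h3 : (C (((0 + 1 : ℕ) : ℚ) ^ 2 * coeff (0 + 1) serK) : ℚ⟦X⟧) * u ^ (0 + 1) = 0 := by
      simp [h1]
    have h4 : (C (((0 : ℕ) : ℚ) ^ 2 * coeff 0 serK) : ℚ⟦X⟧) * u ^ 0 = 0 := by
      simp
    rw [h3, h4, add_zero, add_zero]
  have tot2 : ∑ j ∈ Finset.range (p + 2), C ((j : ℚ) ^ 2 * coeff j serK) * u ^ j
      = Hc p 2 u + C ((p : ℚ) ^ 2 * coeff (p - 1) serK) * u ^ (p + 1) := by
    rw [Finset.sum_range_succ, Finset.sum_range_succ]
    have h1 : coeff p serK = 0 := coeff_serK_odd h2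
    have h3 := serK_rec (p - 1)
    have e1 : p - 1 + 2 = p + 1 := by omega
    have e2 : ((p - 1 : ℕ) : ℚ) = (p : ℚ) - 1 := by
      rw [Nat.cast_sub (by omega)]; simp
    rw [e1, e2] at h3
    have h4 : (((p + 1 : ℕ) : ℚ)) ^ 2 * coeff (p + 1) serK = (p : ℚ) ^ 2 * coeff (p - 1) serK := by
      push_cast
      linear_combination h3
    rw [h1, h4]
    simp [Hc]
  rw [key, ← tot, tot2]; ring

/-- **the Wronskian with the truncated polynomial** in a chart `u`, `τ u' = u` -/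
theorem wronskian {τ u f r : ℚ⟦X⟧} {p : ℕ} (h2 : p % 2 = 1) (hu : τ * dd u = u)
    (hf : (1 - u ^ 2) * (τ * dd (τ * dd f)) - 2 * u ^ 2 * (τ * dd f) - u ^ 2 * f = r) :
    τ * dd ((1 - u ^ 2) * (Hc p 0 u * (τ * dd f) - f * Hc p 1 u))
      = Hc p 0 u * r + f * (C ((p : ℚ) ^ 2 * coeff (p - 1) serK) * u ^ (p + 1)) := by
  have a0 := tau_dd_Hc hu p 0
  have a1 := tau_dd_Hc hu p 1
  have a2 := Hc_ode h2 u
  have e1 : dd (1 - u ^ 2) = -(2 * u * dd u) := by rw [dd_sub, dd_one, dd_sq]; ring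
  rw [dd_mul (1 - u ^ 2), e1, dd_sub (Hc p 0 u * (τ * dd f)), dd_mul (Hc p 0 u),
    dd_mul f (Hc p 1 u)]
  simp only [zero_add, Nat.reduceAdd] at a0 a1
  linear_combination (-2 * u * (Hc p 0 u * (τ * dd f) - f * Hc p 1 u)) * hu
    + (1 - u ^ 2) * (τ * dd f) * a0 - (1 - u ^ 2) * f * a1
    + Hc p 0 u * hf - f * a2

end Vale.Agent.P030.H678
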