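import Vale.Agent.P030.H678.Ent

/-!
# P030, odd primes: congruences modulo `p`, part 1 (congruence calculus, polylogarithms)

`EqP p N f g` : the coefficients of `f - g` below `N` have valuation `≥ 1`.
`up p f = f (t^p)`.
-/

open PowerSeries

set_option linter.unusedSectionVars false

namespace Vale.Agent.P030.H678

open Vale.Agent.P030.T Vale.Agent.P030.H792

variable {p : ℕ} [hp : Fact p.Prime]

/-- congruence modulo `p` below `N` -/
def EqP (p N : ℕ) (f g : ℚ⟦X⟧) : Prop := VB p N 1 (f - g)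

variable {N : ℕ} {f g h k : ℚ⟦X⟧}

theorem EqP.rfl' : EqP p N f f := by unfold EqP; rw [sub_self]; exact VB.zero
theorem EqP.of_eq (h : f = g) : EqP p N f g := h ▸ EqP.rfl'
theorem EqP.symm (h : EqP p N f g) : EqP p N g f := by
  unfold EqP at *; rw [← neg_sub]; exact h.neg
theorem EqP.trans (h1 : EqP p N f g) (h2 : EqP p N g h) : EqP p N f h := by
  unfold EqP at *
  have : f - h = (f - g) + (g - h) := by ring
  rw [this]; exact h1.add h2
theorem EqP.add (h1 : EqP p N f g) (h2 : EqP p N h k) : EqP p N (f + h) (g + k) := by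
  unfold EqP at *
  have : f + h - (g + k) = (f - g) + (h - k) := by ring
  rw [this]; exact h1.add h2
theorem EqP.neg (h1 : EqP p N f g) : EqP p N (-f) (-g) := by
  unfold EqP at *
  have : -f - -g = -(f - g) := by ring
  rw [this]; exact VB.neg h1
theorem EqP.sub (h1 : EqP p N f g) (h2 : EqP p N h k) : EqP p N (f - h) (g - k) := by
  rw [sub_eq_add_neg, sub_eq_add_neg]; exact h1.add h2.neg
theorem EqP.mul (hf : VB p N 0 f) (hk : VB p N 0 k) (h1 : EqP p N f g) (h2 : EqP p N h k) :
    EqP p N (f * h) (g * k) := by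
  unfold EqP at *
  have : f * h - g * k = f * (h - k) + k * (f - g) := by ring
  rw [this]; exact (hf.mul0 h2).add (hk.mul0 h1)
theorem EqP.mul_left (hf : VB p N 0 f) (h2 : EqP p N h k) : EqP p N (f * h) (f * k) := by
  unfold EqP at *
  have : f * h - f * k = f * (h - k) := by ring
  rw [this]; exact hf.mul0 h2
theorem EqP.le {M : ℕ} (hM : M ≤ N) (h1 : EqP p N f g) : EqP p M f g := VB.le hM h1
theorem EqP.of_VB1 (h1 : VB p N 1 f) : EqP p N f 0 := by unfold EqP; rwa [sub_zero]
theorem EqP.vb0 (h1 : EqP p N f g) (hg : VB p N 0 g) : VB p N 0 f := by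
  have : f = (f - g) + g := by ring
  rw [this]; exact (VB.mono (by omega) h1).add hg
theorem EqP.th (h1 : EqP p N f g) : EqP p N (T.th f) (T.th g) := by
  unfold EqP at *; rw [← th_sub]; exact VB.th h1
theorem EqP.dd (h1 : EqP p (N + 1) f g) : EqP p N (T.dd f) (T.dd g) := by
  unfold EqP at *; rw [← dd_sub]; exact VB.dd h1
theorem EqP.sum {ι : Type*} {s : Finset ι} {F G : ι → ℚ⟦X⟧} (h : ∀ i ∈ s, EqP p N (F i) (G i)) :
    EqP p N (∑ i ∈ s, F i) (∑ i ∈ s, G i) := by
  unfold EqP; rw [← Finset.sum_sub_distrib]; exact VB.sum h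

/-! ### `up` -/

/-- `f(t^p)` -/
noncomputable def up (p : ℕ) (f : ℚ⟦X⟧) : ℚ⟦X⟧ :=
  mk fun n => if p ∣ n then coeff (n / p) f else 0

theorem coeff_up_mul (f : ℚ⟦X⟧) (m : ℕ) : coeff (p * m) (up p f) = coeff m f := by
  unfold up
  rw [coeff_mk, if_pos (dvd_mul_right p m), Nat.mul_div_cancel_left m hp.1.pos]

theorem coeff_up_of_not_dvd (f : ℚ⟦X⟧) {n : ℕ} (h : ¬ p ∣ n) : coeff n (up p f) = 0 := by
  unfold up; rw [coeff_mk, if_neg h]

theorem up_add (f g : ℚ⟦X⟧) : up p (f + g) = up p f + up p g := by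
  ext n; unfold up; simp only [coeff_mk, map_add]; split_ifs <;> simp

theorem up_neg (f : ℚ⟦X⟧) : up p (-f) = -up p f := by
  ext n; unfold up; simp only [coeff_mk, map_neg]; split_ifs <;> simp

theorem up_sub (f g : ℚ⟦X⟧) : up p (f - g) = up p f - up p g := by
  rw [sub_eq_add_neg, up_add, up_neg, sub_eq_add_neg]

theorem up_zero : up p 0 = 0 := by
  ext n; unfold up; simp

theorem up_C (q : ℚ) : up p (C q) = C q := by
  ext n
  unfold up
  rw [coeff_mk, coeff_C, coeff_C]
  by_cases hn : n = 0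
  · subst hn; simp
  · rw [if_neg hn]
    split_ifs with h h'
    · exfalso
      obtain ⟨m, rfl⟩ := h
      rw [Nat.mul_div_cancel_left m hp.1.pos] at h'
      subst h'; simp at hn
    · rfl
    · rfl

theorem up_one : up p 1 = 1 := by
  have := up_C (p := p) 1
  simpa using this

theorem up_C_mul (q : ℚ) (f : ℚ⟦X⟧) : up p (C q * f) = C q * up p f := by
  ext n; unfold up; simp only [coeff_mk, coeff_C_mul]; split_ifs <;> simp

theorem up_sc (q : ℚ) (f : ℚ⟦X⟧) : up p (sc q f) = sc q (up p f) := up_C_mul q f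

theorem up_mul (f g : ℚ⟦X⟧) : up p (f * g) = up p f * up p g := by
  ext n
  rw [coeff_mul (n := n)]
  by_cases hn : p ∣ n
  · obtain ⟨m, rfl⟩ := hn
    rw [coeff_up_mul, coeff_mul]
    symm
    have hinj : Function.Injective fun ij : ℕ × ℕ => (p * ij.1, p * ij.2) := by
      intro a b hab
      have h1 := (Prod.ext_iff.1 hab).1
      have h2 := (Prod.ext_iff.1 hab).2
      simp only at h1 h2
      exact Prod.ext (Nat.eq_of_mul_eq_mul_left hp.1.pos h1)
        (Nat.eq_of_mul_eq_mul_left hp.1.pos h2)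
    rw [← Finset.sum_subset (s₁ := (Finset.HasAntidiagonal.antidiagonal m).map ⟨_, hinj⟩)]
    · rw [Finset.sum_map]
      refine Finset.sum_congr rfl fun ij _ => ?_
      simp only [Function.Embedding.coeFn_mk]
      rw [coeff_up_mul, coeff_up_mul]
    · intro ij hij
      obtain ⟨a, ha, rfl⟩ := Finset.mem_map.1 hij
      have ha' : a.1 + a.2 = m := by simpa using ha
      simp only [Function.Embedding.coeFn_mk]
      have : p * a.1 + p * a.2 = p * m := by rw [← mul_add, ha']
      simpa using this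
    · intro ij hij hij'
      have hs : ij.1 + ij.2 = p * m := by simpa using hij
      by_cases h1 : p ∣ ij.1
      · have h2 : p ∣ ij.2 := (Nat.dvd_add_right h1).1 (hs ▸ dvd_mul_right p m)
        exfalso
        apply hij'
        obtain ⟨a, ha⟩ := h1
        obtain ⟨b, hb⟩ := h2
        refine Finset.mem_map.2 ⟨(a, b), ?_, ?_⟩
        · have : a + b = m := by
            apply Nat.eq_of_mul_eq_mul_left hp.1.pos
            rw [mul_add, ← ha, ← hb, hs]
          simpa using this
        · simp only [Function.Embedding.coeFn_mk]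
          exact Prod.ext ha.symm hb.symm
      · rw [coeff_up_of_not_dvd f h1, zero_mul]
  · rw [coeff_up_of_not_dvd _ hn]
    symm
    refine Finset.sum_eq_zero fun ij hij => ?_
    have hs : ij.1 + ij.2 = n := by simpa using hij
    by_cases h1 : p ∣ ij.1
    · have h2 : ¬ p ∣ ij.2 := fun h2 => hn (hs ▸ dvd_add h1 h2)
      rw [coeff_up_of_not_dvd g h2, mul_zero]
    · rw [coeff_up_of_not_dvd f h1, zero_mul]

theorem up_X : up p X = X ^ p := by
  ext n
  unfold up
  rw [coeff_mk, coeff_X, coeff_X_pow]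
  by_cases hn : n = p
  · subst hn; simp [Nat.div_self hp.1.pos]
  · rw [if_neg hn]
    split_ifs with h h'
    · exfalso
      obtain ⟨m, rfl⟩ := h
      rw [Nat.mul_div_cancel_left m hp.1.pos] at h'
      subst h'; simp at hn
    · rfl
    · rfl

theorem VB_up {e : ℤ} {M : ℕ} (hN : N ≤ p * M) (hf : VB p M e f) : VB p N e (up p f) := by
  intro n hn
  unfold up
  rw [coeff_mk]
  split_ifs with h
  · obtain ⟨m, rfl⟩ := h
    rw [Nat.mul_div_cancel_left m hp.1.pos]
    exact hf m (lt_of_mul_lt_mul_left (lt_of_lt_of_le hn hN) (Nat.zero_le p))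
  · exact Vg.zero e

/-- derivatives of functions of `t^p` are `0` modulo `p` -/
theorem VB_dd_up {M : ℕ} (hN : N + 1 ≤ p * M) (hf : VB p M 0 f) : VB p N 1 (T.dd (up p f)) := by
  intro n hn
  unfold T.dd
  rw [coeff_mk]
  by_cases h : p ∣ n + 1
  · have h1 := VB_up (N := N + 1) hN hf (n + 1) (by omega)
    have := Vg.dvd_nat h h1
    have e : (((n + 1 : ℕ) : ℚ)) = (n : ℚ) + 1 := by push_cast; ring
    rw [e] at this
    simpa using this
  · rw [coeff_up_of_not_dvd f h, mul_zero]; exact Vg.zero _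

theorem VB_th_up {M : ℕ} (hN : N ≤ p * M) (hf : VB p M 0 f) : VB p N 1 (T.th (up p f)) := by
  intro n hn
  unfold T.th
  rw [coeff_mk]
  by_cases h : p ∣ n
  · have h1 := VB_up (N := N) hN hf n hn
    have := Vg.dvd_nat h h1
    simpa using this
  · rw [coeff_up_of_not_dvd f h, mul_zero]; exact Vg.zero _

/-! ### polylogarithms -/

theorem Vg_p : Vg p 1 (p : ℚ) := by
  have := Vg.dvd_nat (p := p) (n := p) (x := 1) dvd_rfl Vg.one
  simpa using this

theorem p_ne : (p : ℚ) ≠ 0 := p_pos'.ne'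

theorem red_lgm : EqP p N (C (p : ℚ) * lgm) (up p lgm) := by
  intro n _
  rw [map_sub, coeff_C_mul]
  by_cases h : p ∣ n
  · obtain ⟨m, rfl⟩ := h
    rw [coeff_up_mul]
    have : (p : ℚ) * coeff (p * m) lgm - coeff m lgm = 0 := by
      unfold T.lgm
      rw [coeff_mk, coeff_mk]
      by_cases hm : m = 0
      · subst hm; simp
      · rw [if_neg (by simp [hm, hp.1.ne_zero]), if_neg hm]
        have hm' : (m : ℚ) ≠ 0 := by exact_mod_cast hm
        have := p_ne (p := p)
        push_cast
        field_simp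
        ring
    rw [this]; exact Vg.zero _
  · rw [coeff_up_of_not_dvd _ h, sub_zero]
    unfold T.lgm
    rw [coeff_mk]
    split_ifs with h0
    · rw [mul_zero]; exact Vg.zero _
    · have := Vg_p (p := p) |>.div_unit h
      have e : (p : ℚ) * (1 / n) = p / n := by ring
      rw [e]; exact this

theorem odd_pow_neg_one (h2 : p % 2 = 1) (m : ℕ) : ((-1 : ℚ)) ^ (p * m) = (-1) ^ m := by
  rw [pow_mul]
  congr 1
  exact Odd.neg_one_pow (Nat.odd_iff.2 h2)

theorem red_lgp (h2 : p ≠ 2) : EqP p N (C (p : ℚ) * lgp) (up p lgp) := by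
  intro n _
  rw [map_sub, coeff_C_mul]
  by_cases h : p ∣ n
  · obtain ⟨m, rfl⟩ := h
    rw [coeff_up_mul]
    have : (p : ℚ) * coeff (p * m) lgp - coeff m lgp = 0 := by
      unfold T.lgp
      rw [coeff_mk, coeff_mk]
      by_cases hm : m = 0
      · subst hm; simp
      · rw [if_neg (by simp [hm, hp.1.ne_zero]), if_neg hm]
        have hm' : (m : ℚ) ≠ 0 := by exact_mod_cast hm
        have := p_ne (p := p)
        rw [pow_succ, pow_succ, odd_pow_neg_one (odd_of_ne_two h2)]
        push_cast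
        field_simp
        ring
    rw [this]; exact Vg.zero _
  · rw [coeff_up_of_not_dvd _ h, sub_zero]
    unfold T.lgp
    rw [coeff_mk]
    split_ifs with h0
    · rw [mul_zero]; exact Vg.zero _
    · have h1 : Vg p 1 ((p : ℚ) * (-1) ^ (n + 1)) := by
        have hs := Vg.int (p := p) ((-1) ^ (n + 1))
        have := (Vg_p (p := p)).mul hs
        simpa using this
      have := h1.div_unit h
      have e : (p : ℚ) * ((-1) ^ (n + 1) / n) = p * (-1) ^ (n + 1) / n := by ring
      rw [e]; exact this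

theorem red_li2 : EqP p N (C ((p : ℚ) ^ 2) * li2) (up p li2) := by
  intro n _
  rw [map_sub, coeff_C_mul]
  by_cases h : p ∣ n
  · obtain ⟨m, rfl⟩ := h
    rw [coeff_up_mul]
    have : (p : ℚ) ^ 2 * coeff (p * m) li2 - coeff m li2 = 0 := by
      unfold T.li2
      rw [coeff_mk, coeff_mk]
      by_cases hm : m = 0
      · subst hm; simp
      · rw [if_neg (by simp [hm, hp.1.ne_zero]), if_neg hm]
        have hm' : (m : ℚ) ≠ 0 := by exact_mod_cast hm
        have := p_ne (p := p)
        push_cast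
        field_simp
        ring
    rw [this]; exact Vg.zero _
  · rw [coeff_up_of_not_dvd _ h, sub_zero]
    unfold T.li2
    rw [coeff_mk]
    split_ifs with h0
    · rw [mul_zero]; exact Vg.zero _
    · have h1 := (Vg_p (p := p)).mul (Vg_p (p := p))
      have := (h1.div_unit h).div_unit h
      have e : (p : ℚ) ^ 2 * (1 / (n : ℚ) ^ 2) = p * p / n / n := by
        rw [div_div, mul_one_div, sq, sq]
      rw [e]; exact this.mono (by omega)

/-- coefficient extraction used for the integrals -/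
theorem coeff_mul_up {a b : ℚ⟦X⟧} (ha : ∀ j, coeff (p * (j + 1) - 1) a = coeff j a) (m : ℕ) :
    coeff (p * (m + 1) - 1) (a * up p b) = coeff m (a * b) := by
  have hp1 := hp.1.pos
  rw [coeff_mul, coeff_mul]
  have hinj : Function.Injective fun ij : ℕ × ℕ => (p * (ij.1 + 1) - 1, p * ij.2) := by
    intro a b hab
    have h1 := (Prod.ext_iff.1 hab).1
    have h2 := (Prod.ext_iff.1 hab).2
    simp only at h1 h2
    have h3 : p * (a.1 + 1) = p * (b.1 + 1) := by
      have : 0 < p * (a.1 + 1) := by positivity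
      have : 0 < p * (b.1 + 1) := by positivity
      omega
    have h4 := Nat.eq_of_mul_eq_mul_left hp1 h3
    exact Prod.ext (by omega) (Nat.eq_of_mul_eq_mul_left hp1 h2)
  rw [← Finset.sum_subset (s₁ := (Finset.HasAntidiagonal.antidiagonal m).map ⟨_, hinj⟩)]
  · rw [Finset.sum_map]
    refine Finset.sum_congr rfl fun ij _ => ?_
    simp only [Function.Embedding.coeFn_mk]
    rw [ha, coeff_up_mul]
  · intro ij hij
    obtain ⟨a, ha, rfl⟩ := Finset.mem_map.1 hij
    have ha' : a.1 + a.2 = m := by simpa using ha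
    simp only [Function.Embedding.coeFn_mk]
    have h1 : p * (a.1 + 1) + p * a.2 = p * (m + 1) := by rw [← mul_add]; congr 1; omega
    have h2 : 0 < p * (a.1 + 1) := by positivity
    have : p * (a.1 + 1) - 1 + p * a.2 = p * (m + 1) - 1 := by omega
    simpa using this
  · intro ij hij hij'
    have hs : ij.1 + ij.2 = p * (m + 1) - 1 := by simpa using hij
    by_cases h2 : p ∣ ij.2
    · exfalso
      apply hij'
      obtain ⟨b, hb⟩ := h2
      have hpos : 0 < p * (m + 1) := by positivity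
      have hb' : b ≤ m := by
        by_contra hc
        have : p * (m + 1) ≤ p * b := Nat.mul_le_mul_left p (by omega)
        omega
      refine Finset.mem_map.2 ⟨(m - b, b), ?_, ?_⟩
      · have : m - b + b = m := by omega
        simpa using this
      · simp only [Function.Embedding.coeFn_mk]
        refine Prod.ext ?_ hb.symm
        simp only
        have h3 : p * (m - b + 1) + p * b = p * (m + 1) := by
          rw [← mul_add]; congr 1; omega
        omega
    · rw [coeff_up_of_not_dvd b h2, mul_zero]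

/-- integrals of `a * lgm` -/
theorem red_integ (h2 : p ≠ 2) {a : ℚ⟦X⟧} (hN : N ≤ p ^ 2) (ha0 : VB p N 0 a)
    (ha : ∀ j, coeff (p * (j + 1) - 1) a = coeff j a) :
    EqP p N (C ((p : ℚ) ^ 2) * integ (a * lgm)) (up p (integ (a * lgm))) := by
  have hp1 := hp.1.pos
  have hc : EqP p N (a * (C (p : ℚ) * lgm)) (a * up p lgm) := EqP.mul_left ha0 red_lgm
  intro n hn
  rw [map_sub, coeff_C_mul]
  by_cases h : p ∣ n
  · obtain ⟨m, rfl⟩ := h
    rw [coeff_up_mul]
    unfold T.integ
    rw [coeff_mk, coeff_mk]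
    by_cases hm : m = 0
    · subst hm; simp; exact Vg.zero _
    · rw [if_neg (by simp [hm, hp.1.ne_zero]), if_neg hm]
      obtain ⟨m, rfl⟩ : ∃ m', m = m' + 1 := ⟨m - 1, by omega⟩
      have hpos : 0 < p * (m + 1) := by positivity
      have h1 := hc (p * (m + 1) - 1) (by omega)
      rw [map_sub, coeff_mul_up ha m] at h1
      have e1 : a * (C (p : ℚ) * lgm) = C (p : ℚ) * (a * lgm) := by ring
      rw [e1, coeff_C_mul] at h1
      have hmp : ¬ p ∣ m + 1 := by
        intro hd
        have h3 : p * (m + 1) < p * p := by rw [← sq]; omega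
        have h4 : m + 1 < p := lt_of_mul_lt_mul_left h3 (Nat.zero_le p)
        exact absurd (Nat.le_of_dvd (by omega) hd) (by omega)
      have h5 := h1.div_unit hmp
      have hmq : ((m : ℚ) + 1) ≠ 0 := by positivity
      have hpq := p_ne (p := p)
      have e2 : (p : ℚ) ^ 2 * (coeff (p * (m + 1) - 1) (a * lgm) / ((p * (m + 1) : ℕ) : ℚ))
          - coeff (m + 1 - 1) (a * lgm) / ((m + 1 : ℕ) : ℚ)
          = ((p : ℚ) * coeff (p * (m + 1) - 1) (a * lgm) - coeff m (a * lgm))
            / ((m + 1 : ℕ) : ℚ) := by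
        push_cast
        field_simp
      rw [e2]; exact h5
  · rw [coeff_up_of_not_dvd _ h, sub_zero]
    unfold T.integ
    rw [coeff_mk]
    split_ifs with h0
    · rw [mul_zero]; exact Vg.zero _
    · have h1 : Vg p (-1) (coeff (n - 1) (a * lgm)) := by
        have := ha0.mul0 (VB.lgm (p := p) hN)
        exact this (n - 1) (by omega)
      have h3 := ((Vg_p (p := p)).mul (Vg_p (p := p))).mul h1
      have h4 := h3.div_unit h
      have e : (p : ℚ) ^ 2 * (coeff (n - 1) (a * lgm) / n)
          = p * p * coeff (n - 1) (a * lgm) / n := by ring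
      rw [e]; exact h4.mono (by omega)

theorem geoa_step (h2 : p % 2 = 1) (j : ℕ) : coeff (p * (j + 1) - 1) geoa = coeff j geoa := by
  unfold T.geoa
  rw [coeff_mk, coeff_mk]
  have h1 : ((-1 : ℚ)) ^ (p * (j + 1) - 1) * (-1) = (-1) ^ j * (-1) := by
    rw [← pow_succ, ← pow_succ]
    have : p * (j + 1) - 1 + 1 = p * (j + 1) := by
      have : 0 < p * (j + 1) := by have := hp.1.pos; positivity
      omega
    rw [this, odd_pow_neg_one h2]
  linarith

theorem geo2_step (h2 : p % 2 = 1) (j : ℕ) : coeff (p * (j + 1) - 1) geo2 = coeff j geo2 := by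
  unfold T.geo2
  rw [coeff_mk, coeff_mk]
  have hpos : 0 < p * (j + 1) := by have := hp.1.pos; positivity
  have : Even (p * (j + 1) - 1) ↔ Even j := by
    rw [Nat.even_iff, Nat.even_iff]
    obtain ⟨q, hq⟩ : ∃ q, p = 2 * q + 1 := ⟨p / 2, by omega⟩
    have e : p * (j + 1) = 2 * (q * (j + 1)) + (j + 1) := by rw [hq]; ring
    omega
  simp only [this]

theorem red_int_geoa (h2 : p ≠ 2) (hN : N ≤ p ^ 2) :
    EqP p N (C ((p : ℚ) ^ 2) * integ (geoa * lgm)) (up p (integ (geoa * lgm))) :=
  red_integ h2 hN VB.geoa (geoa_step (odd_of_ne_two h2))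

theorem red_int_geo2 (h2 : p ≠ 2) (hN : N ≤ p ^ 2) :
    EqP p N (C ((p : ℚ) ^ 2) * integ (geo2 * lgm)) (up p (integ (geo2 * lgm))) :=
  red_integ h2 hN VB.geo2 (geo2_step (odd_of_ne_two h2))

theorem VB_plgm (hN : N ≤ p ^ 2) : VB p N 0 (C (p : ℚ) * lgm) := by
  have := (VB.C (Vg_p (p := p)) (N := N)).mul (VB.lgm hN)
  simpa using this

theorem VB_up_lgm (hN : N ≤ p ^ 2) : VB p N 0 (up p lgm) := by
  have h := (red_lgm (p := p) (N := N)).symm
  exact h.vb0 (VB_plgm hN)

theorem red_lgm_sq (hN : N ≤ p ^ 2) : EqP p N (C ((p : ℚ) ^ 2) * lgm ^ 2) (up p (lgm ^ 2)) := by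
  have h := EqP.mul (VB_plgm hN) (VB_up_lgm hN) (red_lgm (p := p)) (red_lgm (p := p))
  rw [← up_mul] at h
  have e : C (p : ℚ) * lgm * (C (p : ℚ) * lgm) = C ((p : ℚ) ^ 2) * lgm ^ 2 := by
    rw [map_pow]; ring
  have e2 : lgm * lgm = lgm ^ 2 := (sq _).symm
  rw [e, e2] at h
  exact h

end Vale.Agent.P030.H678
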