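import Vale.Agent.P030.H678.RedG

/-!
# P030, odd primes: congruences modulo `p`, part 4 (`B`, `B2`, `M`; change of chart)
-/

open PowerSeries

set_option linter.unusedSectionVars false

namespace Vale.Agent.P030.H678

open Vale.Agent.P030.T Vale.Agent.P030.H792

variable {p : ℕ} [hp : Fact p.Prime] {N : ℕ}

theorem dd_C_mul (q : ℚ) (f : ℚ⟦X⟧) : dd (C q * f) = C q * dd f := by
  rw [dd_mul, dd_C]; ring

theorem EE_C_mul (q : ℚ) (G : ℚ⟦X⟧) : EE (C q * G) = C q * EE G := by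
  rw [EE_expand, EE_expand, dd_C_mul, dd_C_mul]
  ring

theorem Sol_K (h2 : p ≠ 2) (N : ℕ) : Sol p N serK :=
  ⟨VBK h2 N, by rw [EE_K, mul_zero]; exact VB.zero⟩

theorem Vg_p2 : Vg p 2 ((p : ℚ) ^ 2) := by
  rw [sq]; exact (Vg_p (p := p)).mul Vg_p

theorem Vg_neg_quarter (h2 : p ≠ 2) : Vg p 0 (-1 / 4 : ℚ) := by
  have := Vg.div_unit (p := p) (n := 4) (x := -1) (e := 0) (not_dvd_four h2) (Vg.one.neg)
  simpa using this

theorem Sol_B (h2 : p ≠ 2) (hN : N ≤ p ^ 2) : Sol p N (C ((p : ℚ) ^ 2) * serB) := by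
  refine ⟨?_, ?_⟩
  · have := (VB.C (N := N) (Vg_p2 (p := p))).mul (VBB h2 hN)
    simpa using this
  · rw [EE_C_mul, EE_B]
    have h1 : VB p N 2 (C ((p : ℚ) ^ 2) * sc (-1 / 4) geo : ℚ⟦X⟧) := by
      have := (VB.C (N := N) (Vg_p2 (p := p))).mul (VB.sc0 (Vg_neg_quarter h2) VB.geo)
      simpa using this
    exact VB.X.mul0 h1

theorem Sol_B2 (h2 : p ≠ 2) (hN : N ≤ p ^ 2) : Sol p N (C ((p : ℚ) ^ 2) * serB2) := by
  refine ⟨?_, ?_⟩
  · have := (VB.C (N := N) (Vg_p2 (p := p))).mul (VBB2 h2 hN)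
    simpa using this
  · rw [EE_C_mul, EE_B2]
    have h1 : VB p N 2 (C ((p : ℚ) ^ 2) * C (-1 / 4) : ℚ⟦X⟧) := by
      have := (VB.C (N := N) (Vg_p2 (p := p))).mul (VB.C (Vg_neg_quarter h2))
      simpa using this
    exact VB.X.mul0 h1

/-- the values at `p m` from the recursion -/
theorem Sol.values {G : ℚ⟦X⟧} (h : Sol p N G) (h2 : p ≠ 2) (hN : N ≤ p ^ 2) {b ρ : ℕ → ℚ}
    (h0 : 0 < N → Cg p (coeff 0 G) (b 0)) (h1 : b 1 = ρ 1)
    (hrec : ∀ m : ℕ, ((m : ℚ) + 2) ^ 2 * b (m + 2) = ((m : ℚ) + 1) ^ 2 * b m + ρ (m + 2))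
    (hρ : ∀ m, p * (m + 1) < N → Cg p
      (1 / (p : ℚ) * (1 / (p : ℚ) * coeff (p * (m + 1)) (Hc p 0 X * (X * EE G)))) (ρ (m + 1))) :
    ∀ m, p * m < N → Cg p (coeff (p * m) G) (b m) := by
  intro m
  induction m using Nat.strong_induction_on with
  | _ m ih =>
    intro hm
    match m, ih, hm with
    | 0, _, hm => rw [mul_zero] at hm ⊢; exact h0 hm
    | 1, _, hm =>
      have h3 := hρ 0 (by simpa using hm)
      rw [zero_add, mul_one] at h3
      rw [mul_one] at hm ⊢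
      rw [h1]
      exact (h.rec_one h2 hm).trans h3
    | m + 2, ih, hm =>
      have hex : p * (m + 2) = p * m + 2 * p := by ring
      have hlt : m + 2 < p := by
        have : p * (m + 2) < p * p := by rw [← sq]; omega
        exact lt_of_mul_lt_mul_left this (Nat.zero_le p)
      have hu : ¬ p ∣ (m + 2) := fun h => absurd (Nat.le_of_dvd (by omega) h) (by omega)
      apply Cg.of_sq_unit hu
      have h3 := h.rec_p h2 hm
      have h4 := hρ (m + 1) hm
      have h5 := ih m (by omega) (by omega)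
      have e : (((m + 2 : ℕ) : ℚ)) ^ 2 = ((m : ℚ) + 2) ^ 2 := by push_cast; ring
      rw [e, hrec m]
      refine h3.trans (Cg.add ?_ h4)
      refine Cg.mul_left ?_ h5
      have := Vg.nat (p := p) ((m + 1) ^ 2)
      simpa using this

theorem Sol.eqP {G g : ℚ⟦X⟧} (h : Sol p N G) (h2 : p ≠ 2)
    (hg : ∀ m, p * m < N → Cg p (coeff (p * m) G) (coeff m g)) :
    EqP p N G (Hc p 0 X * up p g) := by
  intro n hn
  rw [map_sub]
  have hn' : n = p * (n / p) + n % p := (Nat.div_add_mod n p).symm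
  have hr := Nat.mod_lt n hp.1.pos
  have h1 := h.red h2 (n / p) (n % p) hr (by rw [← hn']; exact hn)
  rw [← hn'] at h1
  have h3 := coeff_Hc_up (p := p) 0 g (n / p) (n % p) hr
  rw [← hn'] at h3
  rw [h3, pow_zero, one_mul]
  exact h1.trans (Cg.mul_left (VhK h2 _) (hg (n / p) (by omega)))

theorem Sol.eqP_th {G g : ℚ⟦X⟧} (h : Sol p N G) (h2 : p ≠ 2)
    (hg : ∀ m, p * m < N → Cg p (coeff (p * m) G) (coeff m g)) :
    EqP p N (th G) (Hc p 1 X * up p g) := by
  intro n hn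
  rw [map_sub]
  have h0 := h.eqP h2 hg n hn
  rw [map_sub] at h0
  have hn' : n = p * (n / p) + n % p := (Nat.div_add_mod n p).symm
  have hr := Nat.mod_lt n hp.1.pos
  have h3 := coeff_Hc_up (p := p) 0 g (n / p) (n % p) hr
  have h4 := coeff_Hc_up (p := p) 1 g (n / p) (n % p) hr
  rw [← hn'] at h3 h4
  rw [h3, pow_zero, one_mul] at h0
  rw [h4, pow_one]
  have e : coeff n (th G) = n * coeff n G := by simp [T.th]
  rw [e, mul_assoc]
  have c1 : Cg p ((n : ℚ) * coeff n G) (((n % p : ℕ) : ℚ) * coeff n G) := by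
    unfold Cg
    have e2 : (n : ℚ) = p * ((n / p : ℕ) : ℚ) + ((n % p : ℕ) : ℚ) := by exact_mod_cast hn'
    have e3 : (n : ℚ) * coeff n G - ((n % p : ℕ) : ℚ) * coeff n G
        = p * (((n / p : ℕ) : ℚ) * coeff n G) := by
      rw [e2]; ring
    rw [e3]
    exact Vg1_p_mul ((Vg.nat _).mul0 (h.int n hn))
  exact c1.trans (Cg.mul_left (Vg.nat _) h0)

theorem coeff_Hc_geo (h2 : p ≠ 2) (m : ℕ) :
    Cg p (coeff (p * (m + 1)) (Hc p 0 X * (X * geo))) (chi p) := by
  have e : coeff (p * (m + 1)) (Hc p 0 X * (X * geo)) = ∑ j ∈ Finset.range p, hK j := by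
    rw [coeff_Hc_mul]
    refine Finset.sum_congr rfl fun j hj => ?_
    have hj' := Finset.mem_range.1 hj
    have hex : p * (m + 1) = p * m + p := by ring
    rw [if_pos (by omega), pow_zero, one_mul]
    obtain ⟨k, hk⟩ : ∃ k, p * (m + 1) - j = k + 1 := ⟨p * (m + 1) - j - 1, by omega⟩
    rw [hk, coeff_succ_X_mul]
    simp [T.geo]
  rw [e]; exact H_one h2

/-- `p² B_{pm} ≡ χ B_m` -/
theorem val_B (h2 : p ≠ 2) (hN : N ≤ p ^ 2) : ∀ m, p * m < N →
    Cg p (coeff (p * m) (C ((p : ℚ) ^ 2) * serB)) (coeff m (C (chi p) * serB)) := by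
  have hpq := p_ne (p := p)
  have key := (Sol_B (p := p) h2 hN).values h2 hN (b := fun m => coeff m (C (chi p) * serB))
    (ρ := fun _ => -1 / 4 * chi p) ?_ ?_ ?_ ?_
  · exact key
  · intro _
    rw [coeff_C_mul, coeff_C_mul]
    simp [T.serB, cB]; exact Cg.rfl'
  · simp only [coeff_C_mul]
    simp [T.serB, cB]; ring
  · intro m
    simp only [coeff_C_mul, T.serB, coeff_mk]
    rw [cB]
    have : ((m : ℚ) + 2) ^ 2 ≠ 0 := by positivity
    field_simp
    ring
  · intro m _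
    rw [EE_C_mul, EE_B]
    have e : Hc p 0 X * (X * (C ((p : ℚ) ^ 2) * sc (-1 / 4) geo))
        = C ((p : ℚ) ^ 2 * (-1 / 4)) * (Hc p 0 X * (X * geo)) := by
      unfold T.sc; rw [map_mul]; ring
    rw [e, coeff_C_mul]
    have e2 : 1 / (p : ℚ) * (1 / (p : ℚ) * ((p : ℚ) ^ 2 * (-1 / 4)
        * coeff (p * (m + 1)) (Hc p 0 X * (X * geo))))
        = -1 / 4 * coeff (p * (m + 1)) (Hc p 0 X * (X * geo)) := by field_simp
    rw [e2]
    exact Cg.mul_left (Vg_neg_quarter h2) (coeff_Hc_geo h2 m)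

/-- `p² B2_{pm} ≡ B2_m` -/
theorem val_B2 (h2 : p ≠ 2) (hN : N ≤ p ^ 2) : ∀ m, p * m < N →
    Cg p (coeff (p * m) (C ((p : ℚ) ^ 2) * serB2)) (coeff m serB2) := by
  have hpq := p_ne (p := p)
  have key := (Sol_B2 (p := p) h2 hN).values h2 hN (b := fun m => coeff m serB2)
    (ρ := fun m => if m = 1 then -1 / 4 else 0) ?_ ?_ ?_ ?_
  · exact key
  · intro _
    rw [coeff_C_mul]
    simp [T.serB2, cB2]; exact Cg.rfl'
  · simp [T.serB2, cB2]
  · intro m
    simp only [T.serB2, coeff_mk]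
    rw [cB2]
    have : ((m : ℚ) + 2) ^ 2 ≠ 0 := by positivity
    field_simp
    simp
  · intro m _
    rw [EE_C_mul, EE_B2]
    have e : Hc p 0 X * (X * (C ((p : ℚ) ^ 2) * C (-1 / 4)))
        = C ((p : ℚ) ^ 2 * (-1 / 4)) * (Hc p 0 X * X) := by
      rw [map_mul]; ring
    rw [e, coeff_C_mul]
    have hp1 := hp.1.one_lt
    have hpos : 0 < p * (m + 1) := by positivity
    have e2 : 1 / (p : ℚ) * (1 / (p : ℚ) * ((p : ℚ) ^ 2 * (-1 / 4)
        * coeff (p * (m + 1)) (Hc p 0 X * X)))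
        = -1 / 4 * coeff (p * (m + 1)) (Hc p 0 X * X) := by field_simp
    rw [e2]
    have e3 : coeff (p * (m + 1)) (Hc p 0 X * X) = if m = 0 then hK (p - 1) else 0 := by
      rw [coeff_Hc_mul]
      have hex : p * (m + 1) = p * m + p := by ring
      by_cases hm : m = 0
      · subst hm
        rw [if_pos rfl, zero_add, mul_one, Finset.sum_eq_single (p - 1)]
        · rw [if_pos (by omega), coeff_X, if_pos (by omega)]; ring
        · intro j hj hjne
          have hj' := Finset.mem_range.1 hj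
          rw [if_pos (by omega), coeff_X, if_neg (by omega), mul_zero]
        · intro h
          exact absurd (Finset.mem_range.2 (by omega)) h
      · rw [if_neg hm]
        refine Finset.sum_eq_zero fun j hj => ?_
        have hj' := Finset.mem_range.1 hj
        have : p * 1 ≤ p * m := Nat.mul_le_mul_left p (by omega)
        rw [if_pos (by omega), coeff_X, if_neg (by omega), mul_zero]
    rw [e3]
    by_cases hm : m = 0
    · subst hm
      simp only [if_true, zero_add]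
      have := Cg.mul_left (Vg_neg_quarter h2) (hK_last (p := p) h2)
      rwa [mul_one] at this
    · rw [if_neg hm, if_neg (by omega), mul_zero]; exact Cg.rfl'

theorem val_K (h2 : p ≠ 2) : ∀ m, p * m < N →
    Cg p (coeff (p * m) serK) (coeff m serK) := by
  intro m _
  have := hK_lucas (p := p) h2 m 0 hp.1.pos
  rw [hK_zero, mul_one, add_zero] at this
  exact this

/-! ### `M` -/

/-- terms of the alternating harmonic sum -/
def aM (i : ℕ) : ℚ := 2 * (-1) ^ (i + 1) / i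
/-- the alternating harmonic sum -/
def AM (n : ℕ) : ℚ := ∑ i ∈ Finset.range (n + 1), aM i

theorem aM_zero : aM 0 = 0 := by simp [aM]

theorem cMs_eq (n : ℕ) : cMs n = AM (2 * (n / 2)) := by
  unfold T.cMs AM
  generalize n / 2 = k
  induction k with
  | zero => simp [aM_zero]
  | succ k ih =>
    rw [Finset.sum_range_succ, ih]
    have e : 2 * (k + 1) + 1 = (2 * k + 1) + 1 + 1 := by ring
    rw [e, Finset.sum_range_succ _ (2 * k + 1 + 1), Finset.sum_range_succ _ (2 * k + 1)]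
    have s1 : ((-1 : ℚ)) ^ (2 * k + 1 + 1) = 1 := Even.neg_one_pow ⟨k + 1, by ring⟩
    have s2 : ((-1 : ℚ)) ^ (2 * k + 1 + 1 + 1) = -1 := Odd.neg_one_pow ⟨k + 1, by ring⟩
    unfold aM
    rw [s1, s2]
    push_cast
    ring

theorem red_AM (h2 : p ≠ 2) (n : ℕ) : Cg p ((p : ℚ) * AM n) (AM (n / p)) := by
  have hodd := odd_of_ne_two h2
  have hpq := p_ne (p := p)
  have hp1 := hp.1.pos
  induction n with
  | zero => simp [AM, aM_zero]; exact Cg.rfl'
  | succ n ih =>
    have e : AM (n + 1) = AM n + aM (n + 1) := by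
      unfold AM; rw [Finset.sum_range_succ]
    rw [e, mul_add]
    by_cases hd : p ∣ n + 1
    · obtain ⟨m, hm⟩ := hd
      have hm0 : m ≠ 0 := by rintro rfl; omega
      obtain ⟨m', rfl⟩ : ∃ m', m = m' + 1 := ⟨m - 1, by omega⟩
      have hex : p * (m' + 1) = p * m' + p := by ring
      have e1 : (n + 1) / p = m' + 1 := by rw [hm, Nat.mul_div_cancel_left _ hp1]
      have e2 : n / p = m' := by
        have : n = p * m' + (p - 1) := by omega
        rw [this, Nat.mul_add_div hp1, Nat.div_eq_of_lt (by omega), add_zero]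
      have e3 : AM (m' + 1) = AM m' + aM (m' + 1) := by
        unfold AM; rw [Finset.sum_range_succ]
      rw [e1, e3]
      rw [e2] at ih
      have e4 : (p : ℚ) * aM (n + 1) = aM (m' + 1) := by
        unfold aM
        rw [hm, pow_succ, pow_succ, odd_pow_neg_one hodd]
        have : (((m' + 1 : ℕ) : ℚ)) ≠ 0 := by positivity
        push_cast at this ⊢
        field_simp
      rw [e4]
      exact ih.add Cg.rfl'
    · have e1 : (n + 1) / p = n / p := by
        rw [Nat.succ_div_of_not_dvd hd]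
      rw [e1]
      have h3 : Cg p ((p : ℚ) * aM (n + 1)) 0 := by
        unfold Cg
        rw [sub_zero]
        unfold aM
        have h4 := Vg.int (p := p) (2 * (-1) ^ (n + 1 + 1))
        have h5 := Vg1_p_mul h4
        have h6 := h5.div_unit hd
        have e5 : (p : ℚ) * (2 * (-1) ^ (n + 1 + 1) / ((n + 1 : ℕ) : ℚ))
            = (p : ℚ) * ((2 * (-1) ^ (n + 1 + 1) : ℤ) : ℚ) / ((n + 1 : ℕ) : ℚ) := by
          push_cast; ring
        rw [e5]; exact h6
      have := ih.add h3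
      rwa [add_zero] at this

theorem Vg_AM {n : ℕ} (hn : n < p) : Vg p 0 (AM n) := by
  unfold AM
  refine Vg.sum fun i hi => ?_
  have hi' := Finset.mem_range.1 hi
  by_cases h0 : i = 0
  · subst h0; rw [aM_zero]; exact Vg.zero _
  · have hd : ¬ p ∣ i := fun h => absurd (Nat.le_of_dvd (by omega) h) (by omega)
    have h4 := (Vg.int (p := p) (2 * (-1) ^ (i + 1))).div_unit hd
    unfold aM
    push_cast at h4
    exact h4

theorem red_M (h2 : p ≠ 2) (hN : N ≤ p ^ 2) :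
    EqP p N (C (p : ℚ) * serM) (Hc p 0 X * up p serM) := by
  have hodd := odd_of_ne_two h2
  have hp1 := hp.1.pos
  intro n hn
  rw [map_sub, coeff_C_mul]
  have hn' : n = p * (n / p) + n % p := (Nat.div_add_mod n p).symm
  have hr := Nat.mod_lt n hp1
  set m := n / p with hm
  set r := n % p with hr'
  have h3 := coeff_Hc_up (p := p) 0 serM m r hr
  rw [← hn'] at h3
  rw [h3, pow_zero, one_mul]
  have hmp : m < p := by
    have : p * m < p * p := by rw [← sq]; omega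
    exact lt_of_mul_lt_mul_left this (Nat.zero_le p)
  have e1 : coeff n serM = hK n * cMs n := by unfold T.serM hK; rw [coeff_mk]
  have e2 : coeff m serM = hK m * cMs m := by unfold T.serM hK; rw [coeff_mk]
  have hKl := hK_lucas h2 m r hr
  rw [← hn'] at hKl
  have hdiv : 2 * (n / 2) / p < p := by
    rw [Nat.div_lt_iff_lt_mul hp1, ← sq]; omega
  have c0 := red_AM (p := p) h2 (2 * (n / 2))
  have v0 : Vg p 0 ((p : ℚ) * AM (2 * (n / 2))) := c0.vg (Vg_AM hdiv)
  rw [e1, e2, cMs_eq n]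
  have e3 : (p : ℚ) * (hK n * AM (2 * (n / 2))) = hK n * ((p : ℚ) * AM (2 * (n / 2))) := by ring
  rw [e3]
  by_cases hodd2 : m % 2 = 1 ∨ r % 2 = 1
  · have hz : hK m * hK r = 0 := by
      rcases hodd2 with h | h
      · rw [hK_odd h, zero_mul]
      · rw [hK_odd h, mul_zero]
    have e4 : hK r * (hK m * cMs m) = 0 := by
      linear_combination cMs m * hz
    rw [e4]
    rw [hz] at hKl
    have := Cg.mul (VhK h2 n) v0 hKl (Cg.rfl' (p := p) (x := (p : ℚ) * AM (2 * (n / 2))))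
    rw [zero_mul] at this
    exact this
  · push Not at hodd2
    have hme : m % 2 = 0 := by omega
    have hre : r % 2 = 0 := by omega
    obtain ⟨k, hk⟩ : ∃ k, m = 2 * k := ⟨m / 2, by omega⟩
    have hne : 2 * (n / 2) = n := by
      have : p * (2 * k) = 2 * (p * k) := by ring
      rw [hk] at hn'
      omega
    rw [hne] at c0 v0 ⊢
    rw [← hm] at c0
    have e5 : cMs m = AM m := by
      rw [cMs_eq]; congr 1; omega
    rw [e5]
    have c1 := Cg.mul (VhK h2 n) (Vg_AM hmp) hKl c0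
    have e6 : hK m * hK r * AM m = hK r * (hK m * AM m) := by ring
    rw [e6] at c1
    exact c1

/-! ### the four solutions -/

theorem red_B (h2 : p ≠ 2) (hN : N ≤ p ^ 2) :
    EqP p N (C ((p : ℚ) ^ 2) * serB) (Hc p 0 X * up p (C (chi p) * serB)) :=
  (Sol_B h2 hN).eqP h2 (val_B h2 hN)

theorem red_thB (h2 : p ≠ 2) (hN : N ≤ p ^ 2) :
    EqP p N (th (C ((p : ℚ) ^ 2) * serB)) (Hc p 1 X * up p (C (chi p) * serB)) :=
  (Sol_B h2 hN).eqP_th h2 (val_B h2 hN)

theorem red_B2 (h2 : p ≠ 2) (hN : N ≤ p ^ 2) :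
    EqP p N (C ((p : ℚ) ^ 2) * serB2) (Hc p 0 X * up p serB2) :=
  (Sol_B2 h2 hN).eqP h2 (val_B2 h2 hN)

theorem red_thK (h2 : p ≠ 2) (N : ℕ) : EqP p N (th serK) (Hc p 1 X * up p serK) :=
  (Sol_K h2 N).eqP_th h2 (val_K h2)

/-! ### change of chart -/

theorem Cg_eq_coeff {f g : ℚ⟦X⟧} (h : EqP p N f g) {n : ℕ} (hn : n < N) :
    Cg p (coeff n f) (coeff n g) := by
  have := h n hn
  rwa [map_sub] at this

/-- Frobenius -/
theorem frob (u : ℤ) : EqP p N ((1 + C (u : ℚ) * X) ^ p) (1 + (C (u : ℚ) * X) ^ p) := by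
  obtain ⟨r, hr⟩ := exists_add_pow_prime_eq hp.1 (1 : ℤ⟦X⟧) (C u * X)
  have h := congrArg (PowerSeries.map (Int.castRingHom ℚ)) hr
  simp only [map_pow, map_add, map_mul, map_one, PowerSeries.map_X, PowerSeries.map_C,
    map_natCast, one_pow] at h
  have e0 : (Int.castRingHom ℚ) u = (u : ℚ) := rfl
  rw [e0] at h
  unfold EqP
  rw [h, add_sub_cancel_left]
  intro n _
  have e : ((p : ℕ) : ℚ⟦X⟧) = C (p : ℚ) := (map_natCast (C : ℚ →+* ℚ⟦X⟧) p).symm
  have e1 : (PowerSeries.map (Int.castRingHom ℚ)) r * (C (u : ℚ) * X)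
      = (PowerSeries.map (Int.castRingHom ℚ)) (r * (C u * X)) := by
    rw [map_mul, map_mul, PowerSeries.map_X, PowerSeries.map_C, e0]
  have e2 : (p : ℚ⟦X⟧) * 1 * (C (u : ℚ) * X) * (PowerSeries.map (Int.castRingHom ℚ)) r
      = C (p : ℚ) * (PowerSeries.map (Int.castRingHom ℚ)) (r * (C u * X)) := by
    rw [← e1, e]; ring
  rw [e2, coeff_C_mul, PowerSeries.coeff_map]
  exact Vg1_p_mul (Vg.int _)

theorem frob_m (h2 : p ≠ 2) : EqP p N ((1 - X) ^ p) (up p (1 - X)) := by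
  have h := frob (p := p) (N := N) (-1)
  have e1 : (1 + C ((-1 : ℤ) : ℚ) * X : ℚ⟦X⟧) = 1 - X := by
    push_cast; rw [map_neg, map_one]; ring
  have e2 : (1 + (C ((-1 : ℤ) : ℚ) * X) ^ p : ℚ⟦X⟧) = up p (1 - X) := by
    rw [up_sub, up_one, up_X, mul_pow, ← map_pow]
    push_cast
    rw [Odd.neg_one_pow (Nat.odd_iff.2 (odd_of_ne_two h2)), map_neg, map_one]; ring
  rwa [e1, e2] at h

theorem frob_p : EqP p N ((1 + X) ^ p) (up p (1 + X)) := by
  have h := frob (p := p) (N := N) 1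
  have e1 : (1 + C ((1 : ℤ) : ℚ) * X : ℚ⟦X⟧) = 1 + X := by
    push_cast; rw [map_one]; ring
  have e2 : (1 + (C ((1 : ℤ) : ℚ) * X) ^ p : ℚ⟦X⟧) = up p (1 + X) := by
    rw [up_add, up_one, up_X, mul_pow, ← map_pow]
    push_cast
    rw [one_pow, map_one, one_mul]
  rwa [e1, e2] at h

theorem up_geo : up p (1 - X) * up p geo = 1 := by
  rw [← up_mul, mul_comm, geo_mul, up_one]

theorem VB_upgeo : VB p N 0 (up p geo) := by
  intro n _
  unfold up
  rw [coeff_mk]
  split_ifs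
  · simp [T.geo]; exact Vg.one
  · exact Vg.zero _

theorem frob_geo (h2 : p ≠ 2) : EqP p N (geo ^ p) (up p geo) := by
  have h := frob_m (p := p) (N := N) h2
  have h3 : EqP p N (geo ^ p * up p geo * (1 - X) ^ p) (geo ^ p * up p geo * up p (1 - X)) :=
    EqP.mul_left ((VB.geo.pow p).mul0 VB_upgeo) h
  have e1 : geo ^ p * up p geo * (1 - X : ℚ⟦X⟧) ^ p = up p geo := by
    have := geo_one_sub_pow p
    linear_combination up p geo * this
  have e2 : geo ^ p * up p geo * up p (1 - X : ℚ⟦X⟧) = geo ^ p := by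
    have := up_geo (p := p)
    linear_combination geo ^ p * this
  rw [e1, e2] at h3
  exact h3.symm

/-- degree -/
def Dg (d : ℕ) (f : ℚ⟦X⟧) : Prop := ∀ n, d < n → coeff n f = 0

theorem Dg.mul {a b : ℕ} {f g : ℚ⟦X⟧} (hf : Dg a f) (hg : Dg b g) : Dg (a + b) (f * g) := by
  intro n hn
  rw [coeff_mul]
  refine Finset.sum_eq_zero fun ij hij => ?_
  have : ij.1 + ij.2 = n := by simpa using hij
  rcases Nat.lt_or_ge a ij.1 with h | h
  · rw [hf _ h, zero_mul]
  · rw [hg _ (by omega), mul_zero]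

theorem Dg.C (q : ℚ) : Dg 0 (C q) := fun n hn => by
  rw [coeff_C, if_neg (by omega)]

theorem Dg.one : Dg 0 (1 : ℚ⟦X⟧) := fun n hn => by
  rw [coeff_one, if_neg (by omega)]

theorem Dg.pow {f : ℚ⟦X⟧} (hf : Dg 1 f) (k : ℕ) : Dg k (f ^ k) := by
  induction k with
  | zero => simpa using Dg.one
  | succ k ih => rw [pow_succ]; exact ih.mul hf

theorem Dg.pX : Dg 1 (1 + X : ℚ⟦X⟧) := fun n hn => by
  rw [map_add, coeff_one, coeff_X, if_neg (by omega), if_neg (by omega), add_zero]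

theorem Dg.mX : Dg 1 (1 - X : ℚ⟦X⟧) := fun n hn => by
  rw [map_sub, coeff_one, coeff_X, if_neg (by omega), if_neg (by omega), sub_zero]

theorem Dg.mono {a b : ℕ} {f : ℚ⟦X⟧} (hf : Dg a f) (h : a ≤ b) : Dg b f :=
  fun n hn => hf n (by omega)

theorem Dg.sum {ι : Type*} {s : Finset ι} {F : ι → ℚ⟦X⟧} {d : ℕ} (h : ∀ i ∈ s, Dg d (F i)) :
    Dg d (∑ i ∈ s, F i) := fun n hn => by
  rw [map_sum]; exact Finset.sum_eq_zero fun i hi => h i hi n hn

/-- the homogeneous polynomial at `c1`, `c3` -/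
noncomputable def Hh1 (p a : ℕ) (s : ℚ) : ℚ⟦X⟧ := (1 - X) ^ (p - 1) * Hc p a (ch s)

theorem Hh1_eq (a : ℕ) (s : ℚ) : Hh1 p a s
    = ∑ j ∈ Finset.range p, C ((j : ℚ) ^ a * hK j * s ^ j) * ((1 + X) ^ j * (1 - X) ^ (p - 1 - j)) := by
  unfold Hh1 Hc
  rw [Finset.mul_sum]
  refine Finset.sum_congr rfl fun j hj => ?_
  have hj' := Finset.mem_range.1 hj
  have e : (1 - X : ℚ⟦X⟧) ^ (p - 1) = (1 - X) ^ (p - 1 - j) * (1 - X) ^ j := by
    rw [← pow_add]; congr 1; omega
  have h := geo_one_sub_pow j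
  unfold ch
  rw [e, mul_pow, mul_pow]
  have e2 : (C ((j : ℚ) ^ a * hK j * s ^ j) : ℚ⟦X⟧) = C ((j : ℚ) ^ a * coeff j serK) * C s ^ j := by
    rw [← map_pow, ← map_mul]; rfl
  rw [e2]
  linear_combination (C ((j : ℚ) ^ a * coeff j serK) * C s ^ j * (1 + X) ^ j
    * (1 - X) ^ (p - 1 - j)) * h

theorem Dg_Hh1 (a : ℕ) (s : ℚ) : Dg (p - 1) (Hh1 p a s) := by
  rw [Hh1_eq]
  refine Dg.sum fun j hj => ?_
  have hj' := Finset.mem_range.1 hj
  have := (Dg.C ((j : ℚ) ^ a * hK j * s ^ j)).mul ((Dg.pX.pow j).mul (Dg.mX.pow (p - 1 - j)))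
  exact this.mono (by omega)

/-- `H` in the chart, as a solution modulo `p²` -/
noncomputable def GH (p : ℕ) (s : ℚ) : ℚ⟦X⟧ := geo * Hc p 0 (ch s)

theorem EE_GH {s : ℚ} (hs : s = 1 ∨ s = -1) (h2 : p % 2 = 1) :
    EE (GH p s) = geo2 * (1 - X) * eps p s := by
  have h := ode_ch hs (GH p s)
  have hg2 : (1 - X ^ 2 : ℚ⟦X⟧) * geo2 = 1 := by rw [mul_comm]; exact geo2_mul
  have e1 : (1 - X) * GH p s = Hc p 0 (ch s) := by
    unfold GH; linear_combination Hc p 0 (ch s) * geo_mul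
  have a0 := tau_dd_Hc (tau_ch s) p 0
  have a1 := tau_dd_Hc (tau_ch s) p 1
  simp only [zero_add, Nat.reduceAdd] at a0 a1
  have a2 := Hc_ode h2 (ch s)
  rw [e1, a0, a1] at h
  unfold eps
  linear_combination (-EE (GH p s)) * hg2 + geo2 * (1 - X) * (h - a2)

theorem Sol_GH (h2 : p ≠ 2) {s : ℚ} (hs : s = 1 ∨ s = -1) : Sol p N (GH p s) := by
  refine ⟨VB.geo.mul0 (VB_Hc h2 (VB_ch hs) 0), ?_⟩
  rw [EE_GH hs (odd_of_ne_two h2)]
  exact VB.X.mul0 ((VB.geo2.mul0 VB_one_sub_X).mul0 (VB_eps h2 hs))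

theorem coeff_zero_GH (h2 : p ≠ 2) {s : ℚ} (hs : s = 1 ∨ s = -1) :
    Cg p (coeff 0 (GH p s)) (chi p) := by
  have e : coeff 0 (GH p s) = ∑ j ∈ Finset.range p, hK j := by
    unfold GH Hc ch
    rw [coeff_zero_eq_constantCoeff_apply]
    simp only [map_mul, map_sum, map_pow, map_add, map_one, constantCoeff_C, constantCoeff_X]
    have hg : constantCoeff geo = 1 := by
      rw [← coeff_zero_eq_constantCoeff_apply]; simp [T.geo]
    rw [hg, one_mul, Finset.sum_congr rfl]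
    intro j _
    rw [add_zero, mul_one, mul_one, pow_zero, one_mul]
    show hK j * s ^ j = hK j
    rcases Nat.mod_two_eq_zero_or_one j with h | h
    · have : s ^ j = 1 := by
        rcases hs with rfl | rfl
        · exact one_pow j
        · exact Even.neg_one_pow (Nat.even_iff.2 h)
      rw [this, mul_one]
    · rw [hK_odd h, zero_mul]
  rw [e]; exact H_one h2

theorem coeff_Hc_X (a n : ℕ) : coeff n (Hc p a X) = if n < p then (n : ℚ) ^ a * hK n else 0 := by
  have h := coeff_Hc_mul (p := p) a 1 n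
  rw [mul_one] at h
  rw [h]
  split_ifs with hn
  · rw [Finset.sum_eq_single n]
    · rw [if_pos le_rfl, Nat.sub_self]; simp
    · intro j _ hj
      split_ifs with h1
      · rw [coeff_one, if_neg (by omega), mul_zero]
      · rfl
    · intro h; exact absurd (Finset.mem_range.2 hn) h
  · refine Finset.sum_eq_zero fun j hj => ?_
    have hj' := Finset.mem_range.1 hj
    split_ifs with h1
    · rw [coeff_one, if_neg (by omega), mul_zero]
    · rfl

/-- **(H)**: `(1-X)^(p-1) H(± (1+X)/(1-X)) ≡ χ H(X)` -/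
theorem red_H (h2 : p ≠ 2) {s : ℚ} (hs : s = 1 ∨ s = -1) :
    EqP p N (Hh1 p 0 s) (C (chi p) * Hc p 0 X) := by
  have hp1 := hp.1.one_lt
  intro n _
  rw [map_sub, coeff_C_mul, coeff_Hc_X]
  by_cases hn : n < p
  · rw [if_pos hn, pow_zero, one_mul]
    have e : Hh1 p 0 s = (1 - X) ^ p * GH p s := by
      obtain ⟨q, hq⟩ : ∃ q, p = q + 1 := ⟨p - 1, by omega⟩
      unfold Hh1 GH
      have e1 : (1 - X : ℚ⟦X⟧) ^ p = (1 - X) ^ (p - 1) * (1 - X) := by
        rw [← pow_succ]; congr 1; omega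
      rw [e1]
      linear_combination (-((1 - X) ^ (p - 1) * Hc p 0 (ch s))) * geo_mul
    have hS := Sol_GH (p := p) (N := n + 1) h2 hs
    have h3 : EqP p (n + 1) ((1 - X) ^ p * GH p s) (up p (1 - X) * GH p s) :=
      EqP.mul (VB_one_sub_X.pow p) hS.int (frob_m h2) EqP.rfl'
    have h4 := Cg_eq_coeff h3 (n := n) (by omega)
    have e2 : coeff n (up p (1 - X) * GH p s) = coeff n (GH p s) := by
      rw [up_sub, up_one, up_X, sub_mul, one_mul, map_sub, mul_comm (X ^ p : ℚ⟦X⟧),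
        coeff_mul_X_pow', if_neg (by omega), sub_zero]
    rw [e2, ← e] at h4
    have h5 := hS.red h2 0 n hn (by omega)
    rw [mul_zero, zero_add] at h5
    have h6 := Cg.mul_left (VhK h2 n) (coeff_zero_GH (p := p) h2 hs)
    have h7 := (h4.trans h5).trans h6
    rw [mul_comm (chi p)]
    exact h7
  · rw [if_neg hn, mul_zero, sub_zero, Dg_Hh1 0 s n (by omega)]
    exact Vg.zero _

end Vale.Agent.P030.H678
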