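import Vale.Agent.P030.H678.RedK

/-!
# P030, odd primes: congruences modulo `p`, part 3 (solutions of the `K`-equation modulo `p²`)
-/

open PowerSeries

set_option linter.unusedSectionVars false

namespace Vale.Agent.P030.H678

open Vale.Agent.P030.T Vale.Agent.P030.H792

variable {p : ℕ} [hp : Fact p.Prime]

/-- integral, and a solution of the equation of `K` modulo `p²` -/
structure Sol (p N : ℕ) (G : ℚ⟦X⟧) : Prop where
  int : VB p N 0 G
  ee : VB p N 2 (X * EE G)

theorem coeff_XEE (G : ℚ⟦X⟧) (n : ℕ) : coeff (n + 2) (X * EE G)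
    = ((n : ℚ) + 2) ^ 2 * coeff (n + 2) G - ((n : ℚ) + 1) ^ 2 * coeff n G := by
  rw [X_EE, map_sub, mul_comm (X ^ 2 : ℚ⟦X⟧), coeff_mul_X_pow', if_pos (by omega)]
  have e : (2 : ℚ⟦X⟧) = C 2 := two_eq
  simp only [Nat.add_sub_cancel, map_add, e, coeff_C_mul, T.th, coeff_mk]
  push_cast
  ring

theorem coeff_XEE_one (G : ℚ⟦X⟧) : coeff 1 (X * EE G) = coeff 1 G := by
  rw [X_EE, map_sub, mul_comm (X ^ 2 : ℚ⟦X⟧), coeff_mul_X_pow', if_neg (by omega)]
  simp [T.th]

theorem Sol.odd {N : ℕ} {G : ℚ⟦X⟧} (h : Sol p N G) (h2 : p ≠ 2) :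
    ∀ n, n < N → n % p % 2 = 1 → Vg p 2 (coeff n G) := by
  have hodd := odd_of_ne_two h2
  intro n
  induction n using Nat.strong_induction_on with
  | _ n ih =>
    intro hn hr
    match n, ih, hn, hr with
    | 0, _, _, hr => simp at hr
    | 1, _, hn, _ =>
      have := h.ee 1 hn
      rwa [coeff_XEE_one] at this
    | n + 2, ih, hn, hr =>
      have h3 := h.ee (n + 2) hn
      rw [coeff_XEE] at h3
      have hd : ¬ p ∣ n + 2 := by
        intro hd
        rw [Nat.mod_eq_zero_of_dvd hd] at hr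
        omega
      have h4 : Vg p 2 (((n + 2 : ℕ) : ℚ) ^ 2 * coeff (n + 2) G) := by
        have h5 : Vg p 2 (((n : ℚ) + 1) ^ 2 * coeff n G) := by
          by_cases hd1 : p ∣ n + 1
          · have t1 := Vg.dvd_nat hd1 (h.int n (by omega))
            have t2 := Vg.dvd_nat hd1 t1
            have t3 : ((n + 1 : ℕ) : ℚ) * (((n + 1 : ℕ) : ℚ) * coeff n G)
                = ((n : ℚ) + 1) ^ 2 * coeff n G := by
              push_cast; ring
            rw [t3] at t2
            exact t2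
          · have hpos : 2 ≤ (n + 2) % p := by
              by_contra hlt
              have h01 : (n + 2) % p = 0 ∨ (n + 2) % p = 1 := by omega
              rcases h01 with h | h
              · exact hd (Nat.dvd_of_mod_eq_zero h)
              · apply hd1
                have h3 := Nat.div_add_mod (n + 2) p
                rw [h] at h3
                exact ⟨(n + 2) / p, by omega⟩
            have h3 := Nat.div_add_mod (n + 2) p
            have h4 := Nat.mod_lt (n + 2) hp.1.pos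
            have h5 : n = p * ((n + 2) / p) + ((n + 2) % p - 2) := by omega
            have h6 : n % p = (n + 2) % p - 2 := by
              conv_lhs => rw [h5]
              rw [Nat.mul_add_mod, Nat.mod_eq_of_lt (show (n + 2) % p - 2 < p by omega)]
            have h7 := ih n (by omega) (by omega) (by omega)
            have := Vg.nat_mul ((n + 1) ^ 2) h7
            simpa using this
        have h6 := h3.add h5
        have e : ((n : ℚ) + 2) ^ 2 * coeff (n + 2) G - ((n : ℚ) + 1) ^ 2 * coeff n G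
            + ((n : ℚ) + 1) ^ 2 * coeff n G = ((n + 2 : ℕ) : ℚ) ^ 2 * coeff (n + 2) G := by
          push_cast; ring
        rwa [e] at h6
      have h5 := Vg.div_sq_unit hd h4
      have hne : (((n + 2 : ℕ) : ℚ)) ≠ 0 := by positivity
      have e : ((n + 2 : ℕ) : ℚ) ^ 2 * coeff (n + 2) G / ((n + 2 : ℕ) : ℚ) ^ 2
          = coeff (n + 2) G := by field_simp
      rwa [e] at h5

theorem Vg1_p_mul {x : ℚ} (hx : Vg p 0 x) : Vg p 1 ((p : ℚ) * x) := by
  simpa using (Vg_p (p := p)).mul hx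

/-- `g_{pm+r} ≡ K_r g_{pm}` -/
theorem Sol.red {N : ℕ} {G : ℚ⟦X⟧} (h : Sol p N G) (h2 : p ≠ 2) (m : ℕ) :
    ∀ r, r < p → p * m + r < N → Cg p (coeff (p * m + r) G) (hK r * coeff (p * m) G) := by
  intro r
  induction r using Nat.strong_induction_on with
  | _ r ih =>
    intro hr hn
    match r, ih, hr, hn with
    | 0, _, _, _ => rw [hK_zero, one_mul, add_zero]; exact Cg.rfl'
    | 1, _, hr, hn =>
      rw [hK_odd (j := 1) (by norm_num), zero_mul]
      unfold Cg
      rw [sub_zero]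
      have : (p * m + 1) % p % 2 = 1 := by
        rw [Nat.mul_add_mod, Nat.mod_eq_of_lt hr]
      exact (h.odd h2 _ hn this).mono (by omega)
    | r + 2, ih, hr, hn =>
      have ih' := ih r (by omega) (by omega) (by omega)
      have hu : ¬ p ∣ (r + 2) := fun h => absurd (Nat.le_of_dvd (by omega) h) (by omega)
      apply Cg.of_sq_unit hu
      have hee := h.ee (p * m + r + 2) (by omega)
      rw [coeff_XEE] at hee
      set y := coeff (p * m + r + 2) G with hy
      set z := coeff (p * m + r) G with hz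
      have vy : Vg p 0 y := h.int _ (by omega)
      have vz : Vg p 0 z := h.int _ (by omega)
      have e0 : coeff (p * m + (r + 2)) G = y := rfl
      rw [e0]
      have h1 := serK_rec r
      have e1 : (((r + 2 : ℕ) : ℚ)) ^ 2 * (hK (r + 2) * coeff (p * m) G)
          = ((r : ℚ) + 1) ^ 2 * (hK r * coeff (p * m) G) := by
        unfold hK
        push_cast
        linear_combination coeff (p * m) G * h1
      rw [e1]
      have c1 : Cg p ((((r + 2 : ℕ) : ℚ)) ^ 2 * y) ((((p * m + r : ℕ) : ℚ) + 2) ^ 2 * y) := by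
        unfold Cg
        have : (((r + 2 : ℕ) : ℚ)) ^ 2 * y - (((p * m + r : ℕ) : ℚ) + 2) ^ 2 * y
            = p * (-((m * (p * m + 2 * r + 4) : ℕ) : ℚ) * y) := by push_cast; ring
        rw [this]
        exact Vg1_p_mul ((Vg.nat _).neg.mul0 vy)
      have c2 : Cg p ((((p * m + r : ℕ) : ℚ) + 2) ^ 2 * y)
          ((((p * m + r : ℕ) : ℚ) + 1) ^ 2 * z) := hee.mono (by omega)
      have c3 : Cg p ((((p * m + r : ℕ) : ℚ) + 1) ^ 2 * z) (((r : ℚ) + 1) ^ 2 * z) := by
        unfold Cg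
        have : (((p * m + r : ℕ) : ℚ) + 1) ^ 2 * z - ((r : ℚ) + 1) ^ 2 * z
            = p * (((m * (p * m + 2 * r + 2) : ℕ) : ℚ) * z) := by push_cast; ring
        rw [this]
        exact Vg1_p_mul ((Vg.nat _).mul0 vz)
      have c4 : Cg p (((r : ℚ) + 1) ^ 2 * z) (((r : ℚ) + 1) ^ 2 * (hK r * coeff (p * m) G)) := by
        refine Cg.mul_left ?_ ih'
        have := Vg.nat (p := p) ((r + 1) ^ 2)
        simpa using this
      exact c1.trans (c2.trans (c3.trans c4))

theorem th_W0 (h2 : p % 2 = 1) (G : ℚ⟦X⟧) :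
    th ((1 - X ^ 2) * W0 p G) = Hc p 0 X * (X * EE G)
      + G * (C ((p : ℚ) ^ 2 * coeff (p - 1) serK) * X ^ (p + 1)) := by
  have hx : (X : ℚ⟦X⟧) * dd X = X := by rw [dd_X, mul_one]
  have hode : (1 - (X : ℚ⟦X⟧) ^ 2) * (X * dd (X * dd G)) - 2 * X ^ 2 * (X * dd G) - X ^ 2 * G
      = X * EE G := by
    rw [X_EE, th_eq (th G), th_eq G]; ring
  have w := wronskian h2 hx hode
  have hV : Hc p 0 X * (X * dd G) - G * Hc p 1 X = W0 p G := by
    unfold W0; rw [th_eq]; ring
  rw [hV, ← th_eq] at w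
  exact w

theorem coeff_W0 (G : ℚ⟦X⟧) (n : ℕ) : coeff n (W0 p G) = ∑ j ∈ Finset.range p,
    if j ≤ n then ((n : ℚ) - 2 * j) * (hK j * coeff (n - j) G) else 0 := by
  unfold W0
  rw [map_sub, coeff_Hc_mul, coeff_Hc_mul, ← Finset.sum_sub_distrib]
  refine Finset.sum_congr rfl fun j _ => ?_
  split_ifs with h
  · unfold T.th
    rw [coeff_mk, Nat.cast_sub h]
    ring
  · ring

/-- the terms which are small -/
theorem Sol.term {N : ℕ} {G : ℚ⟦X⟧} (h : Sol p N G) (h2 : p ≠ 2) {j n : ℕ} (q : ℚ)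
    (hq : Vg p 0 q) (hn : n < N) (hr : j % 2 = 0 → n % p % 2 = 1) :
    Vg p 2 (q * (hK j * coeff n G)) := by
  rcases Nat.mod_two_eq_zero_or_one j with hj | hj
  · exact hq.mul0 ((VhK h2 j).mul0 (h.odd h2 n hn (hr hj)))
  · rw [hK_odd hj, zero_mul, mul_zero]; exact Vg.zero _

theorem Sol.W0_a {N : ℕ} {G : ℚ⟦X⟧} (h : Sol p N G) (h2 : p ≠ 2) {m : ℕ} (hm : p * m < N) :
    Vg p 2 (coeff (p * m) (W0 p G) - p * (m * coeff (p * m) G)) := by
  have hodd := odd_of_ne_two h2
  rw [coeff_W0]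
  obtain ⟨q, hq⟩ : ∃ q, p = q + 1 := ⟨p - 1, by have := hp.1.pos; omega⟩
  rw [← Finset.add_sum_erase _ _ (Finset.mem_range.2 hp.1.pos)]
  rw [if_pos (Nat.zero_le _), hK_zero, Nat.sub_zero]
  have e : (((p * m : ℕ) : ℚ) - 2 * ((0 : ℕ) : ℚ)) * (1 * coeff (p * m) G)
      = p * (m * coeff (p * m) G) := by push_cast; ring
  rw [e, add_sub_cancel_left]
  refine Vg.sum fun j hj => ?_
  have hj' := Finset.mem_erase.1 hj
  have hj1 := Finset.mem_range.1 hj'.2
  have hj0 : j ≠ 0 := hj'.1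
  split_ifs with hle
  · refine h.term h2 _ ?_ (by omega) ?_
    · have := Vg.int (p := p) (((p * m : ℕ) : ℤ) - 2 * (j : ℤ))
      push_cast at this ⊢
      exact this
    · intro hje
      have hm0 : m ≠ 0 := by
        rintro rfl
        rw [mul_zero] at hle
        omega
      obtain ⟨m', rfl⟩ : ∃ m', m = m' + 1 := ⟨m - 1, by omega⟩
      have e2 : p * (m' + 1) - j = p * m' + (p - j) := by
        have : p * (m' + 1) = p * m' + p := by ring
        omega
      have e4 : (p - j) % p = p - j := Nat.mod_eq_of_lt (by omega)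
      rw [e2, Nat.mul_add_mod, e4]
      omega
  · exact Vg.zero _

theorem Sol.W0_b {N : ℕ} {G : ℚ⟦X⟧} (h : Sol p N G) (h2 : p ≠ 2) {m : ℕ}
    (hm : p * (m + 2) < N + 2) :
    Vg p 2 (coeff (p * (m + 2) - 2) (W0 p G) - p * (m * (hK (p - 1) * coeff (p * m + (p - 1)) G)))
    := by
  have hodd := odd_of_ne_two h2
  have hp1 := hp.1.two_le
  have hp3 : 3 ≤ p := by omega
  rw [coeff_W0]
  rw [← Finset.add_sum_erase _ _ (Finset.mem_range.2 (show p - 1 < p by omega))]
  have hex : p * (m + 2) = p * m + 2 * p := by ring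
  rw [if_pos (by omega)]
  have e0 : p * (m + 2) - 2 - (p - 1) = p * m + (p - 1) := by omega
  rw [e0]
  have e : (((p * (m + 2) - 2 : ℕ) : ℚ) - 2 * ((p - 1 : ℕ) : ℚ))
      * (hK (p - 1) * coeff (p * m + (p - 1)) G)
      = p * (m * (hK (p - 1) * coeff (p * m + (p - 1)) G)) := by
    rw [Nat.cast_sub (by omega), Nat.cast_sub (by omega)]
    push_cast; ring
  rw [e, add_sub_cancel_left]
  refine Vg.sum fun j hj => ?_
  have hj' := Finset.mem_erase.1 hj
  have hj1 := Finset.mem_range.1 hj'.2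
  have hj0 : j ≠ p - 1 := hj'.1
  split_ifs with hle
  · refine h.term h2 _ ?_ (by omega) ?_
    · have := Vg.int (p := p) (((p * (m + 2) - 2 : ℕ) : ℤ) - 2 * (j : ℤ))
      push_cast at this ⊢
      exact this
    · intro hje
      have e2 : p * (m + 2) - 2 - j = p * (m + 1) + (p - 2 - j) := by
        have : p * (m + 1) = p * m + p := by ring
        omega
      have e4 : (p - 2 - j) % p = p - 2 - j := Nat.mod_eq_of_lt (by omega)
      rw [e2, Nat.mul_add_mod, e4]
      omega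
  · exact Vg.zero _

theorem Sol.W0_c {N : ℕ} {G : ℚ⟦X⟧} (h : Sol p N G) (h2 : p ≠ 2) (hm : p < N + 2) :
    Vg p 2 (coeff (p - 2) (W0 p G)) := by
  have hodd := odd_of_ne_two h2
  have hp1 := hp.1.two_le
  rw [coeff_W0]
  refine Vg.sum fun j hj => ?_
  have hj1 := Finset.mem_range.1 hj
  split_ifs with hle
  · refine h.term h2 _ ?_ (by omega) ?_
    · have := Vg.int (p := p) (((p - 2 : ℕ) : ℤ) - 2 * (j : ℤ))
      push_cast at this ⊢
      exact this
    · intro hje
      have e3 : (p - 2 - j) % p = p - 2 - j := Nat.mod_eq_of_lt (by omega)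
      rw [e3]
      omega
  · exact Vg.zero _

theorem Vg_inv_p : Vg p (-1) (1 / (p : ℚ)) := by
  unfold Vg
  rw [padicNorm.div, padicNorm.one, padicNorm.padicNorm_p hp.1.one_lt]
  simp

theorem Vg.div_p {e : ℤ} {x : ℚ} (hx : Vg p e x) : Vg p (e - 1) (1 / (p : ℚ) * x) := by
  have := (Vg_inv_p (p := p)).mul hx
  rwa [show -1 + e = e - 1 by ring] at this

/-- coefficients at `p m` of `(1 - X²) W0` -/
theorem Sol.W0_p {N : ℕ} {G g : ℚ⟦X⟧} (h : Sol p N G) (h2 : p ≠ 2)
    (hg : ∀ m, p * m < N → Cg p (coeff (p * m) G) (coeff m g)) {m : ℕ} (hm : p * m < N) :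
    Cg p (1 / (p : ℚ) * coeff (p * m) ((1 - X ^ 2) * W0 p G)) (coeff m ((1 - X ^ 2) * th g)) := by
  have hodd := odd_of_ne_two h2
  have hp1 := hp.1.two_le
  have hpq := p_ne (p := p)
  have hxl : ∀ (F : ℚ⟦X⟧) (n : ℕ), coeff n ((1 - X ^ 2) * F)
      = coeff n F - if 2 ≤ n then coeff (n - 2) F else 0 := by
    intro F n
    rw [sub_mul, one_mul, map_sub, mul_comm (X ^ 2 : ℚ⟦X⟧), coeff_mul_X_pow']
  have hth : ∀ n, coeff n (th g) = n * coeff n g := fun n => by simp [T.th]
  rw [hxl, hxl, hth]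
  have ha := h.W0_a h2 hm
  have hg1 := hg m hm
  match m, hm, ha, hg1 with
  | 0, hm, ha, _ =>
    rw [mul_zero] at ha ⊢
    rw [if_neg (by omega), if_neg (by omega)]
    have e : coeff 0 (W0 p G) = 0 := by
      rw [coeff_W0]
      refine Finset.sum_eq_zero fun j _ => ?_
      split_ifs with hj
      · have : j = 0 := by omega
        subst this; simp
      · rfl
    rw [e]; simp; exact Cg.rfl'
  | 1, hm, ha, hg1 =>
    rw [mul_one] at ha hg1 hm ⊢
    rw [if_pos (by omega), if_neg (by omega), sub_zero]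
    have hc := h.W0_c h2 (by omega)
    unfold Cg
    have e : 1 / (p : ℚ) * (coeff p (W0 p G) - coeff (p - 2) (W0 p G)) - ((1 : ℕ) : ℚ) * coeff 1 g
        = 1 / (p : ℚ) * ((coeff p (W0 p G) - p * (((1 : ℕ) : ℚ) * coeff p G))
          - coeff (p - 2) (W0 p G)) + (coeff p G - coeff 1 g) := by
      push_cast; field_simp; ring
    rw [e]
    exact ((ha.sub hc).div_p.mono (by omega)).add hg1
  | m + 2, hm, ha, hg1 =>
    have hex : p * (m + 2) = p * m + 2 * p := by ring
    rw [if_pos (by omega), if_pos (by omega)]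
    have hb := h.W0_b h2 (m := m) (by omega)
    have e2 : m + 2 - 2 = m := by omega
    rw [e2, hth]
    have hK1 := hK_last (p := p) h2
    have hr := h.red h2 m (p - 1) (by omega) (by omega)
    have hg0 := hg m (by omega)
    have vG : Vg p 0 (coeff (p * m) G) := h.int _ (by omega)
    have hr2 : Cg p (coeff (p * m + (p - 1)) G) (coeff (p * m) G) := by
      refine hr.trans ?_
      have := Cg.mul (VhK h2 (p - 1)) vG hK1 (Cg.rfl' (p := p) (x := coeff (p * m) G))
      rwa [one_mul] at this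
    have hr3 : Cg p (hK (p - 1) * coeff (p * m + (p - 1)) G) (coeff m g) := by
      have := Cg.mul (VhK h2 (p - 1)) vG hK1 hr2
      rw [one_mul] at this
      exact this.trans hg0
    unfold Cg
    set a := coeff (p * (m + 2)) (W0 p G)
    set b := coeff (p * (m + 2) - 2) (W0 p G)
    set y := coeff (p * (m + 2)) G
    set z := hK (p - 1) * coeff (p * m + (p - 1)) G
    have e : 1 / (p : ℚ) * (a - b) - (((m + 2 : ℕ) : ℚ) * coeff (m + 2) g - (m : ℚ) * coeff m g)
        = 1 / (p : ℚ) * ((a - p * (((m + 2 : ℕ) : ℚ) * y)) - (b - p * (m * z)))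
          + (((m + 2 : ℕ) : ℚ) * (y - coeff (m + 2) g) - (m : ℚ) * (z - coeff m g)) := by
      field_simp; ring
    rw [e]
    exact ((ha.sub hb).div_p.mono (by omega)).add
      ((Vg.nat_mul _ hg1).sub (Vg.nat_mul _ hr3))

/-- **(C3) at `c0`** -/
theorem Sol.red_W0 {N : ℕ} {G g : ℚ⟦X⟧} (h : Sol p N G) (h2 : p ≠ 2) 
    (hg : ∀ m, p * m < N → Cg p (coeff (p * m) G) (coeff m g)) :
    EqP p N (C (1 / (p : ℚ)) * ((1 - X ^ 2) * W0 p G)) (up p ((1 - X ^ 2) * th g)) := by
  have hodd := odd_of_ne_two h2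
  intro n hn
  rw [map_sub, coeff_C_mul]
  by_cases hd : p ∣ n
  · obtain ⟨m, rfl⟩ := hd
    rw [coeff_up_mul]
    exact h.W0_p h2 hg hn
  · rw [coeff_up_of_not_dvd _ hd, sub_zero]
    have hw := congrArg (coeff n) (th_W0 hodd G)
    have hth : coeff n (th ((1 - X ^ 2) * W0 p G)) = n * coeff n ((1 - X ^ 2) * W0 p G) := by
      simp [T.th]
    rw [hth] at hw
    have hv : Vg p 2 ((n : ℚ) * coeff n ((1 - X ^ 2) * W0 p G)) := by
      rw [hw, map_add]
      refine Vg.add ?_ ?_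
      · exact ((VB_Hc h2 VB.X 0).mul0 h.ee) n hn
      · have h3 : VB p N 2 (C ((p : ℚ) ^ 2 * coeff (p - 1) serK) * X ^ (p + 1) : ℚ⟦X⟧) := by
          simpa using (VB.C (Vg_psq (p := p) h2)).mul ((VB.X (N := N)).pow (p + 1))
        exact (h.int.mul0 h3) n hn
    have h4 := Vg.div_unit hd hv
    have hne : (n : ℚ) ≠ 0 := by
      have : n ≠ 0 := fun h0 => hd (h0 ▸ dvd_zero p)
      exact_mod_cast this
    rw [mul_div_cancel_left₀ _ hne] at h4
    exact h4.div_p.mono (by omega)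

theorem Sol.rec_p {N : ℕ} {G : ℚ⟦X⟧} (h : Sol p N G) (h2 : p ≠ 2) {m : ℕ}
    (hm : p * (m + 2) < N) :
    Cg p (((m : ℚ) + 2) ^ 2 * coeff (p * (m + 2)) G)
      (((m : ℚ) + 1) ^ 2 * coeff (p * m) G
        + 1 / (p : ℚ) * (1 / (p : ℚ) * coeff (p * (m + 2)) (Hc p 0 X * (X * EE G)))) := by
  have hodd := odd_of_ne_two h2
  have hp1 := hp.1.two_le
  have hpq := p_ne (p := p)
  set g : ℚ⟦X⟧ := PowerSeries.mk fun m => coeff (p * m) G with hgdef
  have hgc : ∀ m, coeff m g = coeff (p * m) G := fun m => by rw [hgdef, coeff_mk]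
  have hW := h.W0_p h2 (g := g) (fun m _ => by rw [hgc]; exact Cg.rfl') hm
  have hxl : coeff (m + 2) ((1 - X ^ 2) * th g)
      = ((m : ℚ) + 2) * coeff (p * (m + 2)) G - m * coeff (p * m) G := by
    rw [sub_mul, one_mul, map_sub, mul_comm (X ^ 2 : ℚ⟦X⟧), coeff_mul_X_pow', if_pos (by omega)]
    unfold T.th
    rw [Nat.add_sub_cancel, coeff_mk, hgc, coeff_mk, hgc]
    push_cast; ring
  rw [hxl] at hW
  have hw := congrArg (coeff (p * (m + 2))) (th_W0 hodd G)
  have hex : p * (m + 2) = p * m + 2 * p := by ring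
  have hth : coeff (p * (m + 2)) (th ((1 - X ^ 2) * W0 p G))
      = p * ((m : ℚ) + 2) * coeff (p * (m + 2)) ((1 - X ^ 2) * W0 p G) := by
    unfold T.th; rw [coeff_mk]; push_cast; ring
  have e3 : G * (C ((p : ℚ) ^ 2 * coeff (p - 1) serK) * X ^ (p + 1))
      = C ((p : ℚ) ^ 2 * coeff (p - 1) serK) * (G * X ^ (p + 1)) := by ring
  rw [hth, map_add, e3, coeff_C_mul, coeff_mul_X_pow', if_pos (by omega)] at hw
  have e4 : p * (m + 2) - (p + 1) = p * m + (p - 1) := by omega
  rw [e4] at hw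
  have hK1 := hK_last (p := p) h2
  have hr := h.red h2 m (p - 1) (by omega) (by omega)
  have vG : Vg p 0 (coeff (p * m) G) := h.int _ (by omega)
  have hr2 : Cg p (coeff (p * m + (p - 1)) G) (coeff (p * m) G) := by
    refine hr.trans ?_
    have := Cg.mul (VhK h2 (p - 1)) vG hK1 (Cg.rfl' (p := p) (x := coeff (p * m) G))
    rwa [one_mul] at this
  have hr3 : Cg p (hK (p - 1) * coeff (p * m + (p - 1)) G) (coeff (p * m) G) := by
    have := Cg.mul (VhK h2 (p - 1)) vG hK1 hr2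
    rwa [one_mul] at this
  unfold Cg at *
  have hmul := Vg.nat_mul (m + 2) hW
  set w := coeff (p * (m + 2)) ((1 - X ^ 2) * W0 p G)
  set R := coeff (p * (m + 2)) (Hc p 0 X * (X * EE G))
  set y := coeff (p * (m + 2)) G
  set z := coeff (p * m + (p - 1)) G
  set v := coeff (p * m) G
  have hK' : coeff (p - 1) serK = hK (p - 1) := rfl
  rw [hK'] at hw
  have e5 : ((m : ℚ) + 2) ^ 2 * y - (((m : ℚ) + 1) ^ 2 * v + 1 / (p : ℚ) * (1 / (p : ℚ) * R))
      = -(((m + 2 : ℕ) : ℚ) * (1 / (p : ℚ) * w - (((m : ℚ) + 2) * y - m * v)))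
        + (hK (p - 1) * z - v) := by
    have hw' : ((m : ℚ) + 2) * (1 / (p : ℚ) * w) = 1 / (p : ℚ) * (1 / (p : ℚ) * R)
        + hK (p - 1) * z := by
      field_simp
      linear_combination hw
    push_cast
    linear_combination hw'
  rw [e5]
  exact hmul.neg.add hr3

theorem Sol.rec_one {N : ℕ} {G : ℚ⟦X⟧} (h : Sol p N G) (h2 : p ≠ 2) 
    (hm : p < N) :
    Cg p (coeff p G) (1 / (p : ℚ) * (1 / (p : ℚ) * coeff p (Hc p 0 X * (X * EE G)))) := by
  have hodd := odd_of_ne_two h2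
  have hp1 := hp.1.two_le
  have hpq := p_ne (p := p)
  set g : ℚ⟦X⟧ := PowerSeries.mk fun m => coeff (p * m) G with hgdef
  have hgc : ∀ m, coeff m g = coeff (p * m) G := fun m => by rw [hgdef, coeff_mk]
  have hW := h.W0_p h2 (g := g) (fun m _ => by rw [hgc]; exact Cg.rfl') (m := 1) (by omega)
  have hxl : coeff 1 ((1 - X ^ 2) * th g) = coeff p G := by
    rw [sub_mul, one_mul, map_sub, mul_comm (X ^ 2 : ℚ⟦X⟧), coeff_mul_X_pow', if_neg (by omega)]
    unfold T.th
    rw [coeff_mk, hgc, mul_one]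
    push_cast; ring
  rw [hxl, mul_one] at hW
  have hw := congrArg (coeff p) (th_W0 hodd G)
  have hth : coeff p (th ((1 - X ^ 2) * W0 p G))
      = p * coeff p ((1 - X ^ 2) * W0 p G) := by
    unfold T.th; rw [coeff_mk]
  have e3 : G * (C ((p : ℚ) ^ 2 * coeff (p - 1) serK) * X ^ (p + 1))
      = C ((p : ℚ) ^ 2 * coeff (p - 1) serK) * (G * X ^ (p + 1)) := by ring
  rw [hth, map_add, e3, coeff_C_mul, coeff_mul_X_pow', if_neg (by omega), mul_zero, add_zero]
    at hw
  unfold Cg at *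
  set w := coeff p ((1 - X ^ 2) * W0 p G)
  set R := coeff p (Hc p 0 X * (X * EE G))
  have e5 : coeff p G - 1 / (p : ℚ) * (1 / (p : ℚ) * R)
      = -(1 / (p : ℚ) * w - coeff p G) := by
    rw [← hw]; field_simp; ring
  rw [e5]
  exact hW.neg

end Vale.Agent.P030.H678
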