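import Vale.Agent.P030.H678.Red

/-!
# P030, odd primes: congruences modulo `p`, part 2 (`K`, `H(1)`, change of chart)
-/

open PowerSeries

set_option linter.unusedSectionVars false

namespace Vale.Agent.P030.H678

open Vale.Agent.P030.T Vale.Agent.P030.H792

variable {p : ℕ} [hp : Fact p.Prime]

/-- congruence modulo `p` of rational numbers -/
def Cg (p : ℕ) (x y : ℚ) : Prop := Vg p 1 (x - y)

theorem Cg.rfl' {x : ℚ} : Cg p x x := by unfold Cg; rw [sub_self]; exact Vg.zero _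
theorem Cg.of_eq {x y : ℚ} (h : x = y) : Cg p x y := h ▸ Cg.rfl'
theorem Cg.symm {x y : ℚ} (h : Cg p x y) : Cg p y x := by
  unfold Cg at *; rw [← neg_sub]; exact h.neg
theorem Cg.trans {x y z : ℚ} (h1 : Cg p x y) (h2 : Cg p y z) : Cg p x z := by
  unfold Cg at *
  have : x - z = (x - y) + (y - z) := by ring
  rw [this]; exact h1.add h2
theorem Cg.add {x y z w : ℚ} (h1 : Cg p x y) (h2 : Cg p z w) : Cg p (x + z) (y + w) := by
  unfold Cg at *
  have : x + z - (y + w) = (x - y) + (z - w) := by ring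
  rw [this]; exact h1.add h2
theorem Cg.neg {x y : ℚ} (h1 : Cg p x y) : Cg p (-x) (-y) := by
  unfold Cg at *
  have : -x - -y = -(x - y) := by ring
  rw [this]; exact Vg.neg h1
theorem Cg.sub {x y z w : ℚ} (h1 : Cg p x y) (h2 : Cg p z w) : Cg p (x - z) (y - w) := by
  rw [sub_eq_add_neg, sub_eq_add_neg]; exact h1.add h2.neg
theorem Vg.mul0 {e : ℤ} {x y : ℚ} (hx : Vg p 0 x) (hy : Vg p e y) : Vg p e (x * y) := by
  simpa using hx.mul hy
theorem Cg.mul {x y z w : ℚ} (hx : Vg p 0 x) (hw : Vg p 0 w) (h1 : Cg p x y) (h2 : Cg p z w) :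
    Cg p (x * z) (y * w) := by
  unfold Cg at *
  have : x * z - y * w = x * (z - w) + w * (x - y) := by ring
  rw [this]; exact (hx.mul0 h2).add (hw.mul0 h1)
theorem Cg.mul_left {x z w : ℚ} (hx : Vg p 0 x) (h2 : Cg p z w) : Cg p (x * z) (x * w) := by
  unfold Cg at *
  have : x * z - x * w = x * (z - w) := by ring
  rw [this]; exact hx.mul0 h2
theorem Cg.vg {x y : ℚ} (h : Cg p x y) (hy : Vg p 0 y) : Vg p 0 x := by
  have : x = (x - y) + y := by ring
  rw [this]; exact (Vg.mono (by omega) h).add hy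
theorem Cg.sum {ι : Type*} {s : Finset ι} {F G : ι → ℚ} (h : ∀ i ∈ s, Cg p (F i) (G i)) :
    Cg p (∑ i ∈ s, F i) (∑ i ∈ s, G i) := by
  unfold Cg; rw [← Finset.sum_sub_distrib]; exact Vg.sum h
theorem Cg.int_of_modEq {a b : ℤ} (h : a ≡ b [ZMOD p]) : Cg p (a : ℚ) (b : ℚ) := by
  unfold Cg
  have h1 : (p : ℤ) ∣ a - b := (Int.modEq_iff_dvd.1 h.symm)
  obtain ⟨c, hc⟩ := h1
  have : (a : ℚ) - b = (p : ℚ) * c := by exact_mod_cast hc
  rw [this]
  simpa using (Vg_p (p := p)).mul (Vg.int c)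
theorem Cg.nat_of_modEq {a b : ℕ} (h : a ≡ b [MOD p]) : Cg p (a : ℚ) (b : ℚ) := by
  have := Cg.int_of_modEq (p := p) (a := a) (b := b) (by exact_mod_cast h)
  simpa using this
/-- division by a number prime to `p` -/
theorem Cg.of_mul_unit {x y : ℚ} {n : ℕ} (hn : ¬ p ∣ n) (h : Cg p ((n : ℚ) * x) ((n : ℚ) * y)) :
    Cg p x y := by
  unfold Cg at *
  have hn0 : (n : ℚ) ≠ 0 := by
    have : n ≠ 0 := fun h0 => hn (h0 ▸ dvd_zero p)
    exact_mod_cast this
  have h1 := h.div_unit hn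
  have : ((n : ℚ) * x - n * y) / n = x - y := by field_simp
  rwa [this] at h1

theorem Cg.of_sq_unit {x y : ℚ} {n : ℕ} (hn : ¬ p ∣ n)
    (h : Cg p ((n : ℚ) ^ 2 * x) ((n : ℚ) ^ 2 * y)) : Cg p x y := by
  have h2 : ¬ p ∣ n ^ 2 := fun h3 => hn (hp.1.dvd_of_dvd_pow h3)
  apply Cg.of_mul_unit h2
  simpa using h

theorem p_zero : Cg p (p : ℚ) 0 := by unfold Cg; rw [sub_zero]; exact Vg_p

/-! ### the truncated polynomial -/

/-- `C(2k,k)²/16^k ≡ C((p-1)/2, k)²` -/
theorem hK_even (h2 : p ≠ 2) : ∀ k, 2 * k < p →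
    Cg p (hK (2 * k)) ((((p - 1) / 2).choose k : ℚ) ^ 2) := by
  have hodd := odd_of_ne_two h2
  obtain ⟨n, hn⟩ : ∃ n, p = 2 * n + 1 := ⟨p / 2, by omega⟩
  have hn' : (p - 1) / 2 = n := by omega
  rw [hn']
  intro k
  induction k with
  | zero => intro _; simp [hK_zero]; exact Cg.rfl'
  | succ k ih =>
    intro hk
    have ih' := ih (by omega)
    have hu : ¬ p ∣ (2 * k + 2) := fun h => absurd (Nat.le_of_dvd (by omega) h) (by omega)
    apply Cg.of_sq_unit hu
    have h1 := serK_rec (2 * k)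
    have e1 : (((2 * k + 2 : ℕ) : ℚ)) ^ 2 * hK (2 * (k + 1)) = ((2 * k : ℚ) + 1) ^ 2 * hK (2 * k) := by
      unfold hK
      push_cast at h1 ⊢
      exact h1
    rw [e1]
    have h3 : (n.choose (k + 1) : ℚ) * (k + 1) = n.choose k * (n - k) := by
      have h4 := Nat.choose_succ_right_eq n k
      have h5 : k ≤ n := by omega
      have : ((n - k : ℕ) : ℚ) = (n : ℚ) - k := by rw [Nat.cast_sub h5]
      rw [← this]
      exact_mod_cast h4
    have e2 : (((2 * k + 2 : ℕ) : ℚ)) ^ 2 * (n.choose (k + 1) : ℚ) ^ 2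
        = ((p : ℚ) - (2 * k + 1)) ^ 2 * (n.choose k : ℚ) ^ 2 := by
      have hpn : (p : ℚ) = 2 * n + 1 := by rw [hn]; push_cast; ring
      rw [hpn]
      push_cast
      have : ((2 : ℚ) * k + 2) ^ 2 * (n.choose (k + 1) : ℚ) ^ 2
          = 4 * ((n.choose (k + 1) : ℚ) * (k + 1)) ^ 2 := by ring
      rw [this, h3]; ring
    rw [e2]
    have hc : Cg p (((2 * k : ℚ) + 1) ^ 2) (((p : ℚ) - (2 * k + 1)) ^ 2) := by
      unfold Cg
      have : ((2 * k : ℚ) + 1) ^ 2 - ((p : ℚ) - (2 * k + 1)) ^ 2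
          = p * ((((2 * (2 * k + 1) : ℕ) : ℤ) - (p : ℤ) : ℤ) : ℚ) := by push_cast; ring
      rw [this]
      have hh := (Vg_p (p := p)).mul
        (Vg.int (p := p) (((2 * (2 * k + 1) : ℕ) : ℤ) - (p : ℤ)))
      rw [add_zero] at hh
      exact hh
    have v1 : Vg p 0 (((2 * k : ℚ) + 1) ^ 2) := by
      have := Vg.nat (p := p) ((2 * k + 1) ^ 2)
      simpa using this
    have v2 : Vg p 0 ((n.choose k : ℚ) ^ 2) := by
      have := Vg.nat (p := p) ((n.choose k) ^ 2)
      simpa using this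
    exact Cg.mul v1 v2 hc ih'

theorem hK_odd {j : ℕ} (h : j % 2 = 1) : hK j = 0 := coeff_serK_odd h

theorem VhK (h2 : p ≠ 2) (j : ℕ) : Vg p 0 (hK j) := VgK h2 j

theorem sum_hK (n : ℕ) : ∑ j ∈ Finset.range (2 * n + 1), hK j
    = ∑ k ∈ Finset.range (n + 1), hK (2 * k) := by
  induction n with
  | zero => simp
  | succ n ih =>
    rw [Finset.sum_range_succ _ (n + 1), ← ih]
    have : 2 * (n + 1) + 1 = 2 * n + 1 + 1 + 1 := by ring
    rw [this, Finset.sum_range_succ, Finset.sum_range_succ, hK_odd (j := 2 * n + 1) (by omega)]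
    have e : 2 * n + 1 + 1 = 2 * (n + 1) := by ring
    rw [e]; ring

theorem choose_pred (k : ℕ) (hk : k < p) : Cg p (((p - 1).choose k : ℕ) : ℚ) ((-1) ^ k) := by
  induction k with
  | zero => simp; exact Cg.rfl'
  | succ k ih =>
    have ih' := ih (by omega)
    have h1 : p.choose (k + 1) = (p - 1).choose k + (p - 1).choose (k + 1) := by
      obtain ⟨q, hq⟩ : ∃ q, p = q + 1 := ⟨p - 1, by have := hp.1.pos; omega⟩
      rw [hq, Nat.add_sub_cancel, Nat.choose_succ_succ]
    have h3 : p ∣ p.choose (k + 1) := hp.1.dvd_choose_self (by omega) hk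
    have h4 : Cg p ((p.choose (k + 1) : ℕ) : ℚ) 0 := by
      unfold Cg
      rw [sub_zero]
      have := Vg.dvd_nat (p := p) h3 Vg.one
      simpa using this
    rw [h1] at h4
    have h5 := h4.sub ih'
    push_cast at h5
    have e1 : ((p - 1).choose k : ℚ) + ((p - 1).choose (k + 1) : ℚ) - ((p - 1).choose k : ℚ)
        = ((p - 1).choose (k + 1) : ℚ) := by ring
    have e2 : (0 : ℚ) - (-1) ^ k = (-1) ^ (k + 1) := by rw [pow_succ]; ring
    rw [e1, e2] at h5
    exact h5

/-- the sign `χ(p) = (-1)^((p-1)/2)` -/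
def chi (p : ℕ) : ℚ := (-1) ^ ((p - 1) / 2)

theorem chi_sq (p : ℕ) : chi p * chi p = 1 := by
  unfold chi
  rw [← mul_pow]; simp

theorem Vchi : Vg p 0 (chi p) := by
  unfold chi
  have := Vg.int (p := p) ((-1) ^ ((p - 1) / 2))
  simpa using this

/-- `H(1) ≡ χ(p)` -/
theorem H_one (h2 : p ≠ 2) : Cg p (∑ j ∈ Finset.range p, hK j) (chi p) := by
  have hodd := odd_of_ne_two h2
  obtain ⟨n, hn⟩ : ∃ n, p = 2 * n + 1 := ⟨p / 2, by omega⟩
  have hn' : (p - 1) / 2 = n := by omega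
  have e0 : ∑ j ∈ Finset.range p, hK j = ∑ k ∈ Finset.range (n + 1), hK (2 * k) := by
    have := sum_hK n
    rwa [← hn] at this
  rw [e0]
  have h1 : Cg p (∑ k ∈ Finset.range (n + 1), hK (2 * k))
      (∑ k ∈ Finset.range (n + 1), (n.choose k : ℚ) ^ 2) := by
    refine Cg.sum fun k hk => ?_
    have := Finset.mem_range.1 hk
    have h3 := hK_even h2 k (by omega)
    rwa [hn'] at h3
  refine h1.trans ?_
  have h4 : (∑ k ∈ Finset.range (n + 1), (n.choose k : ℚ) ^ 2) = ((2 * n).choose n : ℕ) := by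
    have := Nat.sum_range_choose_sq n
    rw [← this]; push_cast; rfl
  rw [h4]
  have h5 := choose_pred (p := p) n (by omega)
  have h6 : p - 1 = 2 * n := by omega
  rw [h6] at h5
  unfold chi
  rw [hn']
  exact h5

/-- `K_{p-1-j} ≡ K_j` -/
theorem hK_symm (h2 : p ≠ 2) {j : ℕ} (hj : j < p) : Cg p (hK (p - 1 - j)) (hK j) := by
  have hodd := odd_of_ne_two h2
  obtain ⟨n, hn⟩ : ∃ n, p = 2 * n + 1 := ⟨p / 2, by omega⟩
  have hn' : (p - 1) / 2 = n := by omega
  rcases Nat.mod_two_eq_zero_or_one j with h | h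
  · obtain ⟨k, rfl⟩ : ∃ k, j = 2 * k := ⟨j / 2, by omega⟩
    have e : p - 1 - 2 * k = 2 * (n - k) := by omega
    rw [e]
    have h1 := hK_even h2 (n - k) (by omega)
    have h3 := hK_even h2 k (by omega)
    rw [hn'] at h1 h3
    rw [Nat.choose_symm (by omega : k ≤ n)] at h1
    exact h1.trans h3.symm
  · rw [hK_odd h, hK_odd (by omega)]; exact Cg.rfl'

theorem hK_last (h2 : p ≠ 2) : Cg p (hK (p - 1)) 1 := by
  have := hK_symm (p := p) h2 hp.1.pos
  rw [Nat.sub_zero, hK_zero] at this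
  exact this

/-- Lucas: `K_{pm+r} ≡ K_m K_r` -/
theorem hK_lucas (h2 : p ≠ 2) (m r : ℕ) (hr : r < p) : Cg p (hK (p * m + r)) (hK m * hK r) := by
  have hodd := odd_of_ne_two h2
  have hp1 := hp.1.pos
  have h2u : ¬ p ∣ 4 ^ (p * m + r) := fun h => not_dvd_four h2 (hp.1.dvd_of_dvd_pow h)
  have hmod : (p * m + r) % p = r := by rw [Nat.mul_add_mod, Nat.mod_eq_of_lt hr]
  have hdiv : (p * m + r) / p = m := by
    rw [Nat.mul_add_div hp1, Nat.div_eq_of_lt hr, add_zero]
  have hpm : (p * m) % 2 = m % 2 := by rw [Nat.mul_mod, hodd, one_mul, Nat.mod_mod]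
  by_cases he : (p * m + r) % 2 = 1
  · rw [hK_odd he]
    have : hK m * hK r = 0 := by
      rcases Nat.mod_two_eq_zero_or_one m with hm | hm
      · rw [hK_odd (j := r) (by omega), mul_zero]
      · rw [hK_odd (j := m) hm, zero_mul]
    rw [this]; exact Cg.rfl'
  · have he' : Even (p * m + r) := Nat.even_iff.2 (by omega)
    have hluc := Choose.choose_modEq_choose_mod_mul_choose_div_nat (p := p)
      (n := p * m + r) (k := (p * m + r) / 2)
    rw [hmod, hdiv] at hluc
    have hcb : (p * m + r).choose ((p * m + r) / 2) = Nat.centralBinom ((p * m + r) / 2) := by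
      rw [Nat.centralBinom_eq_two_mul_choose]; congr 1; omega
    rw [hcb] at hluc
    have hval : hK (p * m + r)
        = (Nat.centralBinom ((p * m + r) / 2) : ℚ) ^ 2 / 4 ^ (p * m + r) := by
      unfold hK T.serK; rw [coeff_mk, if_pos he']
    rcases Nat.mod_two_eq_zero_or_one r with hr2 | hr2
    · have hm2 : m % 2 = 0 := by omega
      obtain ⟨k1, hk1⟩ : ∃ k, m = 2 * k := ⟨m / 2, by omega⟩
      obtain ⟨k0, hk0⟩ : ∃ k, r = 2 * k := ⟨r / 2, by omega⟩
      have hk : (p * m + r) / 2 = p * k1 + k0 := by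
        rw [hk1, hk0]
        have : p * (2 * k1) = 2 * (p * k1) := by ring
        omega
      have hkm : (p * k1 + k0) % p = k0 := by
        rw [Nat.mul_add_mod, Nat.mod_eq_of_lt (by omega)]
      have hkd : (p * k1 + k0) / p = k1 := by
        rw [Nat.mul_add_div hp1, Nat.div_eq_of_lt (by omega), add_zero]
      rw [hk, hkm, hkd] at hluc
      have hc1 : m.choose k1 = Nat.centralBinom k1 := by
        rw [Nat.centralBinom_eq_two_mul_choose, hk1]
      have hc0 : r.choose k0 = Nat.centralBinom k0 := by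
        rw [Nat.centralBinom_eq_two_mul_choose, hk0]
      rw [hc1, hc0] at hluc
      have hvm : hK m = (Nat.centralBinom k1 : ℚ) ^ 2 / 4 ^ m := by
        unfold hK T.serK
        rw [coeff_mk, if_pos (Nat.even_iff.2 hm2)]
        have : m / 2 = k1 := by omega
        rw [this]
      have hvr : hK r = (Nat.centralBinom k0 : ℚ) ^ 2 / 4 ^ r := by
        unfold hK T.serK
        rw [coeff_mk, if_pos (Nat.even_iff.2 hr2)]
        have : r / 2 = k0 := by omega
        rw [this]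
      rw [hval, hvm, hvr, hk]
      apply Cg.of_mul_unit h2u
      have h4 : (4 : ℚ) ≠ 0 := by norm_num
      have e1 : ((4 ^ (p * m + r) : ℕ) : ℚ) * ((Nat.centralBinom (p * k1 + k0) : ℚ) ^ 2
          / 4 ^ (p * m + r)) = (Nat.centralBinom (p * k1 + k0) : ℚ) ^ 2 := by
        push_cast; field_simp
      have e2 : ((4 ^ (p * m + r) : ℕ) : ℚ) * ((Nat.centralBinom k1 : ℚ) ^ 2 / 4 ^ m
          * ((Nat.centralBinom k0 : ℚ) ^ 2 / 4 ^ r))
          = ((4 ^ ((p - 1) * m) : ℕ) : ℚ)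
            * ((Nat.centralBinom k0 * Nat.centralBinom k1 : ℕ) : ℚ) ^ 2 := by
        have : p * m + r = (p - 1) * m + m + r := by
          obtain ⟨q, hq⟩ : ∃ q, p = q + 1 := ⟨p - 1, by omega⟩
          rw [hq, Nat.add_sub_cancel]; ring
        rw [this]
        push_cast
        rw [pow_add, pow_add]
        field_simp
      rw [e1, e2]
      have f1 : Cg p ((Nat.centralBinom (p * k1 + k0) : ℚ) ^ 2)
          (((Nat.centralBinom k0 * Nat.centralBinom k1 : ℕ) : ℚ) ^ 2) := by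
        have g1 := Cg.nat_of_modEq (p := p) (hluc.pow 2)
        push_cast at g1 ⊢
        exact g1
      have f2 : Cg p ((4 ^ ((p - 1) * m) : ℕ) : ℚ) 1 := by
        have hcop : Nat.Coprime 4 p := by
          rw [Nat.coprime_comm]
          exact (Nat.Prime.coprime_iff_not_dvd hp.1).2 (not_dvd_four h2)
        have g1 : 4 ^ (p - 1) ≡ 1 [MOD p] := by
          have := Nat.ModEq.pow_totient hcop
          rwa [Nat.totient_prime hp.1] at this
        have g2 := Cg.nat_of_modEq (p := p) (g1.pow m)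
        rw [← pow_mul, one_pow] at g2
        simpa using g2
      have f3 : Vg p 0 (((Nat.centralBinom k0 * Nat.centralBinom k1 : ℕ) : ℚ) ^ 2) := by
        have := Vg.nat (p := p) ((Nat.centralBinom k0 * Nat.centralBinom k1) ^ 2)
        simpa using this
      have f4 := Cg.mul (x := ((4 ^ ((p - 1) * m) : ℕ) : ℚ)) (Vg.nat _) f3 f2 (Cg.rfl' (p := p))
      rw [one_mul] at f4
      exact f1.trans f4.symm
    · have hm2 : m % 2 = 1 := by omega
      rw [hK_odd (j := m) hm2, zero_mul, hval]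
      have hk : (p * m + r) / 2 = p * (m / 2) + (p + r) / 2 := by
        obtain ⟨k1, hk1⟩ : ∃ k, m = 2 * k + 1 := ⟨m / 2, by omega⟩
        have : m / 2 = k1 := by omega
        rw [this, hk1]
        have : p * (2 * k1 + 1) = 2 * (p * k1) + p := by ring
        omega
      have hkm : (p * (m / 2) + (p + r) / 2) % p = (p + r) / 2 := by
        rw [Nat.mul_add_mod, Nat.mod_eq_of_lt (by omega)]
      rw [hk, hkm, Nat.choose_eq_zero_of_lt (by omega : r < (p + r) / 2), zero_mul] at hluc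
      rw [hk]
      unfold Cg
      rw [sub_zero]
      have g1 : p ∣ Nat.centralBinom (p * (m / 2) + (p + r) / 2) :=
        (Nat.modEq_zero_iff_dvd).1 hluc
      have g2 := Vg.dvd_nat (p := p) g1 (Vg.nat (p := p)
        (Nat.centralBinom (p * (m / 2) + (p + r) / 2)))
      have g3 := g2.div_unit h2u
      have e : (Nat.centralBinom (p * (m / 2) + (p + r) / 2) : ℚ) ^ 2 / 4 ^ (p * m + r)
          = (Nat.centralBinom (p * (m / 2) + (p + r) / 2) : ℚ)
            * (Nat.centralBinom (p * (m / 2) + (p + r) / 2) : ℚ) / ((4 ^ (p * m + r) : ℕ) : ℚ) := by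
        push_cast; rw [sq]
      rw [e]
      exact g3.mono (by omega)

/-! ### `K ≡ H(X) K(X^p)` -/

theorem coeff_Hc_mul (a : ℕ) (F : ℚ⟦X⟧) (n : ℕ) :
    coeff n (Hc p a X * F) = ∑ j ∈ Finset.range p,
      if j ≤ n then (j : ℚ) ^ a * hK j * coeff (n - j) F else 0 := by
  unfold Hc
  rw [Finset.sum_mul, map_sum]
  refine Finset.sum_congr rfl fun j _ => ?_
  rw [mul_assoc, coeff_C_mul, coeff_X_pow_mul']
  split_ifs with h
  · unfold hK; ring
  · simp

theorem coeff_Hc_up (a : ℕ) (F : ℚ⟦X⟧) (m r : ℕ) (hr : r < p) :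
    coeff (p * m + r) (Hc p a X * up p F) = (r : ℚ) ^ a * hK r * coeff m F := by
  rw [coeff_Hc_mul, Finset.sum_eq_single r]
  · rw [if_pos (by omega), Nat.add_sub_cancel, coeff_up_mul]
  · intro j hj hjr
    have hj' := Finset.mem_range.1 hj
    split_ifs with h
    · rw [coeff_up_of_not_dvd F, mul_zero]
      intro hd
      have h1 : (p * m + r) % p = j % p := by
        obtain ⟨c, hc⟩ := hd
        have : p * m + r = p * c + j := by omega
        rw [this, Nat.mul_add_mod]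
      rw [Nat.mul_add_mod, Nat.mod_eq_of_lt hr, Nat.mod_eq_of_lt hj'] at h1
      exact hjr h1.symm
    · rfl
  · intro h
    exact absurd (Finset.mem_range.2 hr) h

theorem red_K (h2 : p ≠ 2) (N : ℕ) : EqP p N serK (Hc p 0 X * up p serK) := by
  intro n _
  rw [map_sub]
  have hn : n = p * (n / p) + n % p := (Nat.div_add_mod n p).symm
  have hr := Nat.mod_lt n hp.1.pos
  have h1 := hK_lucas h2 (n / p) (n % p) hr
  rw [← hn] at h1
  have h3 := coeff_Hc_up (p := p) 0 serK (n / p) (n % p) hr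
  rw [← hn] at h3
  rw [h3, pow_zero, one_mul]
  unfold Cg at h1
  have : hK (n % p) * coeff (n / p) serK = hK (n / p) * hK (n % p) := by
    unfold hK; ring
  rw [this]
  exact h1

end Vale.Agent.P030.H678
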