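import Vale.Agent.P030.H678.RedW
import Vale.Agent.P030.H792.TabPoly

/-!
# P030, odd primes: congruences modulo `p`, part 6 (the table `RdTab`)
-/

open PowerSeries

set_option linter.unusedSectionVars false

namespace Vale.Agent.P030.H678

open Vale.Agent.P030.T Vale.Agent.P030.H792

variable {p : ℕ} [hp : Fact p.Prime] {N : ℕ}

/-! ### the homogeneous polynomials -/

theorem gR_eq : gR ℚ = geo := rfl

theorem hQ_0 (a : ℕ) : hQ p a 0 = geo ^ (p - 1) * Hc p a X := by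
  unfold hQ Hc
  rw [Finset.mul_sum]
  refine Finset.sum_congr rfl fun q hq => ?_
  have hq' := Finset.mem_range.1 hq
  show C ((q : ℚ) ^ a * hK q) * (X * gR ℚ) ^ q * gR ℚ ^ (p - 1 - q) = _
  have e : geo ^ (p - 1) = geo ^ q * geo ^ (p - 1 - q) := by rw [← pow_add]; congr 1; omega
  rw [gR_eq, e, mul_pow]
  unfold hK
  ring

theorem hQ_2 (h2 : p ≠ 2) (a : ℕ) : hQ p a 2 = geo ^ (p - 1) * Hr p a := by
  have hodd := odd_of_ne_two h2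
  unfold hQ Hr
  rw [Finset.mul_sum]
  refine Finset.sum_congr rfl fun q hq => ?_
  have hq' := Finset.mem_range.1 hq
  show C ((q : ℚ) ^ a * hK q) * (-gR ℚ) ^ q * (-(X * gR ℚ)) ^ (p - 1 - q) = _
  have e : geo ^ (p - 1) = geo ^ q * geo ^ (p - 1 - q) := by rw [← pow_add]; congr 1; omega
  have e1 : ((-1 : ℚ⟦X⟧)) ^ q * (-1) ^ (p - 1 - q) = 1 := by
    rw [← pow_add]
    exact Even.neg_one_pow (Nat.even_iff.2 (by omega))
  rw [gR_eq, e, neg_pow geo, neg_pow (X * geo), mul_pow]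
  unfold hK
  linear_combination (C ((q : ℚ) ^ a * coeff q serK) * geo ^ q * (X ^ (p - 1 - q)
    * geo ^ (p - 1 - q))) * e1

theorem hQ_1 (h2 : p ≠ 2) (a : ℕ) : hQ p a 1 = C ((1 / 2) ^ (p - 1)) * Hh1 p a (-1) := by
  have hodd := odd_of_ne_two h2
  rw [Hh1_eq]
  unfold hQ
  rw [Finset.mul_sum]
  refine Finset.sum_congr rfl fun q hq => ?_
  have hq' := Finset.mem_range.1 hq
  show C ((q : ℚ) ^ a * hK q) * (C (-1 / 2 : ℚ) * (1 + X)) ^ q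
    * (C (1 / 2 : ℚ) * (1 - X)) ^ (p - 1 - q) = _
  have e1 : ((-1 / 2 : ℚ)) ^ q * (1 / 2) ^ (p - 1 - q) = (1 / 2) ^ (p - 1) * (-1) ^ q := by
    have : (1 / 2 : ℚ) ^ (p - 1) = (1 / 2) ^ q * (1 / 2) ^ (p - 1 - q) := by
      rw [← pow_add]; congr 1; omega
    rw [this]
    have : (-1 / 2 : ℚ) = (-1) * (1 / 2) := by norm_num
    rw [this, mul_pow]; ring
  have e2 : (C ((-1 / 2 : ℚ)) : ℚ⟦X⟧) ^ q * C (1 / 2 : ℚ) ^ (p - 1 - q)
      = C ((1 / 2) ^ (p - 1)) * C ((-1) ^ q) := by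
    rw [← map_pow, ← map_pow, ← map_mul, e1, map_mul]
  rw [mul_pow, mul_pow, map_mul (C : ℚ →+* ℚ⟦X⟧) ((q : ℚ) ^ a * hK q)]
  linear_combination (C ((q : ℚ) ^ a * hK q) * (1 + X) ^ q * (1 - X) ^ (p - 1 - q)) * e2

theorem hQ_3 (h2 : p ≠ 2) (a : ℕ) : hQ p a 3 = C ((1 / 2) ^ (p - 1)) * Hh1 p a 1 := by
  have hodd := odd_of_ne_two h2
  rw [Hh1_eq]
  unfold hQ
  rw [Finset.mul_sum]
  refine Finset.sum_congr rfl fun q hq => ?_
  have hq' := Finset.mem_range.1 hq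
  show C ((q : ℚ) ^ a * hK q) * (C (-1 / 2 : ℚ) * (1 + X)) ^ q
    * (C (-1 / 2 : ℚ) * (1 - X)) ^ (p - 1 - q) = _
  have e1 : ((-1 / 2 : ℚ)) ^ q * (-1 / 2) ^ (p - 1 - q) = (1 / 2) ^ (p - 1) := by
    rw [← pow_add]
    have h3 : q + (p - 1 - q) = p - 1 := by omega
    have h4 : (-1 / 2 : ℚ) = (-1) * (1 / 2) := by norm_num
    rw [h3, h4, mul_pow, Even.neg_one_pow (Nat.even_iff.2 (by omega)), one_mul]
  have e2 : (C ((-1 / 2 : ℚ)) : ℚ⟦X⟧) ^ q * C (-1 / 2 : ℚ) ^ (p - 1 - q)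
      = C ((1 / 2) ^ (p - 1)) := by
    rw [← map_pow, ← map_pow, ← map_mul, e1]
  rw [mul_pow, mul_pow, one_pow, mul_one]
  linear_combination (C ((q : ℚ) ^ a * hK q) * (1 + X) ^ q * (1 - X) ^ (p - 1 - q)) * e2

theorem half_pow (h2 : p ≠ 2) : Cg p ((1 / 2 : ℚ) ^ (p - 1)) 1 := by
  have h3 : ¬ p ∣ 2 ^ (p - 1) := fun h => not_dvd_two h2 (hp.1.dvd_of_dvd_pow h)
  apply Cg.of_mul_unit h3
  have hcop : Nat.Coprime 2 p := by
    rw [Nat.coprime_comm]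
    exact (Nat.Prime.coprime_iff_not_dvd hp.1).2 (not_dvd_two h2)
  have g1 : 2 ^ (p - 1) ≡ 1 [MOD p] := by
    have := Nat.ModEq.pow_totient hcop
    rwa [Nat.totient_prime hp.1] at this
  have g2 := Cg.nat_of_modEq (p := p) g1
  have e : ((2 ^ (p - 1) : ℕ) : ℚ) * (1 / 2) ^ (p - 1) = 1 := by
    push_cast
    rw [← mul_pow]; norm_num
  rw [e, mul_one]
  have := g2.symm
  simpa using this

theorem Vg_half_pow (h2 : p ≠ 2) : Vg p 0 ((1 / 2 : ℚ) ^ (p - 1)) :=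
  (half_pow h2).vg Vg.one

theorem EqP.of_Cg {x y : ℚ} (h : Cg p x y) : EqP p N (C x) (C y) := by
  unfold EqP; rw [← map_sub]; exact VB.C h

/-! ### the difference `B - A` -/

theorem dAB_0 : cB ℚ 0 - cA ℚ 0 = 1 := by
  show gR ℚ - X * gR ℚ = 1
  rw [gR_eq]; linear_combination geo_mul

theorem dAB_1 : cB ℚ 1 - cA ℚ 1 = 1 := by
  show C (1 / 2 : ℚ) * (1 - X) - C (-1 / 2 : ℚ) * (1 + X) = 1
  have e : (C (-1 / 2 : ℚ) : ℚ⟦X⟧) = -C (1 / 2) := by rw [← map_neg]; congr 1; norm_num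
  have e2 : (C (1 / 2) : ℚ⟦X⟧) * 2 = 1 := by
    rw [two_eq, ← map_mul]; norm_num
  rw [e]; linear_combination e2

theorem dAB_2 : cB ℚ 2 - cA ℚ 2 = 1 := by
  show -(X * gR ℚ) - -gR ℚ = 1
  rw [gR_eq]; linear_combination geo_mul

theorem dAB_3 : cB ℚ 3 - cA ℚ 3 = X := by
  show C (-1 / 2 : ℚ) * (1 - X) - C (-1 / 2 : ℚ) * (1 + X) = X
  have e : (C (-1 / 2 : ℚ) : ℚ⟦X⟧) = -C (1 / 2) := by rw [← map_neg]; congr 1; norm_num
  have e2 : (C (1 / 2) : ℚ⟦X⟧) * 2 = 1 := by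
    rw [two_eq, ← map_mul]; norm_num
  rw [e]; linear_combination X * e2

/-! ### `F`- and `T`-components -/

/-- `β` -/
noncomputable def bet (p : ℕ) : Gp → ℚ⟦X⟧
  | .z1 => (1 - X) * (C (chi p) * serB)
  | .z8 => (1 - X) * serK
  | .w1 => C (chi p) * serB2
  | .wy => -(C (chi p) * serK)
  | .w8 => C (chi p) * serK
  | .v8 => -((1 - X) * serK)
  | .x2 => C (1 / 8) * (C (chi p) * serK)
  | .xl => -(C (chi p) * serK)
  | .x1 => C (1 / 4) * (C (chi p) * serM)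
  | _ => 0

/-- the statement at one group -/
def Q2 (p N : ℕ) (g : Gp) : Prop :=
  EqP p N (C ((p : ℚ) ^ (2 - wg g)) * tup0 g 6)
    (hQ p 0 g.cusp * (cB ℚ g.cusp - cA ℚ g.cusp) * up p (bet p g))

def Q2' (p N : ℕ) (g : Gp) : Prop :=
  EqP p N (C ((p : ℚ) ^ (2 - wg g)) * tup0 g 7)
    (hQ p 1 g.cusp * (cB ℚ g.cusp - cA ℚ g.cusp) * up p (bet p g))

/-- the factor at `c0`, `c2` -/
theorem fac0 (h2 : p ≠ 2) : EqP p N (geo ^ (p - 1) * up p (1 - X)) (1 - X) := by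
  have h := EqP.mul_left (VB.geo.pow (p - 1)) (frob_m (p := p) (N := N) h2).symm
  have e : geo ^ (p - 1) * (1 - X : ℚ⟦X⟧) ^ p = 1 - X := by
    have h3 := geo_one_sub_pow (p - 1)
    have e1 : (1 - X : ℚ⟦X⟧) ^ p = (1 - X) ^ (p - 1) * (1 - X) := by
      rw [← pow_succ]; congr 1; have := hp.1.pos; omega
    rw [e1]; linear_combination (1 - X) * h3
  rwa [e] at h

theorem VB_up_p {f : ℚ⟦X⟧} (hN : N ≤ p ^ 2) (h : VB p p 0 f) : VB p N 0 (up p f) :=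
  VB_up (M := p) (by rw [← sq]; exact hN) h

theorem VBp_of_Sol {G g : ℚ⟦X⟧} (h : Sol p (p ^ 2) G)
    (hg : ∀ m, p * m < p ^ 2 → Cg p (coeff (p * m) G) (coeff m g)) : VB p p 0 g :=
  fun m hm => h.vg hg (by rw [sq]; exact Nat.mul_lt_mul_of_pos_left hm hp.1.pos)

theorem VBp_chiB (h2 : p ≠ 2) : VB p p 0 (C (chi p) * serB) :=
  VBp_of_Sol (Sol_B h2 le_rfl) (val_B h2 le_rfl)

theorem VBp_B2 (h2 : p ≠ 2) : VB p p 0 serB2 :=
  VBp_of_Sol (Sol_B2 h2 le_rfl) (val_B2 h2 le_rfl)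

theorem VBp_M (h2 : p ≠ 2) : VB p p 0 serM := fun _ hm => Vg_M h2 hm

/-- at `c0`, `c2` -/
theorem step0 (h2 : p ≠ 2) {G g H : ℚ⟦X⟧} (hH : VB p N 0 H)
    (hg : VB p N 0 (up p g)) (h : EqP p N G (H * up p g)) :
    EqP p N ((1 - X) * G) (geo ^ (p - 1) * H * 1 * up p ((1 - X) * g)) := by
  have h1 : EqP p N ((1 - X) * G) ((1 - X) * (H * up p g)) := EqP.mul_left VB_one_sub_X h
  have h3 : EqP p N (geo ^ (p - 1) * up p (1 - X) * (H * up p g)) ((1 - X) * (H * up p g)) := by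
    refine EqP.mul ?_ (hH.mul0 hg) (fac0 h2) EqP.rfl'
    refine (VB.geo.pow _).mul0 ?_
    rw [up_sub, up_one, up_X]
    exact VB.one.sub (VB.X.pow p)
  have e : geo ^ (p - 1) * H * 1 * up p ((1 - X) * g)
      = geo ^ (p - 1) * up p (1 - X) * (H * up p g) := by
    rw [up_mul (1 - X : ℚ⟦X⟧)]; ring
  rw [e]
  exact h1.trans h3.symm

/-- at `c1`, `c3` -/
theorem step1 (h2 : p ≠ 2) {G g H : ℚ⟦X⟧} (hH : VB p N 0 H)
    (hg : VB p N 0 (up p g)) (h : EqP p N G (C (chi p) * (H * up p g))) :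
    EqP p N G (C ((1 / 2) ^ (p - 1)) * H * up p (C (chi p) * g)) := by
  have h3 : EqP p N (C ((1 / 2) ^ (p - 1)) * (H * up p (C (chi p) * g)))
      (C 1 * (H * up p (C (chi p) * g))) := by
    refine EqP.mul (VB.C (Vg_half_pow h2)) ?_ (EqP.of_Cg (half_pow h2)) EqP.rfl'
    refine hH.mul0 ?_
    rw [up_C_mul]
    exact (VB.C Vchi).mul0 hg
  have e : C (1 : ℚ) * (H * up p (C (chi p) * g)) = C (chi p) * (H * up p g) := by
    rw [up_C_mul, map_one]; ring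
  rw [e] at h3
  have e2 : C ((1 / 2 : ℚ) ^ (p - 1)) * H * up p (C (chi p) * g)
      = C ((1 / 2) ^ (p - 1)) * (H * up p (C (chi p) * g)) := by ring
  rw [e2]
  exact h.trans h3.symm

theorem q2_zero {g : Gp} (h6 : tup0 g 6 = 0) (hb : bet p g = 0) : Q2 p N g := by
  unfold Q2; rw [h6, hb, up_zero, mul_zero, mul_zero]; exact EqP.rfl'

theorem q2'_zero {g : Gp} (h6 : tup0 g 7 = 0) (hb : bet p g = 0) : Q2' p N g := by
  unfold Q2'; rw [h6, hb, up_zero, mul_zero, mul_zero]; exact EqP.rfl'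

theorem cpow (n : ℕ) : ((p : ℚ) ^ (n : ℤ)) = (p : ℚ) ^ n := zpow_natCast _ _

theorem q2_z8 (h2 : p ≠ 2) : Q2 p N .z8 := by
  unfold Q2
  show EqP p N (C ((p : ℚ) ^ ((2 : ℤ) - 2)) * ((1 - X) * serK))
    (hQ p 0 0 * (cB ℚ 0 - cA ℚ 0) * up p ((1 - X) * serK))
  rw [sub_self, zpow_zero, map_one, one_mul, dAB_0, hQ_0]
  exact step0 h2 (VB_Hc h2 VB.X 0) ((Sol_K h2 N).vb_up (val_K h2)) (red_K h2 N)

theorem q2'_z8 (h2 : p ≠ 2) : Q2' p N .z8 := by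
  unfold Q2'
  show EqP p N (C ((p : ℚ) ^ ((2 : ℤ) - 2)) * ((1 - X) * th serK))
    (hQ p 1 0 * (cB ℚ 0 - cA ℚ 0) * up p ((1 - X) * serK))
  rw [sub_self, zpow_zero, map_one, one_mul, dAB_0, hQ_0]
  exact step0 h2 (VB_Hc h2 VB.X 1) ((Sol_K h2 N).vb_up (val_K h2)) (red_thK h2 N)

theorem q2_z1 (h2 : p ≠ 2) (hN : N ≤ p ^ 2) : Q2 p N .z1 := by
  unfold Q2
  show EqP p N (C ((p : ℚ) ^ ((2 : ℤ) - 0)) * ((1 - X) * serB))
    (hQ p 0 0 * (cB ℚ 0 - cA ℚ 0) * up p ((1 - X) * (C (chi p) * serB)))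
  rw [sub_zero, ppow2, dAB_0, hQ_0]
  have e : C ((p : ℚ) ^ 2) * ((1 - X) * serB) = (1 - X) * (C ((p : ℚ) ^ 2) * serB) := by ring
  rw [e]
  exact step0 h2 (VB_Hc h2 VB.X 0) ((Sol_B h2 hN).vb_up (val_B h2 hN)) (red_B h2 hN)

theorem q2'_z1 (h2 : p ≠ 2) (hN : N ≤ p ^ 2) : Q2' p N .z1 := by
  unfold Q2'
  show EqP p N (C ((p : ℚ) ^ ((2 : ℤ) - 0)) * ((1 - X) * th serB))
    (hQ p 1 0 * (cB ℚ 0 - cA ℚ 0) * up p ((1 - X) * (C (chi p) * serB)))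
  rw [sub_zero, ppow2, dAB_0, hQ_0]
  have e : C ((p : ℚ) ^ 2) * ((1 - X) * th serB) = (1 - X) * th (C ((p : ℚ) ^ 2) * serB) := by
    rw [th_C_mul]; ring
  rw [e]
  exact step0 h2 (VB_Hc h2 VB.X 1) ((Sol_B h2 hN).vb_up (val_B h2 hN)) (red_thB h2 hN)

/-! ### `c1` -/

theorem q2_w8 (h2 : p ≠ 2) : Q2 p N .w8 := by
  unfold Q2
  show EqP p N (C ((p : ℚ) ^ ((2 : ℤ) - 2)) * serK)
    (hQ p 0 1 * (cB ℚ 1 - cA ℚ 1) * up p (C (chi p) * serK))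
  rw [sub_self, zpow_zero, map_one, one_mul, dAB_1, hQ_1 h2, mul_one]
  exact step1 h2 (VB_Hh1 h2 0 (Or.inr rfl)) ((Sol_K h2 N).vb_up (val_K h2))
    ((Sol_K h2 N).red_F h2 (Or.inr rfl) (val_K h2))

theorem q2'_w8 (h2 : p ≠ 2) : Q2' p N .w8 := by
  unfold Q2'
  show EqP p N (C ((p : ℚ) ^ ((2 : ℤ) - 2)) * T.tw serK)
    (hQ p 1 1 * (cB ℚ 1 - cA ℚ 1) * up p (C (chi p) * serK))
  rw [sub_self, zpow_zero, map_one, one_mul, dAB_1, hQ_1 h2, mul_one]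
  exact step1 h2 (VB_Hh1 h2 1 (Or.inr rfl)) ((Sol_K h2 N).vb_up (val_K h2))
    ((Sol_K h2 (N + 1)).red_T h2 (Or.inr rfl) (val_K h2))

theorem q2_wy (h2 : p ≠ 2) : Q2 p N .wy := by
  have h := q2_w8 (p := p) (N := N) h2
  unfold Q2 at *
  have h3 := EqP.neg h
  have e1 : -(C ((p : ℚ) ^ (2 - wg .w8)) * tup0 .w8 6) = C ((p : ℚ) ^ (2 - wg .wy)) * tup0 .wy 6 := by
    show -(C ((p : ℚ) ^ ((2 : ℤ) - 2)) * serK) = C ((p : ℚ) ^ ((2 : ℤ) - 2)) * (-serK)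
    ring
  have e2 : -(hQ p 0 (Gp.cusp .w8) * (cB ℚ (Gp.cusp .w8) - cA ℚ (Gp.cusp .w8)) * up p (bet p .w8))
      = hQ p 0 (Gp.cusp .wy) * (cB ℚ (Gp.cusp .wy) - cA ℚ (Gp.cusp .wy)) * up p (bet p .wy) := by
    show _ = hQ p 0 1 * (cB ℚ 1 - cA ℚ 1) * up p (-(C (chi p) * serK))
    rw [up_neg]
    show -(hQ p 0 1 * (cB ℚ 1 - cA ℚ 1) * up p (C (chi p) * serK)) = _
    ring
  rwa [e1, e2] at h3

theorem q2'_wy (h2 : p ≠ 2) : Q2' p N .wy := by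
  have h := q2'_w8 (p := p) (N := N) h2
  unfold Q2' at *
  have h3 := EqP.neg h
  have e1 : -(C ((p : ℚ) ^ (2 - wg .w8)) * tup0 .w8 7) = C ((p : ℚ) ^ (2 - wg .wy)) * tup0 .wy 7 := by
    show -(C ((p : ℚ) ^ ((2 : ℤ) - 2)) * T.tw serK) = C ((p : ℚ) ^ ((2 : ℤ) - 2)) * (-T.tw serK)
    ring
  have e2 : -(hQ p 1 (Gp.cusp .w8) * (cB ℚ (Gp.cusp .w8) - cA ℚ (Gp.cusp .w8)) * up p (bet p .w8))
      = hQ p 1 (Gp.cusp .wy) * (cB ℚ (Gp.cusp .wy) - cA ℚ (Gp.cusp .wy)) * up p (bet p .wy) := by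
    show _ = hQ p 1 1 * (cB ℚ 1 - cA ℚ 1) * up p (-(C (chi p) * serK))
    rw [up_neg]
    show -(hQ p 1 1 * (cB ℚ 1 - cA ℚ 1) * up p (C (chi p) * serK)) = _
    ring
  rwa [e1, e2] at h3

theorem q2_w1 (h2 : p ≠ 2) (hN : N ≤ p ^ 2) : Q2 p N .w1 := by
  unfold Q2
  show EqP p N (C ((p : ℚ) ^ ((2 : ℤ) - 0)) * serB2)
    (hQ p 0 1 * (cB ℚ 1 - cA ℚ 1) * up p (C (chi p) * serB2))
  rw [sub_zero, ppow2, dAB_1, hQ_1 h2, mul_one]
  exact step1 h2 (VB_Hh1 h2 0 (Or.inr rfl)) ((Sol_B2 h2 hN).vb_up (val_B2 h2 hN))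
    ((Sol_B2 h2 hN).red_F h2 (Or.inr rfl) (val_B2 h2 hN))

theorem q2'_w1 (h2 : p ≠ 2) (hN : N + 1 ≤ p ^ 2) : Q2' p N .w1 := by
  unfold Q2'
  show EqP p N (C ((p : ℚ) ^ ((2 : ℤ) - 0)) * T.tw serB2)
    (hQ p 1 1 * (cB ℚ 1 - cA ℚ 1) * up p (C (chi p) * serB2))
  rw [sub_zero, ppow2, dAB_1, hQ_1 h2, mul_one, ← tw_C_mul]
  exact step1 h2 (VB_Hh1 h2 1 (Or.inr rfl))
    ((Sol_B2 h2 (by omega)).vb_up (val_B2 h2 (by omega)))
    ((Sol_B2 h2 hN).red_T h2 (Or.inr rfl) (val_B2 h2 hN))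

/-! ### `c2` -/

theorem coeff_Hr (a n : ℕ) (hn : n < p) :
    coeff n (Hr p a) = ((p - 1 - n : ℕ) : ℚ) ^ a * hK (p - 1 - n) := by
  unfold Hr
  rw [map_sum, Finset.sum_eq_single (p - 1 - n)]
  · rw [coeff_C_mul, coeff_X_pow, if_pos (by omega), mul_one]; rfl
  · intro j hj hjne
    have hj' := Finset.mem_range.1 hj
    rw [coeff_C_mul, coeff_X_pow, if_neg (by omega), mul_zero]
  · intro h; exact absurd (Finset.mem_range.2 (by omega)) h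

theorem coeff_Hr' (a n : ℕ) (hn : p ≤ n) : coeff n (Hr p a) = 0 := by
  have hp1 := hp.1.pos
  unfold Hr
  rw [map_sum]
  refine Finset.sum_eq_zero fun j _ => ?_
  rw [coeff_C_mul, coeff_X_pow, if_neg (by omega), mul_zero]

theorem red_Hr0 (h2 : p ≠ 2) : EqP p N (Hr p 0) (Hc p 0 X) := by
  intro n _
  rw [map_sub, coeff_Hc_X]
  by_cases hn : n < p
  · rw [if_pos hn, coeff_Hr 0 n hn, pow_zero, pow_zero, one_mul, one_mul]
    exact hK_symm h2 hn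
  · rw [if_neg hn, coeff_Hr' 0 n (by omega), sub_zero]; exact Vg.zero _

theorem red_Hr1 (h2 : p ≠ 2) : EqP p N (Hr p 1) (-(Hc p 0 X + Hc p 1 X)) := by
  intro n _
  rw [map_sub, map_neg, map_add, coeff_Hc_X, coeff_Hc_X]
  by_cases hn : n < p
  · rw [if_pos hn, if_pos hn, coeff_Hr 1 n hn, pow_zero, pow_one, pow_one, one_mul]
    have hc : Cg p ((p - 1 - n : ℕ) : ℚ) (-(1 + (n : ℚ))) := by
      unfold Cg
      have e : (((p - 1 - n : ℕ) : ℚ)) = (p : ℚ) - 1 - n := by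
        have hp1 := hp.1.pos
        rw [Nat.cast_sub (by omega), Nat.cast_sub (by omega)]; simp
      rw [e]
      have : (p : ℚ) - 1 - n - -(1 + (n : ℚ)) = p := by ring
      rw [this]; exact Vg_p
    have := Cg.mul (Vg.nat _) (VhK h2 n) hc (hK_symm h2 hn)
    have e2 : -(1 + (n : ℚ)) * hK n = -(hK n + n * hK n) := by ring
    rw [e2] at this
    exact this
  · rw [if_neg hn, if_neg hn, coeff_Hr' 1 n (by omega)]; simp; exact Vg.zero _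

theorem q2_v8 (h2 : p ≠ 2) : Q2 p N .v8 := by
  have vu : VB p N 0 (up p serK) := (Sol_K h2 N).vb_up (val_K h2)
  unfold Q2
  show EqP p N (C ((p : ℚ) ^ ((2 : ℤ) - 2)) * (-((1 - X) * serK)))
    (hQ p 0 2 * (cB ℚ 2 - cA ℚ 2) * up p (-((1 - X) * serK)))
  rw [sub_self, zpow_zero, map_one, one_mul, dAB_2, hQ_2 h2, up_neg, mul_neg]
  refine EqP.neg ?_
  refine step0 h2 (VB_Hr h2 0) vu ?_
  exact (red_K h2 N).trans (EqP.mul (VB_Hc h2 VB.X 0) vu (red_Hr0 h2).symm EqP.rfl')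

theorem q2'_v8 (h2 : p ≠ 2) : Q2' p N .v8 := by
  have vu : VB p N 0 (up p serK) := (Sol_K h2 N).vb_up (val_K h2)
  unfold Q2'
  show EqP p N (C ((p : ℚ) ^ ((2 : ℤ) - 2)) * ((1 - X) * dd (X * serK)))
    (hQ p 1 2 * (cB ℚ 2 - cA ℚ 2) * up p (-((1 - X) * serK)))
  have e0 : dd (X * serK) = serK + th serK := by
    rw [dd_mul, dd_X, th_eq]; ring
  rw [sub_self, zpow_zero, map_one, one_mul, dAB_2, hQ_2 h2, up_neg, mul_neg, e0]
  have e1 : (1 - X) * (serK + th serK) = -((1 - X) * (-(serK + th serK))) := by ring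
  rw [e1]
  refine EqP.neg ?_
  refine step0 h2 (VB_Hr h2 1) vu ?_
  have h3 := ((red_K (p := p) h2 N).add (red_thK h2 N)).neg
  have h4 := EqP.mul (((VB_Hc (N := N) h2 VB.X 0).add (VB_Hc h2 VB.X 1)).neg) vu
    (red_Hr1 h2).symm (EqP.rfl' (f := up p serK))
  have e2 : -(Hc p 0 X * up p serK + Hc p 1 X * up p serK)
      = -(Hc p 0 X + Hc p 1 X) * up p serK := by ring
  rw [e2] at h3
  exact h3.trans h4

/-! ### `c3` -/

/-- at `c3`, with the factor `X` -/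
theorem step3 (h2 : p ≠ 2) {G g H : ℚ⟦X⟧} (hH : VB p N 0 H) {q : ℚ} (hq : Vg p 0 q)
    (hg : VB p N 0 (up p g)) (h : EqP p N G (C (chi p) * (H * up p g))) :
    EqP p N (C q * (X * G)) (C ((1 / 2) ^ (p - 1)) * H * X * up p (C q * (C (chi p) * g))) := by
  have h3 := EqP.mul_left ((VB.C hq).mul0 (VB.X (p := p) (N := N))) (step1 h2 hH hg h)
  have e : C q * (X * G) = C q * X * G := by ring
  have e2 : C ((1 / 2) ^ (p - 1)) * H * X * up p (C q * (C (chi p) * g))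
      = C q * X * (C ((1 / 2) ^ (p - 1)) * H * up p (C (chi p) * g)) := by
    rw [up_C_mul q]; ring
  rw [e, e2]
  exact h3

theorem q2_x2 (h2 : p ≠ 2) : Q2 p N .x2 := by
  unfold Q2
  show EqP p N (C ((p : ℚ) ^ ((2 : ℤ) - 2)) * (C (1 / 8) * (X * serK)))
    (hQ p 0 3 * (cB ℚ 3 - cA ℚ 3) * up p (C (1 / 8) * (C (chi p) * serK)))
  rw [sub_self, zpow_zero, map_one, one_mul, dAB_3, hQ_3 h2]
  exact step3 h2 (VB_Hh1 h2 0 (Or.inl rfl)) (Vg_eighth h2) ((Sol_K h2 N).vb_up (val_K h2))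
    ((Sol_K h2 N).red_F h2 (Or.inl rfl) (val_K h2))

theorem q2'_x2 (h2 : p ≠ 2) : Q2' p N .x2 := by
  unfold Q2'
  show EqP p N (C ((p : ℚ) ^ ((2 : ℤ) - 2)) * (C (1 / 8) * (X * T.tw serK)))
    (hQ p 1 3 * (cB ℚ 3 - cA ℚ 3) * up p (C (1 / 8) * (C (chi p) * serK)))
  rw [sub_self, zpow_zero, map_one, one_mul, dAB_3, hQ_3 h2]
  exact step3 h2 (VB_Hh1 h2 1 (Or.inl rfl)) (Vg_eighth h2) ((Sol_K h2 N).vb_up (val_K h2))
    ((Sol_K h2 (N + 1)).red_T h2 (Or.inl rfl) (val_K h2))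

theorem q2_xl (h2 : p ≠ 2) : Q2 p N .xl := by
  unfold Q2
  show EqP p N (C ((p : ℚ) ^ ((2 : ℤ) - 2)) * (-(X * serK)))
    (hQ p 0 3 * (cB ℚ 3 - cA ℚ 3) * up p (-(C (chi p) * serK)))
  have h := step3 (p := p) (N := N) h2 (VB_Hh1 h2 0 (Or.inl rfl)) (q := 1) Vg.one
    ((Sol_K h2 N).vb_up (val_K h2)) ((Sol_K h2 N).red_F h2 (Or.inl rfl) (val_K h2))
  rw [map_one, one_mul, one_mul] at h
  rw [sub_self, zpow_zero, map_one, one_mul, dAB_3, hQ_3 h2, up_neg, mul_neg]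
  exact EqP.neg h

theorem q2'_xl (h2 : p ≠ 2) : Q2' p N .xl := by
  unfold Q2'
  show EqP p N (C ((p : ℚ) ^ ((2 : ℤ) - 2)) * (-(X * T.tw serK)))
    (hQ p 1 3 * (cB ℚ 3 - cA ℚ 3) * up p (-(C (chi p) * serK)))
  have h := step3 (p := p) (N := N) h2 (VB_Hh1 h2 1 (Or.inl rfl)) (q := 1) Vg.one
    ((Sol_K h2 N).vb_up (val_K h2)) ((Sol_K h2 (N + 1)).red_T h2 (Or.inl rfl) (val_K h2))
  rw [map_one, one_mul, one_mul] at h
  rw [sub_self, zpow_zero, map_one, one_mul, dAB_3, hQ_3 h2, up_neg, mul_neg]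
  exact EqP.neg h

/-- `M` at `c1`, `c3` -/
theorem red_MF (h2 : p ≠ 2) (hN : N ≤ p ^ 2) {s : ℚ} (hs : s = 1 ∨ s = -1) :
    EqP p N (C (p : ℚ) * serM) (C (chi p) * (Hh1 p 0 s * up p serM)) := by
  have h1 := red_M (p := p) h2 hN
  have h3 := EqP.mul (VB_Hc h2 VB.X 0) (VB_upM h2 hN) (red_H' h2 hs) (EqP.rfl' (f := up p serM))
  have e : C (chi p) * Hh1 p 0 s * up p serM = C (chi p) * (Hh1 p 0 s * up p serM) := by ring
  rw [e] at h3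
  exact h1.trans h3

theorem red_MT (h2 : p ≠ 2) (hN : N + 1 ≤ p ^ 2) {s : ℚ} (hs : s = 1 ∨ s = -1) :
    EqP p N (C (p : ℚ) * T.tw serM) (C (chi p) * (Hh1 p 1 s * up p serM)) := by
  have h1 := (red_MF h2 hN hs).tw h2
  rw [tw_C_mul, tw_C_mul] at h1
  exact h1.trans (EqP.mul_left (VB.C Vchi) (red_tw hs h2 (VB_upM h2 hN)))

theorem q2_x1 (h2 : p ≠ 2) (hN : N ≤ p ^ 2) : Q2 p N .x1 := by
  unfold Q2
  show EqP p N (C ((p : ℚ) ^ ((2 : ℤ) - 1)) * (C (1 / 4) * (X * serM)))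
    (hQ p 0 3 * (cB ℚ 3 - cA ℚ 3) * up p (C (1 / 4) * (C (chi p) * serM)))
  have e : ((2 : ℤ) - 1) = 1 := by norm_num
  rw [e, zpow_one, dAB_3, hQ_3 h2]
  have e2 : C (p : ℚ) * (C (1 / 4) * (X * serM)) = C (1 / 4) * (X * (C (p : ℚ) * serM)) := by ring
  rw [e2]
  exact step3 h2 (VB_Hh1 h2 0 (Or.inl rfl)) (Vg_quarter h2) (VB_upM h2 hN)
    (red_MF h2 hN (Or.inl rfl))

theorem q2'_x1 (h2 : p ≠ 2) (hN : N + 1 ≤ p ^ 2) : Q2' p N .x1 := by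
  unfold Q2'
  show EqP p N (C ((p : ℚ) ^ ((2 : ℤ) - 1)) * (C (1 / 4) * (X * T.tw serM
      + C (1 / 2) * ((1 - X ^ 2) * serK))))
    (hQ p 1 3 * (cB ℚ 3 - cA ℚ 3) * up p (C (1 / 4) * (C (chi p) * serM)))
  have e : ((2 : ℤ) - 1) = 1 := by norm_num
  rw [e, zpow_one, dAB_3, hQ_3 h2]
  have h1 := step3 h2 (VB_Hh1 h2 1 (Or.inl rfl)) (Vg_quarter h2) (VB_upM h2 (by omega))
    (red_MT h2 hN (Or.inl rfl))
  have e2 : C (p : ℚ) * (C (1 / 4) * (X * T.tw serM + C (1 / 2) * ((1 - X ^ 2) * serK)))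
      = C (1 / 4) * (X * (C (p : ℚ) * T.tw serM))
        + C (p : ℚ) * (C (1 / 4) * (C (1 / 2) * ((1 - X ^ 2) * serK))) := by ring
  rw [e2]
  refine EqP.trans ?_ h1
  unfold EqP
  rw [add_sub_cancel_left]
  have h4 : VB p N 0 (C (1 / 4) * (C (1 / 2) * ((1 - X ^ 2) * serK)) : ℚ⟦X⟧) :=
    (VB.C (Vg_quarter h2)).mul0 ((VB.C (Vg_half h2)).mul0
      ((VB.one.sub (VB.X.pow 2)).mul0 (VBK h2 N)))
  simpa using (VB.C (N := N) (Vg_p (p := p))).mul h4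

theorem q2_all (h2 : p ≠ 2) (hN : N ≤ p ^ 2) (g : Gp) : Q2 p N g := by
  cases g with
  | z1 => exact q2_z1 h2 hN
  | zl => exact q2_zero rfl rfl
  | z8 => exact q2_z8 h2
  | zab => exact q2_zero rfl rfl
  | w1 => exact q2_w1 h2 hN
  | wl => exact q2_zero rfl rfl
  | wy => exact q2_wy h2
  | w8 => exact q2_w8 h2
  | wab => exact q2_zero rfl rfl
  | wf7 => exact q2_zero rfl rfl
  | v2 => exact q2_zero rfl rfl
  | vl => exact q2_zero rfl rfl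
  | v8 => exact q2_v8 h2
  | vb => exact q2_zero rfl rfl
  | x2 => exact q2_x2 h2
  | xl => exact q2_xl h2
  | x1 => exact q2_x1 h2 hN

theorem q2'_all (h2 : p ≠ 2) (hN : N + 1 ≤ p ^ 2) (g : Gp) : Q2' p N g := by
  have hN' : N ≤ p ^ 2 := by omega
  cases g with
  | z1 => exact q2'_z1 h2 hN'
  | zl => exact q2'_zero rfl rfl
  | z8 => exact q2'_z8 h2
  | zab => exact q2'_zero rfl rfl
  | w1 => exact q2'_w1 h2 hN
  | wl => exact q2'_zero rfl rfl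
  | wy => exact q2'_wy h2
  | w8 => exact q2'_w8 h2
  | wab => exact q2'_zero rfl rfl
  | wf7 => exact q2'_zero rfl rfl
  | v2 => exact q2'_zero rfl rfl
  | vl => exact q2'_zero rfl rfl
  | v8 => exact q2'_v8 h2
  | vb => exact q2'_zero rfl rfl
  | x2 => exact q2'_x2 h2
  | xl => exact q2'_xl h2
  | x1 => exact q2'_x1 h2 hN

end Vale.Agent.P030.H678
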