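import Vale.Agent.P030.H678.RedTab

/-!
# P030, odd primes: congruences modulo `p`, part 7 (the Wronskian rows of the table)
-/

open PowerSeries

set_option linter.unusedSectionVars false

namespace Vale.Agent.P030.H678

open Vale.Agent.P030.T Vale.Agent.P030.H792

variable {p : ℕ} [hp : Fact p.Prime] {N : ℕ}

/-- the sign of a group -/
def sg (p : ℕ) : Gp → ℚ
  | .z8 => 1
  | .v8 => 1
  | _ => chi p

theorem Vsg (g : Gp) : Vg p 0 (sg p g) := by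
  cases g <;> first | exact Vg.one | exact Vchi

/-- `τ` -/
noncomputable def ta (p : ℕ) (g : Gp) : ℚ⟦X⟧ := C (sg p g) * tup0 g 7

/-- the statement at one group -/
def Q3 (p N : ℕ) (g : Gp) : Prop :=
  EqP p N (C ((p : ℚ) ^ (1 - wg g)) * (hQ p 0 g.cusp * tup0 g 7 - hQ p 1 g.cusp * tup0 g 6))
    ((cA ℚ g.cusp + cB ℚ g.cusp) ^ (p - 1) * up p (ta p g))

theorem sAB_0 : cA ℚ 0 + cB ℚ 0 = geo * (1 + X) := by
  show X * gR ℚ + gR ℚ = _
  rw [gR_eq]; ring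

theorem sAB_1 : cA ℚ 1 + cB ℚ 1 = -X := by
  show C (-1 / 2 : ℚ) * (1 + X) + C (1 / 2 : ℚ) * (1 - X) = -X
  have e : (C (-1 / 2 : ℚ) : ℚ⟦X⟧) = -C (1 / 2) := by rw [← map_neg]; congr 1; norm_num
  have e2 : (C (1 / 2) : ℚ⟦X⟧) * 2 = 1 := by
    rw [two_eq, ← map_mul]; norm_num
  rw [e]; linear_combination (-X) * e2

theorem sAB_2 : cA ℚ 2 + cB ℚ 2 = -(geo * (1 + X)) := by
  show -gR ℚ + -(X * gR ℚ) = _
  rw [gR_eq]; ring

theorem sAB_3 : cA ℚ 3 + cB ℚ 3 = -1 := by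
  show C (-1 / 2 : ℚ) * (1 + X) + C (-1 / 2 : ℚ) * (1 - X) = -1
  have e : (C (-1 / 2 : ℚ) : ℚ⟦X⟧) = -C (1 / 2) := by rw [← map_neg]; congr 1; norm_num
  have e2 : (C (1 / 2) : ℚ⟦X⟧) * 2 = 1 := by
    rw [two_eq, ← map_mul]; norm_num
  rw [e]; linear_combination (-1 : ℚ⟦X⟧) * e2

theorem q3_zero {g : Gp} (h6 : tup0 g 6 = 0) (h7 : tup0 g 7 = 0) : Q3 p N g := by
  unfold Q3 ta
  rw [h6, h7, mul_zero, mul_zero, sub_zero, mul_zero, mul_zero, up_zero, mul_zero]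
  exact EqP.rfl'

theorem geoa_mul : geoa * (1 + X) = (1 : ℚ⟦X⟧) := by
  ext n
  rw [mul_add, mul_one, map_add]
  cases n with
  | zero => simp [T.geoa]
  | succ n => rw [coeff_succ_mul_X]; simp [T.geoa, coeff_one, pow_succ]

/-- from `(1 - X²) W ≡ up ((1 - X²) f)` to `(1 - X) W ≡ (1 + X)^(p-1) up ((1 - X) f)` -/
theorem step_pX {W f : ℚ⟦X⟧} (hf : VB p N 0 (up p ((1 - X) * f)))
    (h : EqP p N ((1 - X ^ 2) * W) (up p ((1 - X ^ 2) * f))) :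
    EqP p N ((1 - X) * W) ((1 + X) ^ (p - 1) * up p ((1 - X) * f)) := by
  have h1 := EqP.mul_left (VB.geoa (p := p) (N := N)) h
  have e1 : geoa * ((1 - X ^ 2) * W) = (1 - X) * W := by
    linear_combination (1 - X) * W * geoa_mul
  have e2 : ((1 - X ^ 2) * f : ℚ⟦X⟧) = (1 + X) * ((1 - X) * f) := by ring
  rw [e1, e2, up_mul (1 + X : ℚ⟦X⟧)] at h1
  have h3 : EqP p N (geoa * (up p (1 + X) * up p ((1 - X) * f)))
      (geoa * ((1 + X) ^ p * up p ((1 - X) * f))) := by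
    refine EqP.mul_left VB.geoa (EqP.mul ?_ hf frob_p.symm EqP.rfl')
    rw [up_add, up_one, up_X]
    exact VB.one.add (VB.X.pow p)
  have e3 : geoa * ((1 + X) ^ p * up p ((1 - X) * f))
      = (1 + X) ^ (p - 1) * up p ((1 - X) * f) := by
    have e4 : (1 + X : ℚ⟦X⟧) ^ p = (1 + X) ^ (p - 1) * (1 + X) := by
      rw [← pow_succ]; congr 1; have := hp.1.pos; omega
    rw [e4]
    linear_combination (1 + X) ^ (p - 1) * up p ((1 - X) * f) * geoa_mul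
  rw [e3] at h3
  exact h1.trans h3

theorem even_pow (h2 : p ≠ 2) (f : ℚ⟦X⟧) : (-f) ^ (p - 1) = f ^ (p - 1) := by
  have hodd := odd_of_ne_two h2
  exact Even.neg_pow (Nat.even_iff.2 (by omega)) f

theorem VB_th' {f : ℚ⟦X⟧} (h : VB p p 0 f) : VB p p 0 (th f) := h.th

theorem pinv : ((p : ℚ) ^ ((1 : ℤ) - 2)) = 1 / (p : ℚ) := by
  have : ((1 : ℤ) - 2) = -1 := by norm_num
  rw [this, zpow_neg_one]; ring

theorem q3_z8 (h2 : p ≠ 2) (hN : N ≤ p ^ 2) : Q3 p N .z8 := by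
  unfold Q3 ta
  show EqP p N (C ((p : ℚ) ^ ((1 : ℤ) - 2)) * (hQ p 0 0 * ((1 - X) * th serK)
      - hQ p 1 0 * ((1 - X) * serK)))
    ((cA ℚ 0 + cB ℚ 0) ^ (p - 1) * up p (C 1 * ((1 - X) * th serK)))
  rw [pinv, sAB_0, hQ_0, hQ_0, map_one, one_mul]
  have h := (Sol_K (p := p) h2 N).red_W0 h2 (val_K h2)
  have e1 : C (1 / (p : ℚ)) * ((1 - X ^ 2) * W0 p serK)
      = (1 - X ^ 2) * (C (1 / (p : ℚ)) * W0 p serK) := by ring
  rw [e1] at h
  have vf : VB p N 0 (up p ((1 - X) * th serK)) :=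
    VB_up_p hN (VB_one_sub_X.mul0 (VBK h2 p).th)
  have h3 := EqP.mul_left (VB.geo.pow (p - 1)) (step_pX vf h)
  have e2 : C (1 / (p : ℚ)) * (geo ^ (p - 1) * Hc p 0 X * ((1 - X) * th serK)
      - geo ^ (p - 1) * Hc p 1 X * ((1 - X) * serK))
      = geo ^ (p - 1) * ((1 - X) * (C (1 / (p : ℚ)) * W0 p serK)) := by
    unfold W0; ring
  have e3 : (geo * (1 + X)) ^ (p - 1) * up p ((1 - X) * th serK)
      = geo ^ (p - 1) * ((1 + X) ^ (p - 1) * up p ((1 - X) * th serK)) := by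
    rw [mul_pow]; ring
  rw [e2, e3]
  exact h3

theorem q3_z1 (h2 : p ≠ 2) (hN : N ≤ p ^ 2) : Q3 p N .z1 := by
  have hpq := p_ne (p := p)
  unfold Q3 ta
  show EqP p N (C ((p : ℚ) ^ ((1 : ℤ) - 0)) * (hQ p 0 0 * ((1 - X) * th serB)
      - hQ p 1 0 * ((1 - X) * serB)))
    ((cA ℚ 0 + cB ℚ 0) ^ (p - 1) * up p (C (chi p) * ((1 - X) * th serB)))
  rw [sub_zero, zpow_one, sAB_0, hQ_0, hQ_0]
  have h := (Sol_B (p := p) h2 hN).red_W0 h2 (val_B h2 hN)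
  have e1 : C (1 / (p : ℚ)) * ((1 - X ^ 2) * W0 p (C ((p : ℚ) ^ 2) * serB))
      = (1 - X ^ 2) * (C (1 / (p : ℚ)) * W0 p (C ((p : ℚ) ^ 2) * serB)) := by ring
  rw [e1] at h
  have vf : VB p N 0 (up p ((1 - X) * th (C (chi p) * serB))) :=
    VB_up_p hN (VB_one_sub_X.mul0 (VBp_chiB h2).th)
  have h3 := EqP.mul_left (VB.geo.pow (p - 1)) (step_pX vf h)
  have eC : (C (1 / (p : ℚ)) : ℚ⟦X⟧) * C ((p : ℚ) ^ 2) = C (p : ℚ) := by
    rw [← map_mul]; congr 1; field_simp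
  have e2 : C (p : ℚ) * (geo ^ (p - 1) * Hc p 0 X * ((1 - X) * th serB)
      - geo ^ (p - 1) * Hc p 1 X * ((1 - X) * serB))
      = geo ^ (p - 1) * ((1 - X) * (C (1 / (p : ℚ)) * W0 p (C ((p : ℚ) ^ 2) * serB))) := by
    unfold W0
    rw [th_C_mul]
    linear_combination (-(geo ^ (p - 1) * (1 - X) * (Hc p 0 X * th serB - Hc p 1 X * serB))) * eC
  have e3 : (geo * (1 + X)) ^ (p - 1) * up p (C (chi p) * ((1 - X) * th serB))
      = geo ^ (p - 1) * ((1 + X) ^ (p - 1) * up p ((1 - X) * th (C (chi p) * serB))) := by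
    have : C (chi p) * ((1 - X) * th serB) = (1 - X) * th (C (chi p) * serB) := by
      rw [th_C_mul]; ring
    rw [mul_pow, this]; ring
  rw [e2, e3]
  exact h3

theorem q3_v8 (h2 : p ≠ 2) (hN : N ≤ p ^ 2) : Q3 p N .v8 := by
  unfold Q3 ta
  show EqP p N (C ((p : ℚ) ^ ((1 : ℤ) - 2)) * (hQ p 0 2 * ((1 - X) * dd (X * serK))
      - hQ p 1 2 * (-((1 - X) * serK))))
    ((cA ℚ 2 + cB ℚ 2) ^ (p - 1) * up p (C 1 * ((1 - X) * dd (X * serK))))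
  have e0 : dd (X * serK) = serK + th serK := by
    rw [dd_mul, dd_X, th_eq]; ring
  rw [pinv, sAB_2, even_pow h2, hQ_2 h2, hQ_2 h2, map_one, one_mul, e0]
  have h := red_W2 (p := p) h2 hN
  have e1 : C (1 / (p : ℚ)) * ((1 - X ^ 2) * W2 p)
      = (1 - X ^ 2) * (C (1 / (p : ℚ)) * W2 p) := by ring
  rw [e1] at h
  have vf : VB p N 0 (up p ((1 - X) * (serK + th serK))) :=
    VB_up_p hN (VB_one_sub_X.mul0 ((VBK h2 p).add (VBK h2 p).th))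
  have h3 := EqP.mul_left (VB.geo.pow (p - 1)) (step_pX vf h)
  have e2 : C (1 / (p : ℚ)) * (geo ^ (p - 1) * Hr p 0 * ((1 - X) * (serK + th serK))
      - geo ^ (p - 1) * Hr p 1 * (-((1 - X) * serK)))
      = geo ^ (p - 1) * ((1 - X) * (C (1 / (p : ℚ)) * W2 p)) := by
    unfold W2; ring
  have e3 : (geo * (1 + X)) ^ (p - 1) * up p ((1 - X) * (serK + th serK))
      = geo ^ (p - 1) * ((1 + X) ^ (p - 1) * up p ((1 - X) * (serK + th serK))) := by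
    rw [mul_pow]; ring
  rw [e2, e3]
  exact h3

/-! ### `c1`, `c3` -/

theorem VB_up1mX : VB p N 0 (up p (1 - X)) := by
  rw [up_sub, up_one, up_X]
  exact VB.one.sub (VB.X.pow p)

theorem EqP.of_X_mul {f g : ℚ⟦X⟧} (h : EqP p (N + 1) (X * f) (X * g)) : EqP p N f g := by
  unfold EqP at *
  rw [← mul_sub] at h
  exact VB_of_X_mul h

/-- from the Wronskian to the row at `c1`, `c3` -/
theorem step_W (h2 : p ≠ 2) {W f : ℚ⟦X⟧} (hW : VB p (N + 1) 0 (X * geo * W))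
    (h : EqP p (N + 1) (X * geo * W) (up p (X * geo * f))) :
    EqP p (N + 1) (X * ((1 - X) ^ (p - 1) * W)) (up p (X * f)) := by
  have h3 : EqP p (N + 1) ((1 - X) ^ p * (X * geo * W)) (up p (1 - X) * up p (X * geo * f)) := by
    refine EqP.trans (EqP.mul (VB_one_sub_X.pow p) hW (frob_m h2) EqP.rfl') ?_
    exact EqP.mul_left VB_up1mX h
  have e1 : (1 - X) ^ p * (X * geo * W) = X * ((1 - X) ^ (p - 1) * W) := by
    have e4 : (1 - X : ℚ⟦X⟧) ^ p = (1 - X) ^ (p - 1) * (1 - X) := by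
      rw [← pow_succ]; congr 1; have := hp.1.pos; omega
    rw [e4]
    linear_combination (1 - X) ^ (p - 1) * X * W * geo_mul
  have e2 : up p (1 - X) * up p (X * geo * f) = up p (X * f) := by
    rw [← up_mul]; congr 1
    linear_combination X * f * geo_mul
  rwa [e1, e2] at h3

/-- the row at `c1` -/
theorem row_c1 (h2 : p ≠ 2) {W f : ℚ⟦X⟧} (hW : VB p (N + 1) 0 (X * geo * W))
    (h : EqP p (N + 1) (X * geo * W) (up p (X * geo * f))) :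
    EqP p N (C ((1 / 2) ^ (p - 1)) * ((1 - X) ^ (p - 1) * W)) ((-X) ^ (p - 1) * up p f) := by
  have h1 := step_W h2 hW h
  have e1 : up p (X * f) = X * (X ^ (p - 1) * up p f) := by
    have e4 : (X : ℚ⟦X⟧) ^ p = X ^ (p - 1) * X := by
      rw [← pow_succ]; congr 1; have := hp.1.pos; omega
    rw [up_mul, up_X, e4]; ring
  rw [e1] at h1
  have h3 := h1.of_X_mul
  rw [even_pow h2]
  refine EqP.trans ?_ h3
  have vW : VB p N 0 ((1 - X) ^ (p - 1) * W) := by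
    have h5 : VB p (N + 1) 0 (X * (geo * W)) := by rw [← mul_assoc]; exact hW
    exact (VB_one_sub_X.pow _).mul0 (VB_of_geo_mul (VB_of_X_mul h5))
  have h4 := EqP.mul (VB.C (Vg_half_pow h2)) vW (EqP.of_Cg (half_pow (p := p) h2))
    (EqP.rfl' (f := (1 - X) ^ (p - 1) * W))
  rwa [map_one, one_mul] at h4

/-- the row at `c3` -/
theorem row_c3 (h2 : p ≠ 2) {W f : ℚ⟦X⟧} (hW : VB p (N + 1) 0 (X * geo * W))
    (h : EqP p (N + 1) (X * geo * W) (up p (X * geo * f))) :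
    EqP p N (C ((1 / 2) ^ (p - 1)) * (X * ((1 - X) ^ (p - 1) * W))) (up p (X * f)) := by
  have h1 := (step_W h2 hW h).le (Nat.le_succ N)
  refine EqP.trans ?_ h1
  have vW : VB p N 0 (X * ((1 - X) ^ (p - 1) * W)) := by
    have h5 : VB p (N + 1) 0 (X * (geo * W)) := by rw [← mul_assoc]; exact hW
    exact VB.X.mul0 ((VB_one_sub_X.pow _).mul0 (VB_of_geo_mul (VB_of_X_mul h5)))
  have h4 := EqP.mul (VB.C (Vg_half_pow h2)) vW (EqP.of_Cg (half_pow (p := p) h2))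
    (EqP.rfl' (f := X * ((1 - X) ^ (p - 1) * W)))
  rwa [map_one, one_mul] at h4

theorem VB_X_mul {e : ℤ} {f : ℚ⟦X⟧} (h : VB p N e f) : VB p (N + 1) e (X * f) := by
  intro n hn
  cases n with
  | zero => rw [coeff_zero_X_mul]; exact Vg.zero _
  | succ n => rw [coeff_succ_X_mul]; exact h n (by omega)

theorem VB_XgeoW {W : ℚ⟦X⟧} (h : VB p N 0 W) : VB p (N + 1) 0 (X * geo * W) := by
  rw [mul_assoc]; exact VB_X_mul (VB.geo.mul0 h)

theorem VB_WK (h2 : p ≠ 2) (hN : N + 1 ≤ p ^ 2) {s : ℚ} (hs : s = 1 ∨ s = -1) :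
    VB p N 0 (C (1 / (p : ℚ)) * WW p s serK) := by
  have h := (VB.C (N := N) (Vg_inv_p (p := p))).mul (VB_WW_K h2 hs hN)
  rwa [neg_add_cancel] at h

theorem WW_C_mul (s q : ℚ) (G : ℚ⟦X⟧) : WW p s (C q * G) = C q * WW p s G := by
  unfold WW; rw [tw_C_mul]; ring

theorem VB_WB2 (h2 : p ≠ 2) (hN : N + 1 ≤ p ^ 2) {s : ℚ} (hs : s = 1 ∨ s = -1) :
    VB p N 0 (C (p : ℚ) * WW p s serB2) := by
  have h := (VB.C (N := N) (Vg_p (p := p))).mul (VB_WW_B2 h2 hs hN)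
  rwa [add_neg_cancel] at h

theorem q3_w8 (h2 : p ≠ 2) (hN : N + 1 ≤ p ^ 2) : Q3 p N .w8 := by
  unfold Q3 ta
  show EqP p N (C ((p : ℚ) ^ ((1 : ℤ) - 2)) * (hQ p 0 1 * T.tw serK - hQ p 1 1 * serK))
    ((cA ℚ 1 + cB ℚ 1) ^ (p - 1) * up p (C (chi p) * T.tw serK))
  rw [pinv, sAB_1, hQ_1 h2, hQ_1 h2]
  have h := red_WW_K (p := p) h2 hN (s := -1) (Or.inr rfl)
  have e0 : C (1 / (p : ℚ)) * (X * geo * WW p (-1) serK)
      = X * geo * (C (1 / (p : ℚ)) * WW p (-1) serK) := by ring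
  have e1 : C (chi p) * (X * geo * T.tw serK) = X * geo * (C (chi p) * T.tw serK) := by ring
  rw [e0, e1] at h
  have h3 := row_c1 h2 (VB_XgeoW (VB_WK h2 hN (Or.inr rfl))) h
  have e2 : C (1 / (p : ℚ)) * (C ((1 / 2) ^ (p - 1)) * Hh1 p 0 (-1) * T.tw serK
      - C ((1 / 2) ^ (p - 1)) * Hh1 p 1 (-1) * serK)
      = C ((1 / 2) ^ (p - 1)) * ((1 - X) ^ (p - 1) * (C (1 / (p : ℚ)) * WW p (-1) serK)) := by
    unfold WW Hh1; ring
  rw [e2]
  exact h3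

theorem q3_wy (h2 : p ≠ 2) (hN : N + 1 ≤ p ^ 2) : Q3 p N .wy := by
  have h := EqP.neg (q3_w8 (p := p) (N := N) h2 hN)
  unfold Q3 ta
  have e1 : -(C ((p : ℚ) ^ (1 - wg .w8)) * (hQ p 0 (Gp.cusp .w8) * tup0 .w8 7
      - hQ p 1 (Gp.cusp .w8) * tup0 .w8 6))
      = C ((p : ℚ) ^ (1 - wg .wy)) * (hQ p 0 (Gp.cusp .wy) * tup0 .wy 7
      - hQ p 1 (Gp.cusp .wy) * tup0 .wy 6) := by
    show -(C ((p : ℚ) ^ ((1 : ℤ) - 2)) * (hQ p 0 1 * T.tw serK - hQ p 1 1 * serK))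
      = C ((p : ℚ) ^ ((1 : ℤ) - 2)) * (hQ p 0 1 * (-T.tw serK) - hQ p 1 1 * (-serK))
    ring
  have e2 : -((cA ℚ (Gp.cusp .w8) + cB ℚ (Gp.cusp .w8)) ^ (p - 1) * up p (ta p .w8))
      = (cA ℚ (Gp.cusp .wy) + cB ℚ (Gp.cusp .wy)) ^ (p - 1) * up p (C (sg p .wy) * tup0 .wy 7) := by
    show -((cA ℚ 1 + cB ℚ 1) ^ (p - 1) * up p (C (chi p) * T.tw serK))
      = (cA ℚ 1 + cB ℚ 1) ^ (p - 1) * up p (C (chi p) * (-T.tw serK))
    rw [mul_neg, up_neg]; ring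
  rw [e1, e2] at h
  exact h

theorem q3_w1 (h2 : p ≠ 2) (hN : N + 1 ≤ p ^ 2) : Q3 p N .w1 := by
  have hpq := p_ne (p := p)
  unfold Q3 ta
  show EqP p N (C ((p : ℚ) ^ ((1 : ℤ) - 0)) * (hQ p 0 1 * T.tw serB2 - hQ p 1 1 * serB2))
    ((cA ℚ 1 + cB ℚ 1) ^ (p - 1) * up p (C (chi p) * T.tw serB2))
  rw [sub_zero, zpow_one, sAB_1, hQ_1 h2, hQ_1 h2]
  have h := red_WW_B2 (p := p) h2 hN (s := -1) (Or.inr rfl)
  have eC : (C (1 / (p : ℚ)) : ℚ⟦X⟧) * C ((p : ℚ) ^ 2) = C (p : ℚ) := by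
    rw [← map_mul]; congr 1; field_simp
  have e0 : C (1 / (p : ℚ)) * (X * geo * WW p (-1) (C ((p : ℚ) ^ 2) * serB2))
      = X * geo * (C (p : ℚ) * WW p (-1) serB2) := by
    rw [WW_C_mul]
    linear_combination (X * geo * WW p (-1) serB2) * eC
  have e1 : C (chi p) * (X * geo * T.tw serB2) = X * geo * (C (chi p) * T.tw serB2) := by ring
  rw [e0, e1] at h
  have h3 := row_c1 h2 (VB_XgeoW (VB_WB2 h2 hN (Or.inr rfl))) h
  have e2 : C (p : ℚ) * (C ((1 / 2) ^ (p - 1)) * Hh1 p 0 (-1) * T.tw serB2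
      - C ((1 / 2) ^ (p - 1)) * Hh1 p 1 (-1) * serB2)
      = C ((1 / 2) ^ (p - 1)) * ((1 - X) ^ (p - 1) * (C (p : ℚ) * WW p (-1) serB2)) := by
    unfold WW Hh1; ring
  rw [e2]
  exact h3

theorem row_c3K (h2 : p ≠ 2) (hN : N + 1 ≤ p ^ 2) {q : ℚ} (hq : Vg p 0 q) :
    EqP p N (C ((p : ℚ) ^ ((1 : ℤ) - 2)) * (hQ p 0 3 * (C q * (X * T.tw serK))
      - hQ p 1 3 * (C q * (X * serK))))
    ((cA ℚ 3 + cB ℚ 3) ^ (p - 1) * up p (C (chi p) * (C q * (X * T.tw serK)))) := by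
  rw [pinv, sAB_3, hQ_3 h2, hQ_3 h2, even_pow h2, one_pow, one_mul]
  have h := red_WW_K (p := p) h2 hN (s := 1) (Or.inl rfl)
  have e0 : C (1 / (p : ℚ)) * (X * geo * WW p 1 serK)
      = X * geo * (C (1 / (p : ℚ)) * WW p 1 serK) := by ring
  have e1 : C (chi p) * (X * geo * T.tw serK) = X * geo * (C (chi p) * T.tw serK) := by ring
  rw [e0, e1] at h
  have h3 := EqP.mul_left (VB.C hq) (row_c3 h2 (VB_XgeoW (VB_WK h2 hN (Or.inl rfl))) h)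
  have e2 : C (1 / (p : ℚ)) * (C ((1 / 2) ^ (p - 1)) * Hh1 p 0 1 * (C q * (X * T.tw serK))
      - C ((1 / 2) ^ (p - 1)) * Hh1 p 1 1 * (C q * (X * serK)))
      = C q * (C ((1 / 2) ^ (p - 1)) * (X * ((1 - X) ^ (p - 1) * (C (1 / (p : ℚ)) * WW p 1 serK))))
      := by
    unfold WW Hh1; ring
  have e3 : C q * up p (X * (C (chi p) * T.tw serK))
      = up p (C (chi p) * (C q * (X * T.tw serK))) := by
    rw [← up_C_mul]; congr 1; ring
  rw [e2, ← e3]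
  exact h3

theorem q3_x2 (h2 : p ≠ 2) (hN : N + 1 ≤ p ^ 2) : Q3 p N .x2 :=
  row_c3K h2 hN (Vg_eighth h2)

theorem q3_xl (h2 : p ≠ 2) (hN : N + 1 ≤ p ^ 2) : Q3 p N .xl := by
  have h := row_c3K (p := p) (N := N) h2 hN (q := -1) (Vg.one.neg)
  unfold Q3 ta
  show EqP p N (C ((p : ℚ) ^ ((1 : ℤ) - 2)) * (hQ p 0 3 * (-(X * T.tw serK))
      - hQ p 1 3 * (-(X * serK))))
    ((cA ℚ 3 + cB ℚ 3) ^ (p - 1) * up p (C (chi p) * (-(X * T.tw serK))))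
  have e : ∀ f : ℚ⟦X⟧, C (-1 : ℚ) * f = -f := by
    intro f; rw [map_neg, map_one]; ring
  rw [e, e] at h
  exact h

theorem q3_x1 (h2 : p ≠ 2) (hN : N + 1 ≤ p ^ 2) : Q3 p N .x1 := by
  unfold Q3 ta
  show EqP p N (C ((p : ℚ) ^ ((1 : ℤ) - 1)) * (hQ p 0 3 * (C (1 / 4) * (X * T.tw serM
      + C (1 / 2) * ((1 - X ^ 2) * serK))) - hQ p 1 3 * (C (1 / 4) * (X * serM))))
    ((cA ℚ 3 + cB ℚ 3) ^ (p - 1) * up p (C (chi p) * (C (1 / 4) * (X * T.tw serM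
      + C (1 / 2) * ((1 - X ^ 2) * serK)))))
  rw [sub_self, zpow_zero, map_one, one_mul, sAB_3, hQ_3 h2, hQ_3 h2, even_pow h2, one_pow,
    one_mul]
  have h := (red_YY (p := p) h2 hN (s := 1) (Or.inl rfl)).le (Nat.le_succ N)
  have vY : VB p N 0 (geo * YY p 1) := VB.geo.mul0 (VB_YY h2 (Or.inl rfl) hN)
  have h3 : EqP p N ((1 - X) ^ p * (geo * YY p 1)) (up p (1 - X) * up p (C (chi p) * psi)) := by
    refine EqP.trans (EqP.mul (VB_one_sub_X.pow p) vY (frob_m h2) EqP.rfl') ?_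
    exact EqP.mul_left VB_up1mX h
  have e1 : (1 - X) ^ p * (geo * YY p 1) = (1 - X) ^ (p - 1) * YY p 1 := by
    have e4 : (1 - X : ℚ⟦X⟧) ^ p = (1 - X) ^ (p - 1) * (1 - X) := by
      rw [← pow_succ]; congr 1; have := hp.1.pos; omega
    rw [e4]
    linear_combination (1 - X) ^ (p - 1) * YY p 1 * geo_mul
  have e2 : up p (1 - X) * up p (C (chi p) * psi) = up p (C (chi p) * (X * T.tw serM
      + C (1 / 2) * ((1 - X ^ 2) * serK))) := by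
    rw [← up_mul]; congr 1
    unfold psi
    linear_combination C (chi p) * (X * T.tw serM) * geo_mul
  rw [e1, e2] at h3
  have v1 : VB p N 0 ((1 - X) ^ (p - 1) * YY p 1) :=
    (VB_one_sub_X.pow _).mul0 (VB_YY h2 (Or.inl rfl) hN)
  have h4 := EqP.mul (VB.C (Vg_half_pow h2)) v1 (EqP.of_Cg (half_pow (p := p) h2))
    (EqP.rfl' (f := (1 - X) ^ (p - 1) * YY p 1))
  rw [map_one, one_mul] at h4
  have h5 := EqP.mul_left (VB.C (Vg_quarter (p := p) h2)) (h4.trans h3)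
  have e3 : C ((1 / 2) ^ (p - 1)) * Hh1 p 0 1 * (C (1 / 4) * (X * T.tw serM
      + C (1 / 2) * ((1 - X ^ 2) * serK))) - C ((1 / 2) ^ (p - 1)) * Hh1 p 1 1
        * (C (1 / 4) * (X * serM))
      = C (1 / 4) * (C ((1 / 2) ^ (p - 1)) * ((1 - X) ^ (p - 1) * YY p 1)) := by
    unfold YY WW Hh1; ring
  have e5 : C (1 / 4 : ℚ) * up p (C (chi p) * (X * T.tw serM + C (1 / 2) * ((1 - X ^ 2) * serK)))
      = up p (C (chi p) * (C (1 / 4) * (X * T.tw serM + C (1 / 2) * ((1 - X ^ 2) * serK)))) := by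
    rw [← up_C_mul]; congr 1; ring
  rw [e3, ← e5]
  exact h5

theorem q3_all (h2 : p ≠ 2) (hN : N + 1 ≤ p ^ 2) (g : Gp) : Q3 p N g := by
  have hN' : N ≤ p ^ 2 := by omega
  cases g with
  | z1 => exact q3_z1 h2 hN'
  | zl => exact q3_zero rfl rfl
  | z8 => exact q3_z8 h2 hN'
  | zab => exact q3_zero rfl rfl
  | w1 => exact q3_w1 h2 hN
  | wl => exact q3_zero rfl rfl
  | wy => exact q3_wy h2 hN
  | w8 => exact q3_w8 h2 hN
  | wab => exact q3_zero rfl rfl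
  | wf7 => exact q3_zero rfl rfl
  | v2 => exact q3_zero rfl rfl
  | vl => exact q3_zero rfl rfl
  | v8 => exact q3_v8 h2 hN'
  | vb => exact q3_zero rfl rfl
  | x2 => exact q3_x2 h2 hN
  | xl => exact q3_xl h2 hN
  | x1 => exact q3_x1 h2 hN

end Vale.Agent.P030.H678
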