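import Vale.Agent.P030.H678.RedB

/-!
# P030, odd primes: congruences modulo `p`, part 5 (Wronskian rows at `c1`, `c3`, `c2`)
-/

open PowerSeries

set_option linter.unusedSectionVars false

namespace Vale.Agent.P030.H678

open Vale.Agent.P030.T Vale.Agent.P030.H792

variable {p : ℕ} [hp : Fact p.Prime] {N : ℕ}

theorem tw_sub (f g : ℚ⟦X⟧) : tw (f - g) = tw f - tw g := by
  unfold T.tw T.sc; rw [mul_sub, dd_sub]; ring

theorem tw_C_mul (q : ℚ) (f : ℚ⟦X⟧) : tw (C q * f) = C q * tw f := by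
  unfold T.tw T.sc
  have : (1 - X : ℚ⟦X⟧) * (C q * f) = C q * ((1 - X) * f) := by ring
  rw [this, dd_C_mul]; ring

theorem EqP.tw (h2 : p ≠ 2) {f g : ℚ⟦X⟧} (h : EqP p (N + 1) f g) :
    EqP p N (T.tw f) (T.tw g) := by
  unfold EqP at *; rw [← tw_sub]; exact VB.tw h2 h

theorem Sol.vg {G g : ℚ⟦X⟧} (h : Sol p N G)
    (hg : ∀ m, p * m < N → Cg p (coeff (p * m) G) (coeff m g)) {m : ℕ} (hm : p * m < N) :
    Vg p 0 (coeff m g) :=
  (hg m hm).symm.vg (h.int _ hm)

theorem Sol.vb_up {G g : ℚ⟦X⟧} (h : Sol p N G)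
    (hg : ∀ m, p * m < N → Cg p (coeff (p * m) G) (coeff m g)) : VB p N 0 (up p g) := by
  intro n hn
  by_cases hd : p ∣ n
  · obtain ⟨m, rfl⟩ := hd
    rw [coeff_up_mul]; exact h.vg hg hn
  · rw [coeff_up_of_not_dvd _ hd]; exact Vg.zero _

theorem VB_dd_up' {g : ℚ⟦X⟧} (hg : VB p (N + 1) 0 (up p g)) : VB p N 1 (T.dd (up p g)) := by
  intro n hn
  unfold T.dd
  rw [coeff_mk]
  by_cases h : p ∣ n + 1
  · have := Vg.dvd_nat h (hg (n + 1) (by omega))
    have e : (((n + 1 : ℕ) : ℚ)) = (n : ℚ) + 1 := by push_cast; ring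
    rw [e] at this
    simpa using this
  · rw [coeff_up_of_not_dvd g h, mul_zero]; exact Vg.zero _

theorem red_H' (h2 : p ≠ 2) {s : ℚ} (hs : s = 1 ∨ s = -1) :
    EqP p N (Hc p 0 X) (C (chi p) * Hh1 p 0 s) := by
  have h := EqP.mul_left (VB.C (Vchi (p := p))) (red_H (N := N) h2 hs)
  have e : C (chi p) * (C (chi p) * Hc p 0 X) = Hc p 0 X := by
    rw [← mul_assoc, ← map_mul, chi_sq, map_one, one_mul]
  rw [e] at h
  exact h.symm

theorem VB_Hh1 (h2 : p ≠ 2) (a : ℕ) {s : ℚ} (hs : s = 1 ∨ s = -1) : VB p N 0 (Hh1 p a s) :=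
  (VB_one_sub_X.pow _).mul0 (VB_Hc h2 (VB_ch hs) a)

/-- at `c1`, `c3`: the `F`-component -/
theorem Sol.red_F {G g : ℚ⟦X⟧} (h : Sol p N G) (h2 : p ≠ 2) {s : ℚ} (hs : s = 1 ∨ s = -1)
    (hg : ∀ m, p * m < N → Cg p (coeff (p * m) G) (coeff m g)) :
    EqP p N G (C (chi p) * (Hh1 p 0 s * up p g)) := by
  have h1 := h.eqP h2 hg
  have h3 := EqP.mul (VB_Hc h2 VB.X 0) (h.vb_up hg) (red_H' h2 hs) (EqP.rfl' (f := up p g))
  have e : C (chi p) * Hh1 p 0 s * up p g = C (chi p) * (Hh1 p 0 s * up p g) := by ring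
  rw [e] at h3
  exact h1.trans h3

theorem red_tw {s : ℚ} (hs : s = 1 ∨ s = -1) (h2 : p ≠ 2) {g : ℚ⟦X⟧}
    (hg : VB p (N + 1) 0 (up p g)) :
    EqP p N (T.tw (Hh1 p 0 s * up p g)) (Hh1 p 1 s * up p g) := by
  have hp1 := hp.1.one_lt
  have a0 := tau_dd_Hc (tau_ch s) p 0
  rw [zero_add] at a0
  have e1 : (1 - X : ℚ⟦X⟧) ^ p = (1 - X) ^ (p - 1) * (1 - X) := by
    rw [← pow_succ]; congr 1; omega
  have d1 : ∀ m : ℕ, dd ((1 - X : ℚ⟦X⟧) ^ m) * (1 - X) = -(C (m : ℚ) * (1 - X) ^ m) := by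
    intro m
    induction m with
    | zero => simp [dd_one]
    | succ m ih =>
      rw [pow_succ, dd_mul, dd_sub, dd_one, dd_X]
      push_cast
      rw [map_add, map_one]
      linear_combination (1 - X) * ih
  have d2 : dd ((1 - X : ℚ⟦X⟧) ^ p) = -(C (p : ℚ) * (1 - X) ^ (p - 1)) := by
    have h := d1 p
    apply mul_right_cancel₀ one_sub_X_ne
    rw [h, e1]; ring
  have e2 : T.tw (Hh1 p 0 s * up p g) - Hh1 p 1 s * up p g
      = C (1 / 2) * ((1 + X) * ((1 - X) ^ p * (Hc p 0 (ch s) * dd (up p g))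
        - C (p : ℚ) * (Hc p 0 (ch s) * up p g * (1 - X) ^ (p - 1)))) := by
    unfold T.tw T.sc Hh1
    have : (1 - X : ℚ⟦X⟧) * ((1 - X) ^ (p - 1) * Hc p 0 (ch s) * up p g)
        = (1 - X) ^ p * (Hc p 0 (ch s) * up p g) := by rw [e1]; ring
    rw [this, dd_mul ((1 - X : ℚ⟦X⟧) ^ p), d2, dd_mul (Hc p 0 (ch s)), ← a0]
    unfold tau
    rw [e1]
    ring
  unfold EqP
  rw [e2]
  refine (VB.C (Vg_half h2)).mul0 (VB.mul0 (VB.one.add VB.X) (VB.sub ?_ ?_))
  · refine VB.mul0 (VB_one_sub_X.pow _) (VB.mul0 (VB_Hc h2 (VB_ch hs) 0) (VB_dd_up' hg))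
  · have := (VB.C (N := N) (Vg_p (p := p))).mul (((VB_Hc h2 (VB_ch hs) 0).mul0
      (hg.le (Nat.le_succ N))).mul0 (VB_one_sub_X.pow (p - 1)))
    simpa using this

/-- at `c1`, `c3`: the `T`-component -/
theorem Sol.red_T {G g : ℚ⟦X⟧} (h : Sol p (N + 1) G) (h2 : p ≠ 2) {s : ℚ} (hs : s = 1 ∨ s = -1)
    (hg : ∀ m, p * m < N + 1 → Cg p (coeff (p * m) G) (coeff m g)) :
    EqP p N (T.tw G) (C (chi p) * (Hh1 p 1 s * up p g)) := by
  have h1 := (h.red_F h2 hs hg).tw h2
  rw [tw_C_mul] at h1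
  exact h1.trans (EqP.mul_left (VB.C Vchi) (red_tw hs h2 (h.vb_up hg)))

/-! ### the Wronskian -/

/-- the derivative at the lower level -/
theorem dd_Xgeotw (g : ℚ⟦X⟧) :
    dd (X * geo * T.tw g) = C (1 / 2) * (geo * EE g - (1 + X) * geo ^ 2 * g) := by
  have hg : (1 - X : ℚ⟦X⟧) * geo = 1 := by rw [mul_comm]; exact geo_mul
  have e1 : X * geo * T.tw g = C (1 / 2) * (X * (1 + X) * dd g - X * (1 + X) * geo * g) := by
    unfold T.tw T.sc
    rw [dd_mul (1 - X), dd_sub, dd_one, dd_X]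
    linear_combination C (1 / 2) * X * (1 + X) * dd g * hg
  rw [e1, dd_C_mul, EE_expand, dd_sub, dd_mul (X * (1 + X)), dd_mul (X * (1 + X) * geo),
    dd_mul (X * (1 + X)) geo, dd_mul X, dd_add, dd_one, dd_X, dd_geo]
  linear_combination (C (1 / 2) * (-(X * (1 + X) * dd (dd g)) - (1 + 2 * X) * dd g
    + (1 + X) * geo * g)) * hg

/-- coefficient extraction -/
theorem coeff_mul_up' {a a' b : ℚ⟦X⟧} (ha : ∀ j, coeff (p * (j + 1) - 1) a = coeff j a') (m : ℕ) :
    coeff (p * (m + 1) - 1) (a * up p b) = coeff m (a' * b) := by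
  have hp1 := hp.1.pos
  rw [coeff_mul, coeff_mul]
  have hinj : Function.Injective fun ij : ℕ × ℕ => (p * (ij.1 + 1) - 1, p * ij.2) := by
    intro a b hab
    have h1 := (Prod.ext_iff.1 hab).1
    have h2 := (Prod.ext_iff.1 hab).2
    simp only at h1 h2
    have h3 : p * (a.1 + 1) = p * (b.1 + 1) := by
      have : 0 < p * (a.1 + 1) := by positivity
      have : 0 < p * (b.1 + 1) := by positivity
      omega
    have h4 := Nat.eq_of_mul_eq_mul_left hp1 h3
    exact Prod.ext (by omega) (Nat.eq_of_mul_eq_mul_left hp1 h2)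
  rw [← Finset.sum_subset (s₁ := (Finset.HasAntidiagonal.antidiagonal m).map ⟨_, hinj⟩)]
  · rw [Finset.sum_map]
    refine Finset.sum_congr rfl fun ij _ => ?_
    simp only [Function.Embedding.coeFn_mk]
    rw [ha, coeff_up_mul]
  · intro ij hij
    obtain ⟨a, ha, rfl⟩ := Finset.mem_map.1 hij
    have ha' : a.1 + a.2 = m := by simpa using ha
    simp only [Function.Embedding.coeFn_mk]
    have h1 : p * (a.1 + 1) + p * a.2 = p * (m + 1) := by rw [← mul_add]; congr 1; omega
    have h2 : 0 < p * (a.1 + 1) := by positivity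
    have : p * (a.1 + 1) - 1 + p * a.2 = p * (m + 1) - 1 := by omega
    simpa using this
  · intro ij hij hij'
    have hs : ij.1 + ij.2 = p * (m + 1) - 1 := by simpa using hij
    by_cases h2 : p ∣ ij.2
    · exfalso
      apply hij'
      obtain ⟨b, hb⟩ := h2
      have hpos : 0 < p * (m + 1) := by positivity
      have hb' : b ≤ m := by
        by_contra hc
        have : p * (m + 1) ≤ p * b := Nat.mul_le_mul_left p (by omega)
        omega
      refine Finset.mem_map.2 ⟨(m - b, b), ?_, ?_⟩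
      · have : m - b + b = m := by omega
        simpa using this
      · simp only [Function.Embedding.coeFn_mk]
        refine Prod.ext ?_ hb.symm
        simp only
        have h3 : p * (m - b + 1) + p * b = p * (m + 1) := by
          rw [← mul_add]; congr 1; omega
        omega
    · rw [coeff_up_of_not_dvd b h2, mul_zero]

theorem geoHc_step (j : ℕ) : coeff (p * (j + 1) - 1) (geo * Hc p 0 X)
    = coeff j (C (∑ q ∈ Finset.range p, hK q) * geo) := by
  have hp1 := hp.1.pos
  rw [mul_comm geo, coeff_Hc_mul, coeff_C_mul]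
  have e : coeff j geo = 1 := by simp [T.geo]
  rw [e, mul_one]
  refine Finset.sum_congr rfl fun q hq => ?_
  have hq' := Finset.mem_range.1 hq
  have hex : p * (j + 1) = p * j + p := by ring
  rw [if_pos (by omega)]
  simp [T.geo]

/-- the factor of `G` in the derivative of the Wronskian -/
theorem red_fac (h2 : p ≠ 2) {s : ℚ} (hs : s = 1 ∨ s = -1) :
    EqP p N (geo2 * (1 - X) * ch s ^ (p + 1)) (geo * up p ((1 + X) * geo)) := by
  have hodd := odd_of_ne_two h2
  have hg2 : (1 - X ^ 2 : ℚ⟦X⟧) * geo2 = 1 := by rw [mul_comm]; exact geo2_mul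
  have e1 : geo2 * (1 - X) * ch s ^ (p + 1) = geo * ((1 + X) ^ p * geo ^ p) := by
    have hsp : (C s : ℚ⟦X⟧) ^ (p + 1) = 1 := by
      rw [← map_pow]
      have : s ^ (p + 1) = 1 := by
        rcases hs with rfl | rfl
        · exact one_pow _
        · exact Even.neg_one_pow (Nat.even_iff.2 (by omega))
      rw [this, map_one]
    unfold ch
    rw [mul_pow, hsp, mul_pow, pow_succ, pow_succ]
    linear_combination (1 + X) ^ p * geo ^ p * geo * hg2
  rw [e1, up_mul]
  exact EqP.mul_left VB.geo (EqP.mul ((VB.one.add VB.X).pow _) VB_upgeo frob_p (frob_geo h2))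

/-- the values at `p (m+1) - 1` of the second term -/
theorem red_term (h2 : p ≠ 2) {s : ℚ} (hs : s = 1 ∨ s = -1) {G g : ℚ⟦X⟧}
    (hG : VB p N 0 G) (hGg : EqP p N G (Hc p 0 X * up p g)) (hu : VB p N 0 (up p g)) {m : ℕ}
    (hm : p * (m + 1) ≤ N) :
    Cg p (hK (p - 1) * coeff (p * (m + 1) - 1) (G * (geo2 * (1 - X) * ch s ^ (p + 1))))
      (chi p * coeff m ((1 + X) * geo ^ 2 * g)) := by
  have hp1 := hp.1.pos
  have hpos : 0 < p * (m + 1) := by positivity
  have v1 : VB p N 0 (geo2 * (1 - X) * ch s ^ (p + 1)) :=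
    (VB.geo2.mul0 VB_one_sub_X).mul0 ((VB_ch hs).pow _)
  have vu : VB p N 0 (up p ((1 + X) * geo)) := by
    rw [up_mul]
    refine VB.mul0 ?_ VB_upgeo
    rw [up_add, up_one, up_X]
    exact VB.one.add (VB.X.pow p)
  have h1 : EqP p N (G * (geo2 * (1 - X) * ch s ^ (p + 1)))
      ((Hc p 0 X * up p g) * (geo * up p ((1 + X) * geo))) :=
    EqP.mul hG (VB.geo.mul0 vu) hGg (red_fac h2 hs)
  have e1 : (Hc p 0 X * up p g) * (geo * up p ((1 + X) * geo))
      = (geo * Hc p 0 X) * up p (g * ((1 + X) * geo)) := by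
    rw [up_mul g]; ring
  rw [e1] at h1
  have h3 := Cg_eq_coeff h1 (n := p * (m + 1) - 1) (by omega)
  rw [coeff_mul_up' (geoHc_step (p := p)) m] at h3
  have e2 : C (∑ q ∈ Finset.range p, hK q) * geo * (g * ((1 + X) * geo))
      = C (∑ q ∈ Finset.range p, hK q) * ((1 + X) * geo ^ 2 * g) := by ring
  rw [e2, coeff_C_mul] at h3
  -- integrality of `g`
  have vg : VB p (m + 1) 0 g := by
    intro i hi
    have h4 : p * i < p * (m + 1) := Nat.mul_lt_mul_of_pos_left hi hp1
    have := hu (p * i) (by omega)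
    rwa [coeff_up_mul] at this
  have vc : Vg p 0 (coeff m ((1 + X) * geo ^ 2 * g)) :=
    (((VB.one.add VB.X).mul0 (VB.geo.pow 2)).mul0 vg) m (by omega)
  have h5 := h3.trans (Cg.mul (Vg.sum fun q _ => VhK h2 q) vc (H_one h2) (Cg.rfl' (p := p)))
  have vchi : Vg p 0 (chi p * coeff m ((1 + X) * geo ^ 2 * g)) := (Vchi (p := p)).mul0 vc
  have := Cg.mul (VhK h2 (p - 1)) vchi (hK_last h2) h5
  rwa [one_mul] at this

/-- **the Wronskian at `c1`, `c3`** -/
theorem Sol.red_WW {G g : ℚ⟦X⟧} (h : Sol p (N + 1) G) (h2 : p ≠ 2) (hN : N + 1 ≤ p ^ 2)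
    {s : ℚ} (hs : s = 1 ∨ s = -1)
    (hg : ∀ m, p * m < N + 1 → Cg p (coeff (p * m) G) (coeff m g))
    (hE : ∀ m, p * (m + 1) < N + 1 → Cg p
      (1 / (p : ℚ) * (1 / (p : ℚ) * coeff (p * (m + 1) - 1) (geo * (Hc p 0 (ch s) * EE G))))
      (chi p * coeff m (geo * EE g))) :
    EqP p (N + 1) (C (1 / (p : ℚ)) * (X * geo * WW p s G))
      (up p (C (chi p) * (X * geo * T.tw g))) := by
  have hodd := odd_of_ne_two h2
  have hp1 := hp.1.pos
  have hpq := p_ne (p := p)
  have hdd := dd_WW hs hodd G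
  have vE : VB p N 2 (EE G) := VB_of_X_mul h.ee
  intro n hn
  rw [map_sub, coeff_C_mul]
  match n, hn with
  | 0, _ =>
    have e1 : coeff 0 (X * geo * WW p s G) = 0 := by rw [mul_assoc, coeff_zero_X_mul]
    have e2 : coeff 0 (up p (C (chi p) * (X * geo * T.tw g))) = 0 := by
      have := coeff_up_mul (p := p) (C (chi p) * (X * geo * T.tw g)) 0
      rw [mul_zero] at this
      rw [this, coeff_C_mul, mul_assoc, coeff_zero_X_mul, mul_zero]
    rw [e1, e2]; simp; exact Vg.zero _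
  | n + 1, hn =>
    have hc := congrArg (coeff n) hdd
    have hl : coeff n (dd (X * geo * WW p s G))
        = ((n + 1 : ℕ) : ℚ) * coeff (n + 1) (X * geo * WW p s G) := by
      unfold T.dd; rw [coeff_mk]; push_cast; ring
    rw [hl] at hc
    by_cases hd : p ∣ n + 1
    · obtain ⟨m, hm⟩ := hd
      have hm0 : m ≠ 0 := by rintro rfl; omega
      obtain ⟨m, rfl⟩ : ∃ m', m = m' + 1 := ⟨m - 1, by omega⟩
      have hn' : n = p * (m + 1) - 1 := by omega
      have hmp : m + 1 < p := by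
        have : p * (m + 1) < p * p := by rw [← sq]; omega
        exact lt_of_mul_lt_mul_left this (Nat.zero_le p)
      have hu : ¬ p ∣ m + 1 := fun h => absurd (Nat.le_of_dvd (by omega) h) (by omega)
      rw [hm, coeff_up_mul]
      apply Cg.of_mul_unit hu
      -- the value at the lower level
      have hlow : ((m + 1 : ℕ) : ℚ) * coeff (m + 1) (C (chi p) * (X * geo * T.tw g))
          = chi p * (1 / 2) * (coeff m (geo * EE g) - coeff m ((1 + X) * geo ^ 2 * g)) := by
        have h3 := congrArg (coeff m) (dd_Xgeotw g)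
        have h4 : coeff m (dd (X * geo * T.tw g))
            = ((m : ℚ) + 1) * coeff (m + 1) (X * geo * T.tw g) := by
          unfold T.dd; rw [coeff_mk]
        rw [h4, coeff_C_mul, map_sub] at h3
        rw [coeff_C_mul]
        push_cast
        linear_combination chi p * h3
      rw [hlow]
      -- the value at the upper level
      have e3 : C (1 / 2 : ℚ) * (geo * (Hc p 0 (ch s) * EE G) - geo2 * (1 - X) * (G * eps p s))
          = C (1 / 2) * (geo * (Hc p 0 (ch s) * EE G)) - C (1 / 2 * ((p : ℚ) ^ 2 * hK (p - 1)))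
            * (G * (geo2 * (1 - X) * ch s ^ (p + 1))) := by
        unfold eps hK
        rw [map_mul (C : ℚ →+* ℚ⟦X⟧) (1 / 2)]
        ring
      rw [e3, map_sub, coeff_C_mul, coeff_C_mul] at hc
      have t2 := red_term (p := p) (N := N + 1) h2 hs h.int (h.eqP h2 hg) (h.vb_up hg) (m := m)
        (by omega)
      have t1 := hE m (by omega)
      rw [← hn'] at t1 t2
      rw [hm] at hc
      have e4 : ((m + 1 : ℕ) : ℚ) * (1 / (p : ℚ) * coeff (p * (m + 1)) (X * geo * WW p s G))
          = 1 / 2 * (1 / (p : ℚ) * (1 / (p : ℚ) * coeff n (geo * (Hc p 0 (ch s) * EE G)))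
            - hK (p - 1) * coeff n (G * (geo2 * (1 - X) * ch s ^ (p + 1)))) := by
        push_cast at hc ⊢
        field_simp
        linear_combination (2 : ℚ) * hc
      rw [e4]
      have e5 : chi p * (1 / 2) * (coeff m (geo * EE g) - coeff m ((1 + X) * geo ^ 2 * g))
          = 1 / 2 * (chi p * coeff m (geo * EE g) - chi p * coeff m ((1 + X) * geo ^ 2 * g)) := by
        ring
      rw [e5]
      exact Cg.mul_left (Vg_half h2) (t1.sub t2)
    · rw [coeff_up_of_not_dvd _ hd, sub_zero]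
      have hv : Vg p 2 (((n + 1 : ℕ) : ℚ) * coeff (n + 1) (X * geo * WW p s G)) := by
        rw [hc]
        have : VB p N 2 (C (1 / 2) * (geo * (Hc p 0 (ch s) * EE G)
            - geo2 * (1 - X) * (G * eps p s)) : ℚ⟦X⟧) := by
          refine (VB.C (Vg_half h2)).mul0 (VB.sub ?_ ?_)
          · exact VB.geo.mul0 ((VB_Hc h2 (VB_ch hs) 0).mul0 vE)
          · refine VB.mul0 (VB.geo2.mul0 VB_one_sub_X) ?_
            exact (h.int.le (Nat.le_succ N)).mul0 (VB_eps h2 hs)
        exact this n (by omega)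
      have h4 := Vg.div_unit hd hv
      have hne : (((n + 1 : ℕ) : ℚ)) ≠ 0 := by positivity
      rw [mul_div_cancel_left₀ _ hne] at h4
      exact h4.div_p.mono (by omega)

theorem red_WW_K (h2 : p ≠ 2) (hN : N + 1 ≤ p ^ 2) {s : ℚ} (hs : s = 1 ∨ s = -1) :
    EqP p (N + 1) (C (1 / (p : ℚ)) * (X * geo * WW p s serK))
      (up p (C (chi p) * (X * geo * T.tw serK))) := by
  refine (Sol_K h2 (N + 1)).red_WW h2 hN hs (val_K h2) fun m _ => ?_
  rw [EE_K]; simp; exact Cg.rfl'

theorem red_GH (h2 : p ≠ 2) {s : ℚ} (hs : s = 1 ∨ s = -1) :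
    EqP p N (GH p s) (C (chi p) * (Hc p 0 X * up p geo)) := by
  have h := red_H (p := p) (N := N) h2 hs
  have hS := Sol_GH (p := p) (N := N) h2 hs
  have hp1 := hp.1.one_lt
  have e : Hh1 p 0 s = (1 - X) ^ p * GH p s := by
    unfold Hh1 GH
    have e1 : (1 - X : ℚ⟦X⟧) ^ p = (1 - X) ^ (p - 1) * (1 - X) := by
      rw [← pow_succ]; congr 1; omega
    rw [e1]
    linear_combination (-((1 - X) ^ (p - 1) * Hc p 0 (ch s))) * geo_mul
  have h3 : EqP p N ((1 - X) ^ p * GH p s) (up p (1 - X) * GH p s) :=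
    EqP.mul (VB_one_sub_X.pow p) hS.int (frob_m h2) EqP.rfl'
  rw [e] at h
  have h4 := EqP.mul_left (VB_upgeo (p := p)) (h3.symm.trans h)
  have e2 : up p geo * (up p (1 - X) * GH p s) = GH p s := by
    linear_combination GH p s * up_geo (p := p)
  have e3 : up p geo * (C (chi p) * Hc p 0 X) = C (chi p) * (Hc p 0 X * up p geo) := by ring
  rwa [e2, e3] at h4

theorem red_WW_B2 (h2 : p ≠ 2) (hN : N + 1 ≤ p ^ 2) {s : ℚ} (hs : s = 1 ∨ s = -1) :
    EqP p (N + 1) (C (1 / (p : ℚ)) * (X * geo * WW p s (C ((p : ℚ) ^ 2) * serB2)))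
      (up p (C (chi p) * (X * geo * T.tw serB2))) := by
  have hp1 := hp.1.pos
  have hpq := p_ne (p := p)
  refine (Sol_B2 h2 hN).red_WW h2 hN hs (val_B2 h2 hN) fun m hm => ?_
  have hpos : 0 < p * (m + 1) := by positivity
  rw [EE_C_mul, EE_B2]
  have e1 : geo * (Hc p 0 (ch s) * (C ((p : ℚ) ^ 2) * C (-1 / 4)))
      = C ((p : ℚ) ^ 2 * (-1 / 4)) * GH p s := by
    unfold GH; rw [map_mul]; ring
  rw [e1, coeff_C_mul]
  have e2 : 1 / (p : ℚ) * (1 / (p : ℚ) * ((p : ℚ) ^ 2 * (-1 / 4)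
      * coeff (p * (m + 1) - 1) (GH p s))) = -1 / 4 * coeff (p * (m + 1) - 1) (GH p s) := by
    field_simp
  have e3 : chi p * coeff m (geo * C (-1 / 4)) = -1 / 4 * chi p := by
    rw [mul_comm geo, coeff_C_mul]; simp [T.geo]; ring
  rw [e2, e3]
  refine Cg.mul_left (Vg_neg_quarter h2) ?_
  have h1 := Cg_eq_coeff (red_GH (p := p) (N := N + 1) h2 hs) (n := p * (m + 1) - 1) (by omega)
  have h3 := coeff_Hc_up (p := p) 0 geo m (p - 1) (by omega)
  have hex : p * (m + 1) = p * m + p := by ring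
  have e4 : p * m + (p - 1) = p * (m + 1) - 1 := by omega
  rw [e4] at h3
  rw [coeff_C_mul, h3] at h1
  have e5 : coeff m geo = 1 := by simp [T.geo]
  rw [e5, pow_zero, one_mul, mul_one] at h1
  refine h1.trans ?_
  have := Cg.mul_left (Vchi (p := p)) (hK_last (p := p) h2)
  rwa [mul_one] at this

/-! ### `M` at `c3` -/

theorem VB_up_of {f : ℚ⟦X⟧} (h : ∀ m, p * m < N → Vg p 0 (coeff m f)) : VB p N 0 (up p f) := by
  intro n hn
  by_cases hd : p ∣ n
  · obtain ⟨m, rfl⟩ := hd
    rw [coeff_up_mul]; exact h m hn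
  · rw [coeff_up_of_not_dvd _ hd]; exact Vg.zero _

theorem Vg_M (h2 : p ≠ 2) {m : ℕ} (hm : m < p) : Vg p 0 (coeff m serM) := by
  unfold T.serM
  rw [coeff_mk, cMs_eq]
  exact (VgK h2 m).mul0 (Vg_AM (by omega))

theorem VB_upM (h2 : p ≠ 2) (hN : N ≤ p ^ 2) : VB p N 0 (up p serM) :=
  VB_up_of fun m hm => Vg_M h2 (by
    have : p * m < p * p := by rw [← sq]; omega
    exact lt_of_mul_lt_mul_left this (Nat.zero_le p))

theorem VB_pM (h2 : p ≠ 2) (hN : N ≤ p ^ 2) : VB p N 0 (C (p : ℚ) * serM) := by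
  have := (VB.C (N := N) (Vg_p (p := p))).mul (VBM h2 hN)
  simpa using this

/-- the lower level of `geo * YY` -/
noncomputable def psi : ℚ⟦X⟧ := C (1 / 2) * ((1 + X) * serK) + X * geo * T.tw serM

theorem dd_psi : dd psi = -(geo * T.tw serK) - C (1 / 2) * ((1 + X) * geo ^ 2 * serM) := by
  have hg : (1 - X : ℚ⟦X⟧) * geo = 1 := by rw [mul_comm]; exact geo_mul
  have e : (C (1 / 2) : ℚ⟦X⟧) * 2 = 1 := by
    rw [two_eq, ← map_mul]; norm_num
  unfold psi
  rw [dd_add, dd_C_mul, dd_Xgeotw, EE_M, dd_mul (1 + X), dd_add, dd_one, dd_X]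
  unfold T.tw T.sc
  rw [dd_mul (1 - X), dd_sub, dd_one, dd_X]
  linear_combination (C (1 / 2) * (-(2 * (1 + X) * dd serK) + (1 + X) * dd serK
    - serK)) * hg

/-- **`M` at `c3`** -/
theorem red_YY (h2 : p ≠ 2) (hN : N + 1 ≤ p ^ 2) {s : ℚ} (hs : s = 1 ∨ s = -1) :
    EqP p (N + 1) (geo * YY p s) (up p (C (chi p) * psi)) := by
  have hodd := odd_of_ne_two h2
  have hp1 := hp.1.pos
  have hpq := p_ne (p := p)
  have hdd := dd_YY (p := p) hs hodd
  have hW := red_WW_K (p := p) h2 hN hs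
  intro n hn
  rw [map_sub]
  match n, hn with
  | 0, _ =>
    have e1 : coeff 0 (geo * YY p s) = 1 / 2 * coeff 0 (GH p s) := by
      unfold YY GH
      simp only [coeff_zero_eq_constantCoeff_apply, map_mul, map_add, map_sub, map_one, map_pow,
        constantCoeff_C, constantCoeff_X]
      have hK0 : constantCoeff serK = 1 := by
        rw [← coeff_zero_eq_constantCoeff_apply]; exact hK_zero
      rw [hK0]; ring
    have e2 : coeff 0 (up p (C (chi p) * psi)) = 1 / 2 * chi p := by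
      have := coeff_up_mul (p := p) (C (chi p) * psi) 0
      rw [mul_zero] at this
      rw [this]
      unfold psi
      simp only [coeff_zero_eq_constantCoeff_apply, map_mul, map_add, map_one,
        constantCoeff_C, constantCoeff_X]
      have hK0 : constantCoeff serK = 1 := by
        rw [← coeff_zero_eq_constantCoeff_apply]; exact hK_zero
      rw [hK0]; ring
    rw [e1, e2]
    exact Cg.mul_left (Vg_half h2) (coeff_zero_GH h2 hs)
  | n + 1, hn =>
    have hc := congrArg (coeff n) hdd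
    have hl : coeff n (dd (geo * YY p s))
        = ((n + 1 : ℕ) : ℚ) * coeff (n + 1) (geo * YY p s) := by
      unfold T.dd; rw [coeff_mk]; push_cast; ring
    have hXW : coeff n (geo * WW p s serK) = coeff (n + 1) (X * geo * WW p s serK) := by
      rw [mul_assoc, coeff_succ_X_mul]
    have e3 : -(geo * WW p s serK) - C (1 / 2 : ℚ) * (geo2 * (1 - X) * (serM * eps p s))
          = -(geo * WW p s serK) - C (1 / 2 * ((p : ℚ) * hK (p - 1)))
            * ((C (p : ℚ) * serM) * (geo2 * (1 - X) * ch s ^ (p + 1))) := by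
      unfold eps hK
      rw [map_mul (C : ℚ →+* ℚ⟦X⟧) (1 / 2), map_mul (C : ℚ →+* ℚ⟦X⟧) (p : ℚ),
        map_mul (C : ℚ →+* ℚ⟦X⟧) ((p : ℚ) ^ 2), map_pow]
      ring
    rw [hl, e3, map_sub, map_neg, hXW, coeff_C_mul] at hc
    have hWn := hW (n + 1) hn
    rw [map_sub, coeff_C_mul] at hWn
    by_cases hd : p ∣ n + 1
    · obtain ⟨m, hm⟩ := hd
      have hm0 : m ≠ 0 := by rintro rfl; omega
      obtain ⟨m, rfl⟩ : ∃ m', m = m' + 1 := ⟨m - 1, by omega⟩
      have hn' : n = p * (m + 1) - 1 := by omega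
      have hmp : m + 1 < p := by
        have : p * (m + 1) < p * p := by rw [← sq]; omega
        exact lt_of_mul_lt_mul_left this (Nat.zero_le p)
      have hu : ¬ p ∣ m + 1 := fun h => absurd (Nat.le_of_dvd (by omega) h) (by omega)
      rw [hm, coeff_up_mul]
      apply Cg.of_mul_unit hu
      have hlow : ((m + 1 : ℕ) : ℚ) * coeff (m + 1) (C (chi p) * psi)
          = -(chi p * coeff m (geo * T.tw serK))
            - 1 / 2 * (chi p * coeff m ((1 + X) * geo ^ 2 * serM)) := by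
        have h3 := congrArg (coeff m) dd_psi
        have h4 : coeff m (dd psi) = ((m : ℚ) + 1) * coeff (m + 1) psi := by
          unfold T.dd; rw [coeff_mk]
        rw [h4, map_sub, map_neg, coeff_C_mul] at h3
        rw [coeff_C_mul]
        push_cast
        linear_combination chi p * h3
      rw [hlow]
      rw [hm, coeff_up_mul, coeff_C_mul, mul_assoc X geo (T.tw serK), coeff_succ_X_mul,
        mul_assoc X geo] at hWn
      have t2 := red_term (p := p) (N := N + 1) h2 hs (VB_pM h2 hN) (red_M h2 hN)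
        (VB_upM h2 hN) (m := m) (by omega)
      rw [← hn'] at t2
      rw [hm] at hc
      have e4 : ((m + 1 : ℕ) : ℚ) * coeff (p * (m + 1)) (geo * YY p s)
          = -(1 / (p : ℚ) * coeff (p * (m + 1)) (X * (geo * WW p s serK)))
            - 1 / 2 * (hK (p - 1)
              * coeff n (C (p : ℚ) * serM * (geo2 * (1 - X) * ch s ^ (p + 1)))) := by
        rw [mul_assoc X geo] at hc
        push_cast at hc ⊢
        field_simp
        linear_combination (2 : ℚ) * hc
      rw [e4]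
      refine Cg.sub (Cg.neg ?_) (Cg.mul_left (Vg_half h2) t2)
      exact hWn
    · rw [coeff_up_of_not_dvd _ hd, sub_zero]
      rw [coeff_up_of_not_dvd _ hd, sub_zero] at hWn
      have hv : Vg p 1 (((n + 1 : ℕ) : ℚ) * coeff (n + 1) (geo * YY p s)) := by
        rw [hc]
        refine Vg.sub ?_ ?_
        · have h5 := Vg1_p_mul (hWn.mono (show (0 : ℤ) ≤ 1 by omega))
          have e5 : (p : ℚ) * (1 / (p : ℚ) * coeff (n + 1) (X * geo * WW p s serK))
              = coeff (n + 1) (X * geo * WW p s serK) := by field_simp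
          rw [e5] at h5
          exact h5.neg
        · have v1 : VB p N 0 (C (p : ℚ) * serM * (geo2 * (1 - X) * ch s ^ (p + 1))) :=
            (VB_pM h2 (by omega)).mul0 ((VB.geo2.mul0 VB_one_sub_X).mul0 ((VB_ch hs).pow _))
          have v2 : Vg p 1 (1 / 2 * ((p : ℚ) * hK (p - 1))) :=
            (Vg_half h2).mul0 (Vg1_p_mul (VhK h2 _))
          simpa using v2.mul (v1 n (by omega))
      have h4 := Vg.div_unit hd hv
      have hne : (((n + 1 : ℕ) : ℚ)) ≠ 0 := by positivity
      rwa [mul_div_cancel_left₀ _ hne] at h4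

/-! ### cusp `c2` -/

theorem th_low2 : th ((1 - X ^ 2) * (serK + th serK)) - (1 - X ^ 2) * (serK + th serK)
    = -serK := by
  have hK := X_EE serK
  rw [EE_K, mul_zero] at hK
  have e1 : th (1 - X ^ 2 : ℚ⟦X⟧) = -(2 * X ^ 2) := by
    rw [th_eq, dd_sub, dd_one, dd_sq, dd_X]; ring
  rw [th_mul, e1, th_add]
  linear_combination -hK

/-- **the Wronskian at `c2`** -/
theorem red_W2 (h2 : p ≠ 2) (hN : N ≤ p ^ 2) :
    EqP p N (C (1 / (p : ℚ)) * ((1 - X ^ 2) * W2 p))
      (up p ((1 - X ^ 2) * (serK + th serK))) := by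
  have hodd := odd_of_ne_two h2
  have hp1 := hp.1.pos
  have hpq := p_ne (p := p)
  have h := th_W2 (p := p) hodd
  set Z := (1 - X ^ 2) * W2 p with hZ
  have hKn : ∀ n : ℕ, ((n : ℚ) - p) * coeff n Z = -((p : ℚ) ^ 2 * hK (p - 1) * hK n) := by
    intro n
    have hc := congrArg (coeff n) h
    rw [map_sub, coeff_C_mul, coeff_C_mul] at hc
    have hth : coeff n (th Z) = (n : ℚ) * coeff n Z := by simp [T.th]
    rw [hth] at hc
    unfold hK
    linear_combination hc
  have hdiv : ∀ {z : ℤ} {x : ℚ} {e : ℤ}, ¬ (p : ℤ) ∣ z → Vg p e ((z : ℚ) * x) → Vg p e x := by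
    intro z x e hz hx
    have h3 : ¬ p ∣ z.natAbs := fun h => hz (Int.natCast_dvd.2 h)
    have hne : ((z.natAbs : ℕ) : ℚ) ≠ 0 := by
      have : z.natAbs ≠ 0 := fun h0 => h3 (h0 ▸ dvd_zero p)
      exact_mod_cast this
    have h4 : Vg p e (((z.natAbs : ℕ) : ℚ) * x) := by
      rcases Int.natAbs_eq z with h | h
      · have : ((z.natAbs : ℕ) : ℚ) = (z : ℚ) := by
          rw [← Int.cast_natCast, ← h]
        rw [this]; exact hx
      · have : ((z.natAbs : ℕ) : ℚ) = -(z : ℚ) := by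
          have h' : ((z.natAbs : ℕ) : ℤ) = -z := by omega
          rw [← Int.cast_natCast, h', Int.cast_neg]
        rw [this, neg_mul]; exact hx.neg
    have h5 := Vg.div_unit h3 h4
    rwa [mul_div_cancel_left₀ _ hne] at h5
  intro n hn
  rw [map_sub, coeff_C_mul]
  by_cases hd : p ∣ n
  · obtain ⟨m, rfl⟩ := hd
    rw [coeff_up_mul]
    have hlow := congrArg (coeff m) th_low2
    set ω := (1 - X ^ 2) * (serK + th serK) with hω
    have hthω : coeff m (th ω) = (m : ℚ) * coeff m ω := by simp [T.th]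
    rw [map_sub, map_neg, hthω] at hlow
    have hup := hKn (p * m)
    by_cases hm1 : m = 1
    · subst hm1
      have e1 : coeff (p * 1) Z = 0 := by
        rw [mul_one, hZ, sub_mul, one_mul, map_sub, coeff_W2_odd hodd hodd, mul_comm,
          coeff_mul_X_pow']
        split_ifs with h3
        · rw [coeff_W2_odd hodd (by omega), sub_zero]
        · rw [sub_zero]
      have e2 : coeff 1 ω = 0 := by
        rw [hω, sub_mul, one_mul, map_sub, mul_comm, coeff_mul_X_pow', if_neg (by omega),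
          sub_zero, map_add]
        have : coeff 1 serK = 0 := coeff_serK_odd (by norm_num)
        simp [T.th, this]
      rw [e1, e2, mul_zero, sub_zero]; exact Vg.zero _
    · by_cases hmp : (p : ℤ) ∣ ((m : ℤ) - 1)
      · exfalso
        have hmlt : m < p := by
          have : p * m < p * p := by rw [← sq]; omega
          exact lt_of_mul_lt_mul_left this (Nat.zero_le p)
        obtain ⟨c, hc⟩ := hmp
        rcases Nat.eq_zero_or_pos m with h0 | h0
        · subst h0
          have hp2 := hp.1.two_le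
          have : (p : ℤ) ∣ 1 := ⟨-c, by push_cast at hc; linarith⟩
          have := Int.le_of_dvd one_pos this
          omega
        · have hdv : (p : ℤ) ∣ ((m : ℤ) - 1) := ⟨c, hc⟩
          have := Int.le_of_dvd (by omega) hdv
          omega
      · apply hdiv hmp
        have e3 : (((m : ℤ) - 1 : ℤ) : ℚ) * (1 / (p : ℚ) * coeff (p * m) Z - coeff m ω)
            = -(hK (p - 1) * hK (p * m) - hK m) := by
          unfold hK at hup ⊢
          push_cast at hup ⊢
          have e4 : ((m : ℚ) - 1) * (1 / (p : ℚ) * coeff (p * m) Z)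
              = -(coeff (p - 1) serK * coeff (p * m) serK) := by
            field_simp
            apply mul_left_cancel₀ hpq
            linear_combination hup
          linear_combination e4 - hlow
        rw [e3]
        have h5 := Cg.mul (VhK h2 (p - 1)) (VhK h2 m) (hK_last h2)
          (val_K (p := p) (N := p * m + 1) h2 m (by omega))
        rw [one_mul] at h5
        exact Vg.neg h5
  · rw [coeff_up_of_not_dvd _ hd, sub_zero]
    have hz : ¬ (p : ℤ) ∣ ((n : ℤ) - p) := by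
      intro h
      have h3 : (p : ℤ) ∣ (n : ℤ) := by
        have := dvd_add h (dvd_refl (p : ℤ))
        rwa [sub_add_cancel] at this
      exact hd (by exact_mod_cast h3)
    have h3 : Vg p 2 (coeff n Z) := by
      apply hdiv hz
      push_cast
      rw [hKn n]
      have := ((Vg_p2 (p := p)).mul (VhK h2 (p - 1))).mul (VhK h2 n)
      exact (this.mono (by omega)).neg
    exact h3.div_p.mono (by omega)

end Vale.Agent.P030.H678
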