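import Vale.Agent.P030.H678.Val

/-!
# P030, odd primes: valuations of `K`, `B`, `B2`, `M` (indices below `p²`)
-/

open PowerSeries

set_option linter.unusedSectionVars false

namespace Vale.Agent.P030.H678

open Vale.Agent.P030.T

variable {p : ℕ} [hp : Fact p.Prime]

theorem not_dvd_two (h2 : p ≠ 2) : ¬ p ∣ 2 := fun h =>
  h2 ((Nat.prime_dvd_prime_iff_eq hp.1 Nat.prime_two).1 h)

theorem not_dvd_four (h2 : p ≠ 2) : ¬ p ∣ 4 := fun h => by
  have : p ∣ 2 ^ 2 := by simpa using h
  exact not_dvd_two h2 (hp.1.dvd_of_dvd_pow this)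

theorem VgK (h2 : p ≠ 2) (n : ℕ) : Vg p 0 (coeff n serK) := by
  unfold T.serK; rw [coeff_mk]
  split_ifs with h
  · have h1 : Vg p 0 (((Nat.centralBinom (n / 2) : ℚ)) ^ 2) := by
      have := Vg.nat (p := p) ((Nat.centralBinom (n / 2)) ^ 2)
      simpa using this
    have h3 : ¬ p ∣ 4 ^ n := fun h => not_dvd_four h2 (hp.1.dvd_of_dvd_pow h)
    have := Vg.div_unit h3 h1
    simpa using this
  · exact Vg.zero 0

theorem VBK (h2 : p ≠ 2) (N : ℕ) : VB p N 0 serK := fun m _ => VgK h2 m

/-- the recursion of the coefficients of `K` -/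
theorem serK_rec (n : ℕ) :
    ((n : ℚ) + 2) ^ 2 * coeff (n + 2) serK = ((n : ℚ) + 1) ^ 2 * coeff n serK := by
  unfold T.serK; simp only [coeff_mk]
  rcases Nat.even_or_odd n with h | h
  · have h' : Even (n + 2) := by
      rw [Nat.even_add]; simp [h]
    rw [if_pos h', if_pos h]
    obtain ⟨k, rfl⟩ := h
    have e1 : (k + k + 2) / 2 = k + 1 := by omega
    have e2 : (k + k) / 2 = k := by omega
    rw [e1, e2]
    have h3 := Nat.succ_mul_centralBinom_succ k
    have h4 : ((k : ℚ) + 1) * (Nat.centralBinom (k + 1) : ℚ)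
        = 2 * (2 * k + 1) * (Nat.centralBinom k : ℚ) := by exact_mod_cast h3
    have h5 : (4 : ℚ) ^ (k + k + 2) = 4 ^ (k + k) * 16 := by rw [pow_add]; norm_num
    rw [h5]
    have h6 : (4 : ℚ) ^ (k + k) ≠ 0 := by positivity
    field_simp
    push_cast
    have h7 : ((k : ℚ) + k + 2) ^ 2 * (Nat.centralBinom (k + 1) : ℚ) ^ 2
        = 4 * (((k : ℚ) + 1) * (Nat.centralBinom (k + 1) : ℚ)) ^ 2 := by ring
    have h8 : ((k : ℚ) + k + 2) ^ 2 * (Nat.centralBinom (k + 1) : ℚ) ^ 2
        = 16 * (((k : ℚ) + k + 1) ^ 2 * (Nat.centralBinom k : ℚ) ^ 2) := by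
      rw [h7, h4]; ring
    linarith [h8]
  · have h' : ¬ Even (n + 2) := by
      rw [Nat.even_add]; simp [Nat.not_even_iff_odd.2 h]
    rw [if_neg h', if_neg (Nat.not_even_iff_odd.2 h)]
    ring

/-- dividing by `n²`, `n < p²`, when nothing is known: two powers are lost -/
theorem Vg.div_sq {e : ℤ} {x : ℚ} {n : ℕ} (h0 : 0 < n) (h : n < p ^ 2) (hx : Vg p e x) :
    Vg p (e - 2) (x / (n : ℚ) ^ 2) := by
  have h1 := Vg.div_nat h0 h hx
  have h2 := Vg.div_nat h0 h h1
  have h3 : x / (n : ℚ) / n = x / (n : ℚ) ^ 2 := by rw [div_div, sq]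
  rw [h3] at h2
  exact h2.mono (by omega)

theorem Vg.div_sq_unit {e : ℤ} {x : ℚ} {n : ℕ} (h : ¬ p ∣ n) (hx : Vg p e x) :
    Vg p e (x / (n : ℚ) ^ 2) := by
  have h1 := Vg.div_unit h hx
  have h2 := Vg.div_unit h h1
  have h3 : x / (n : ℚ) / n = x / (n : ℚ) ^ 2 := by rw [div_div, sq]
  rwa [h3] at h2

/-- the general statement behind `B`, `B2`: `n² b_n = (n-1)² b_{n-2} + r_n`, `r` integral -/
theorem rec_val (h2 : p ≠ 2) (b r : ℕ → ℚ) (hr : ∀ n, Vg p 0 (r n)) (h0 : b 0 = r 0) (h1 : b 1 = r 1)
    (hrec : ∀ n, b (n + 2) = (((n : ℚ) + 1) ^ 2 * b n + r (n + 2)) / ((n : ℚ) + 2) ^ 2) :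
    ∀ n, n < p ^ 2 → Vg p (-2) (b n) ∧ ((n < p ∨ n % p % 2 = 1) → Vg p 0 (b n)) := by
  have hp2 : 2 ≤ p := hp.1.two_le
  intro n
  induction n using Nat.strong_induction_on with
  | _ n ih =>
    intro hn
    match n, ih, hn with
    | 0, _, _ =>
      rw [h0]; exact ⟨(hr 0).mono (by omega), fun _ => hr 0⟩
    | 1, _, _ =>
      rw [h1]; exact ⟨(hr 1).mono (by omega), fun _ => hr 1⟩
    | n + 2, ih, hn =>
      have ihn := ih n (by omega) (by omega)
      -- the numerator is integral whenever `b n` is or `p ∣ n + 1`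
      have hnum : ∀ e : ℤ, e ≤ 0 → Vg p e (b n) →
          Vg p e (((n : ℚ) + 1) ^ 2 * b n + r (n + 2)) := by
        intro e he hb
        refine Vg.add ?_ ((hr _).mono he)
        have := Vg.nat_mul ((n + 1) ^ 2) hb
        simpa using this
      have hnumd : p ∣ n + 1 → Vg p 0 (((n : ℚ) + 1) ^ 2 * b n + r (n + 2)) := by
        intro hd
        refine Vg.add ?_ (hr _)
        have t1 := Vg.dvd_nat hd ihn.1
        have t2 := Vg.dvd_nat hd t1
        have t3 : ((n + 1 : ℕ) : ℚ) * (((n + 1 : ℕ) : ℚ) * b n) = ((n : ℚ) + 1) ^ 2 * b n := by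
          push_cast; ring
        rw [t3] at t2
        exact t2.mono (by omega)
      have e2 : ((n : ℚ) + 2) ^ 2 = ((n + 2 : ℕ) : ℚ) ^ 2 := by push_cast; ring
      rw [hrec n, e2]
      by_cases hd : p ∣ n + 2
      · -- then `b n` is integral
        have hbn : Vg p 0 (b n) := by
          apply ihn.2
          obtain ⟨q, hq⟩ := hd
          rcases Nat.lt_or_ge n p with hlt | hge
          · exact Or.inl hlt
          · right
            have hq1 : 1 ≤ q := by
              rcases Nat.eq_zero_or_pos q with h | h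
              · subst h; omega
              · exact h
            obtain ⟨q', rfl⟩ : ∃ q', q = q' + 1 := ⟨q - 1, by omega⟩
            have e3 : n = p * q' + (p - 2) := by
              have : p * (q' + 1) = p * q' + p := by ring
              omega
            have e4 : n % p = p - 2 := by
              rw [e3, Nat.mul_add_mod, Nat.mod_eq_of_lt (show p - 2 < p by omega)]
            rw [e4]
            rcases hp.1.eq_two_or_odd with h | h
            · exact absurd h h2
            · omega
        refine ⟨?_, ?_⟩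
        · exact (Vg.div_sq (by omega) hn (hnum 0 le_rfl hbn)).mono (by omega)
        · intro hc
          exfalso
          rcases hc with hc | hc
          · exact absurd (Nat.le_of_dvd (by omega) hd) (by omega)
          · rw [Nat.mod_eq_zero_of_dvd hd] at hc
            omega
      · refine ⟨Vg.div_sq_unit hd (hnum (-2) (by omega) ihn.1), ?_⟩
        intro hc
        apply Vg.div_sq_unit hd
        by_cases hd1 : p ∣ n + 1
        · exact hnumd hd1
        · refine hnum 0 le_rfl (ihn.2 ?_)
          rcases hc with hc | hc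
          · left; omega
          · right
            -- n % p = (n+2) % p - 2
            have hpos : 2 ≤ (n + 2) % p := by
              by_contra hlt
              have hlt' : (n + 2) % p < 2 := by omega
              have h01 : (n + 2) % p = 0 ∨ (n + 2) % p = 1 := by omega
              rcases h01 with h | h
              · exact hd (Nat.dvd_of_mod_eq_zero h)
              · apply hd1
                have h3 := Nat.div_add_mod (n + 2) p
                rw [h] at h3
                exact ⟨(n + 2) / p, by omega⟩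
            have h3 := Nat.div_add_mod (n + 2) p
            have h4 := Nat.mod_lt (n + 2) (show 0 < p by omega)
            have h5 : n = p * ((n + 2) / p) + ((n + 2) % p - 2) := by omega
            have h6 : n % p = (n + 2) % p - 2 := by
              conv_lhs => rw [h5]
              rw [Nat.mul_add_mod, Nat.mod_eq_of_lt (show (n + 2) % p - 2 < p by omega)]
            rw [h6]
            omega

theorem VBB (h2 : p ≠ 2) {N : ℕ} (hN : N ≤ p ^ 2) : VB p N (-2) serB := fun m hm => by
  unfold T.serB; rw [coeff_mk]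
  have h4 : Vg p 0 (-1 / 4 : ℚ) := by
    have := Vg.div_unit (p := p) (n := 4) (x := -1) (e := 0) (not_dvd_four h2) (Vg.one.neg)
    simpa using this
  refine (rec_val (p := p) h2 cB (fun n => if n = 0 then 0 else -1 / 4) ?_ ?_ ?_ ?_ m
    (by omega)).1
  · intro n
    split_ifs
    · exact Vg.zero 0
    · exact h4
  · simp [cB]
  · simp [cB]
  · intro n
    rw [cB]
    simp only [Nat.add_eq_zero_iff, OfNat.ofNat_ne_zero, and_false, if_false]
    congr 1
    ring

theorem VBB2 (h2 : p ≠ 2) {N : ℕ} (hN : N ≤ p ^ 2) : VB p N (-2) serB2 := fun m hm => by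
  unfold T.serB2; rw [coeff_mk]
  have h4 : Vg p 0 (-1 / 4 : ℚ) := by
    have := Vg.div_unit (p := p) (n := 4) (x := -1) (e := 0) (not_dvd_four h2) (Vg.one.neg)
    simpa using this
  refine (rec_val (p := p) h2 cB2 (fun n => if n = 1 then -1 / 4 else 0) ?_ ?_ ?_ ?_ m
    (by omega)).1
  · intro n
    split_ifs
    · exact h4
    · exact Vg.zero 0
  · simp [cB2]
  · simp [cB2]
  · intro n
    rw [cB2]
    simp

theorem VBM (h2 : p ≠ 2) {N : ℕ} (hN : N ≤ p ^ 2) : VB p N (-1) serM := fun m hm => by
  unfold T.serM; rw [coeff_mk]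
  have h1 : Vg p (-1) (cMs m) := by
    unfold T.cMs
    refine Vg.sum fun j hj => ?_
    have hj' : j < m / 2 := Finset.mem_range.1 hj
    have hh2 : Vg p 0 (2 : ℚ) := by simpa using Vg.nat (p := p) 2
    have a1 := Vg.div_nat (p := p) (n := 2 * j + 1) (by omega) (by omega) hh2
    have a2 := Vg.div_nat (p := p) (n := 2 * j + 2) (by omega) (by omega) hh2
    have := a1.sub a2
    push_cast at this
    simpa using this
  simpa using (VgK h2 m).mul h1

end Vale.Agent.P030.H678
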