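import Vale.Agent.P030.T.Defs

/-!
# P030, odd primes: valuations of the coefficients of power series

`Vg p e x` : `v_p x ≥ e`.  `VB p N e f` : `v_p (coeff m f) ≥ e` for all `m < N`.
-/

open PowerSeries

set_option linter.unusedSectionVars false

namespace Vale.Agent.P030.H678

open Vale.Agent.P030.T

variable {p : ℕ} [hp : Fact p.Prime]

/-- `v_p x ≥ e` -/
def Vg (p : ℕ) (e : ℤ) (x : ℚ) : Prop := padicNorm p x ≤ (p : ℚ) ^ (-e)

theorem p_pos' : (0 : ℚ) < p := by exact_mod_cast hp.1.pos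
theorem one_le_p : (1 : ℚ) ≤ p := by exact_mod_cast hp.1.one_lt.le

theorem Vg.zero (e : ℤ) : Vg p e 0 := by
  unfold Vg; rw [padicNorm.zero]; exact (zpow_pos p_pos' _).le

theorem Vg.add {e : ℤ} {x y : ℚ} (hx : Vg p e x) (hy : Vg p e y) : Vg p e (x + y) :=
  le_trans padicNorm.nonarchimedean (max_le hx hy)

theorem Vg.neg {e : ℤ} {x : ℚ} (hx : Vg p e x) : Vg p e (-x) := by
  unfold Vg at *; rwa [padicNorm.neg]

theorem Vg.sub {e : ℤ} {x y : ℚ} (hx : Vg p e x) (hy : Vg p e y) : Vg p e (x - y) := by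
  rw [sub_eq_add_neg]; exact hx.add hy.neg

theorem Vg.mul {e f : ℤ} {x y : ℚ} (hx : Vg p e x) (hy : Vg p f y) : Vg p (e + f) (x * y) := by
  unfold Vg at *
  rw [padicNorm.mul, neg_add, zpow_add₀ p_pos'.ne']
  exact mul_le_mul hx hy (padicNorm.nonneg _) (zpow_pos p_pos' _).le

theorem Vg.mono {e f : ℤ} {x : ℚ} (h : f ≤ e) (hx : Vg p e x) : Vg p f x :=
  le_trans hx (zpow_le_zpow_right₀ one_le_p (by omega))

theorem Vg.sum {ι : Type*} {s : Finset ι} {e : ℤ} {F : ι → ℚ} (h : ∀ i ∈ s, Vg p e (F i)) :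
    Vg p e (∑ i ∈ s, F i) := by
  classical
  induction s using Finset.induction_on with
  | empty => simpa using Vg.zero e
  | insert a s ha ih =>
    rw [Finset.sum_insert ha]
    exact (h a (Finset.mem_insert_self _ _)).add
      (ih fun i hi => h i (Finset.mem_insert_of_mem hi))

theorem Vg.int (z : ℤ) : Vg p 0 (z : ℚ) := by
  unfold Vg; simpa using padicNorm.of_int z

theorem Vg.nat (z : ℕ) : Vg p 0 (z : ℚ) := by
  simpa using Vg.int (p := p) (z : ℤ)

theorem Vg.one : Vg p 0 (1 : ℚ) := by simpa using Vg.nat (p := p) 1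

theorem Vg.nat_mul {e : ℤ} {x : ℚ} (z : ℕ) (hx : Vg p e x) : Vg p e ((z : ℚ) * x) := by
  simpa using (Vg.nat z).mul hx

theorem Vg.int_mul {e : ℤ} {x : ℚ} (z : ℤ) (hx : Vg p e x) : Vg p e ((z : ℚ) * x) := by
  simpa using (Vg.int z).mul hx

theorem padicNorm_nat_eq_one {n : ℕ} (h : ¬ p ∣ n) : padicNorm p (n : ℚ) = 1 :=
  (padicNorm.nat_eq_one_iff n).2 h

/-- dividing by a number prime to `p` -/
theorem Vg.div_unit {e : ℤ} {x : ℚ} {n : ℕ} (h : ¬ p ∣ n) (hx : Vg p e x) :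
    Vg p e (x / n) := by
  unfold Vg at *
  rw [padicNorm.div, padicNorm_nat_eq_one h, div_one]; exact hx

theorem padicNorm_nat_ge {n : ℕ} (h0 : 0 < n) (h : n < p ^ 2) :
    (p : ℚ) ^ (-1 : ℤ) ≤ padicNorm p (n : ℚ) := by
  by_contra hc
  push Not at hc
  have hn : (n : ℚ) ≠ 0 := by exact_mod_cast h0.ne'
  rw [padicNorm.eq_zpow_of_nonzero hn] at hc
  have h1 : -padicValRat p (n : ℚ) < -1 := by
    by_contra hcc
    push Not at hcc
    exact absurd hc (not_lt.2 (zpow_le_zpow_right₀ one_le_p hcc))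
  have h2 : (2 : ℤ) ≤ padicValRat p (n : ℚ) := by omega
  rw [padicValRat.of_nat] at h2
  have h3 : 2 ≤ padicValNat p n := by exact_mod_cast h2
  have h4 : p ^ 2 ∣ n := by
    rw [padicValNat_dvd_iff_le h0.ne']; exact h3
  exact absurd (Nat.le_of_dvd h0 h4) (by omega)

/-- dividing by a number `< p²` costs one power -/
theorem Vg.div_nat {e : ℤ} {x : ℚ} {n : ℕ} (h0 : 0 < n) (h : n < p ^ 2) (hx : Vg p e x) :
    Vg p (e - 1) (x / n) := by
  unfold Vg at *
  rw [padicNorm.div]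
  have h1 := padicNorm_nat_ge (p := p) h0 h
  have h2 : 0 < padicNorm p (n : ℚ) := lt_of_lt_of_le (zpow_pos p_pos' _) h1
  rw [div_le_iff₀ h2]
  calc padicNorm p x ≤ (p : ℚ) ^ (-e) := hx
    _ = (p : ℚ) ^ (-(e - 1)) * (p : ℚ) ^ (-1 : ℤ) := by
        rw [← zpow_add₀ p_pos'.ne']; congr 1; ring
    _ ≤ _ := mul_le_mul_of_nonneg_left h1 (zpow_pos p_pos' _).le

/-- multiplying by a multiple of `p` -/
theorem Vg.dvd_nat {e : ℤ} {x : ℚ} {n : ℕ} (h : p ∣ n) (hx : Vg p e x) :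
    Vg p (e + 1) ((n : ℚ) * x) := by
  obtain ⟨m, rfl⟩ := h
  have : Vg p 1 (p : ℚ) := by
    unfold Vg
    rw [padicNorm.padicNorm_p hp.1.one_lt]
    simp
  have h2 := ((this.mul (Vg.nat m)).mul hx)
  have h3 : (((p * m : ℕ) : ℚ) * x) = (p : ℚ) * (m : ℚ) * x := by push_cast; ring
  rw [h3]
  exact h2.mono (by omega)

/-! ### power series -/

/-- `v_p (coeff m f) ≥ e` for all `m < N` -/
def VB (p : ℕ) (N : ℕ) (e : ℤ) (f : ℚ⟦X⟧) : Prop := ∀ m < N, Vg p e (coeff m f)

variable {N : ℕ} {e e' : ℤ} {f g : ℚ⟦X⟧}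

theorem VB.mono (h : e' ≤ e) (hf : VB p N e f) : VB p N e' f := fun m hm => (hf m hm).mono h

theorem VB.le {N' : ℕ} (h : N' ≤ N) (hf : VB p N e f) : VB p N' e f :=
  fun m hm => hf m (by omega)

theorem VB.zero : VB p N e 0 := fun m _ => by simpa using Vg.zero e

theorem VB.add (hf : VB p N e f) (hg : VB p N e g) : VB p N e (f + g) := fun m hm => by
  rw [map_add]; exact (hf m hm).add (hg m hm)

theorem VB.neg (hf : VB p N e f) : VB p N e (-f) := fun m hm => by
  rw [map_neg]; exact (hf m hm).neg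

theorem VB.sub (hf : VB p N e f) (hg : VB p N e g) : VB p N e (f - g) := fun m hm => by
  rw [map_sub]; exact (hf m hm).sub (hg m hm)

theorem VB.mul (hf : VB p N e f) (hg : VB p N e' g) : VB p N (e + e') (f * g) := fun m hm => by
  rw [coeff_mul]
  refine Vg.sum fun ij hij => ?_
  have : ij.1 + ij.2 = m := by simpa using hij
  exact (hf _ (by omega)).mul (hg _ (by omega))

theorem VB.mul0 (hf : VB p N 0 f) (hg : VB p N e g) : VB p N e (f * g) := by
  simpa using hf.mul hg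

theorem VB.C {q : ℚ} (h : Vg p e q) : VB p N e (C q) := fun m _ => by
  rw [coeff_C]; split_ifs
  · exact h
  · exact Vg.zero e

theorem VB.one : VB p N 0 (1 : ℚ⟦X⟧) := by
  simpa using (VB.C (p := p) (N := N) Vg.one)

theorem VB.X : VB p N 0 (X : ℚ⟦X⟧) := fun m _ => by
  rw [coeff_X]; split_ifs
  · exact Vg.one
  · exact Vg.zero 0

theorem VB.pow (hf : VB p N 0 f) (k : ℕ) : VB p N 0 (f ^ k) := by
  induction k with
  | zero => simpa using VB.one
  | succ k ih => rw [pow_succ]; exact ih.mul0 hf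

theorem VB.sc {q : ℚ} (hq : Vg p e q) (hf : VB p N e' f) : VB p N (e + e') (T.sc q f) :=
  (VB.C hq).mul hf

theorem VB.sc0 {q : ℚ} (hq : Vg p 0 q) (hf : VB p N e f) : VB p N e (T.sc q f) := by
  simpa using VB.sc hq hf

theorem VB.sum {ι : Type*} {s : Finset ι} {F : ι → ℚ⟦X⟧} (h : ∀ i ∈ s, VB p N e (F i)) :
    VB p N e (∑ i ∈ s, F i) := fun m hm => by
  rw [map_sum]; exact Vg.sum fun i hi => h i hi m hm

theorem VB.th (hf : VB p N e f) : VB p N e (T.th f) := fun m hm => by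
  unfold T.th; rw [coeff_mk]; exact Vg.nat_mul m (hf m hm)

theorem VB.dd (hf : VB p (N + 1) e f) : VB p N e (T.dd f) := fun m hm => by
  unfold T.dd; rw [coeff_mk]
  have := Vg.nat_mul (m + 1) (hf (m + 1) (by omega))
  simpa using this

theorem VB.tw (h2 : p ≠ 2) (hf : VB p (N + 1) e f) : VB p N e (T.tw f) := by
  unfold T.tw
  have h12 : Vg p 0 (1 / 2 : ℚ) := by
    have := Vg.div_unit (p := p) (n := 2) (x := 1) (e := 0) (by
      intro h
      exact h2 ((Nat.prime_dvd_prime_iff_eq hp.1 Nat.prime_two).1 h)) Vg.one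
    simpa using this
  refine VB.sc0 h12 (VB.mul0 (VB.one.add VB.X) (VB.dd ?_))
  exact VB.mul0 (VB.one.sub VB.X) hf

theorem VB.integ (hN : N ≤ p ^ 2) (hf : VB p N e f) : VB p N (e - 1) (T.integ f) := fun m hm => by
  unfold T.integ; rw [coeff_mk]
  split_ifs with h
  · exact Vg.zero _
  · exact Vg.div_nat (by omega) (by omega) (hf _ (by omega))

theorem VB.geo : VB p N 0 T.geo := fun m _ => by
  unfold T.geo; rw [coeff_mk]; exact Vg.one

theorem VB.geoa : VB p N 0 T.geoa := fun m _ => by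
  unfold T.geoa; rw [coeff_mk]
  have := Vg.int (p := p) ((-1) ^ m)
  simpa using this

theorem VB.geo2 : VB p N 0 T.geo2 := fun m _ => by
  unfold T.geo2; rw [coeff_mk]; split_ifs
  · exact Vg.one
  · exact Vg.zero 0

theorem VB.lgm (hN : N ≤ p ^ 2) : VB p N (-1) T.lgm := fun m hm => by
  unfold T.lgm; rw [coeff_mk]
  split_ifs with h
  · exact Vg.zero _
  · simpa using Vg.div_nat (p := p) (n := m) (by omega) (by omega) Vg.one

theorem VB.lgp (hN : N ≤ p ^ 2) : VB p N (-1) T.lgp := fun m hm => by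
  unfold T.lgp; rw [coeff_mk]
  split_ifs with h
  · exact Vg.zero _
  · have h1 := Vg.int (p := p) ((-1) ^ (m + 1))
    have := Vg.div_nat (p := p) (n := m) (by omega) (by omega) h1
    simpa using this

theorem VB.li2 (hN : N ≤ p ^ 2) : VB p N (-2) T.li2 := fun m hm => by
  unfold T.li2; rw [coeff_mk]
  split_ifs with h
  · exact Vg.zero _
  · have h1 := Vg.div_nat (p := p) (n := m) (by omega) (by omega) Vg.one
    have h2 := Vg.div_nat (p := p) (n := m) (by omega) (by omega) h1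
    have h3 : (1 : ℚ) / m / m = 1 / (m : ℚ) ^ 2 := by rw [div_div, sq]
    rw [h3] at h2
    simpa using h2

end Vale.Agent.P030.H678
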