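import Vale.Agent.P030.H678.Ode

/-!
# P030, odd primes: integrality of the rows `u^a (H e_T - θH e_F)` (Wronskian with the truncated `H`)
-/

open PowerSeries

set_option linter.unusedSectionVars false

namespace Vale.Agent.P030.H678

open Vale.Agent.P030.T

variable {p : ℕ} [hp : Fact p.Prime]

theorem VB_of_dd {N : ℕ} {e : ℤ} {Z : ℚ⟦X⟧} (hN : N + 1 ≤ p ^ 2) (h : VB p N e (dd Z))
    (h0 : Vg p (e - 1) (coeff 0 Z)) : VB p (N + 1) (e - 1) Z := by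
  intro m hm
  cases m with
  | zero => exact h0
  | succ m =>
    have h1 := h m (by omega)
    unfold T.dd at h1
    rw [coeff_mk] at h1
    have h2 := Vg.div_nat (p := p) (n := m + 1) (by omega) (by omega) h1
    have h3 : ((m : ℚ) + 1) * coeff (m + 1) Z / ((m + 1 : ℕ) : ℚ) = coeff (m + 1) Z := by
      push_cast
      have : ((m : ℚ) + 1) ≠ 0 := by positivity
      field_simp
    rwa [h3] at h2

theorem VB_of_th {N : ℕ} {e : ℤ} {Z : ℚ⟦X⟧} (hN : N ≤ p ^ 2) (h : VB p N e (th Z))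
    (h0 : Vg p (e - 1) (coeff 0 Z)) : VB p N (e - 1) Z := by
  intro m hm
  cases m with
  | zero => exact h0
  | succ m =>
    have h1 := h (m + 1) (by omega)
    unfold T.th at h1
    rw [coeff_mk] at h1
    have h2 := Vg.div_nat (p := p) (n := m + 1) (by omega) (by omega) h1
    have h3 : ((m + 1 : ℕ) : ℚ) * coeff (m + 1) Z / ((m + 1 : ℕ) : ℚ) = coeff (m + 1) Z := by
      have : ((m + 1 : ℕ) : ℚ) ≠ 0 := by positivity
      field_simp
    rwa [h3] at h2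

theorem VB_of_X_mul {N : ℕ} {e : ℤ} {Z : ℚ⟦X⟧} (h : VB p (N + 1) e (X * Z)) : VB p N e Z := by
  intro m hm
  have := h (m + 1) (by omega)
  rwa [coeff_succ_X_mul] at this

theorem VB_Hc (h2 : p ≠ 2) {N : ℕ} {u : ℚ⟦X⟧} (hu : VB p N 0 u) (a : ℕ) :
    VB p N 0 (Hc p a u) := by
  unfold Hc
  refine VB.sum fun j _ => ?_
  have h1 : Vg p 0 ((j : ℚ) ^ a * coeff j serK) := by
    have := Vg.nat_mul (j ^ a) (VgK (p := p) h2 j)
    simpa using this
  exact (VB.C h1).mul0 (hu.pow j)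

theorem Vg_half (h2 : p ≠ 2) : Vg p 0 (1 / 2 : ℚ) := by
  have := Vg.div_unit (p := p) (n := 2) (x := 1) (e := 0) (not_dvd_two h2) Vg.one
  simpa using this

theorem Vg_psq (h2 : p ≠ 2) : Vg p 2 ((p : ℚ) ^ 2 * coeff (p - 1) serK) := by
  have h1 := VgK (p := p) h2 (p - 1)
  have h3 := Vg.dvd_nat (p := p) (n := p) dvd_rfl h1
  have h4 := Vg.dvd_nat (p := p) (n := p) dvd_rfl h3
  have h5 : (p : ℚ) * ((p : ℚ) * coeff (p - 1) serK) = (p : ℚ) ^ 2 * coeff (p - 1) serK := by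
    ring
  rw [h5] at h4
  exact h4

/-! ### the charts at `u = -1` and `u = 1` -/

/-- the chart `u = ± (1+t)/(1-t)` -/
noncomputable def ch (s : ℚ) : ℚ⟦X⟧ := C s * ((1 + X) * geo)

theorem VB_ch {s : ℚ} (hs : s = 1 ∨ s = -1) {N : ℕ} : VB p N 0 (ch s) := by
  unfold ch
  refine VB.mul0 (VB.C ?_) (VB.mul0 (VB.one.add VB.X) VB.geo)
  rcases hs with rfl | rfl
  · exact Vg.one
  · exact Vg.one.neg

/-- `τ` at `c1` and `c3` -/
noncomputable def tau : ℚ⟦X⟧ := C (1 / 2) * (1 - X ^ 2)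

theorem tau_ch (s : ℚ) : tau * dd (ch s) = ch s := by
  unfold tau ch
  rw [dd_mul, dd_C, dd_mul, dd_add, dd_one, dd_X, dd_geo]
  have h := geo_mul
  have e : (C (1 / 2) : ℚ⟦X⟧) * 2 = 1 := by
    rw [two_eq, ← map_mul]; norm_num
  have h' : (1 - X : ℚ⟦X⟧) * geo = 1 := by rw [mul_comm]; exact h
  -- (1+X) geo² + geo = 2 geo²
  have h1 : (1 + X) * geo ^ 2 + geo * (0 + 1) = 2 * geo ^ 2 := by
    linear_combination (-geo) * h'
  rw [h1]
  linear_combination (C s * (1 - X ^ 2) * geo ^ 2) * e + (C s * (1 + X) * geo) * h'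

theorem ch_sq {s : ℚ} (hs : s = 1 ∨ s = -1) : (1 - X) ^ 2 * ch s ^ 2 = (1 + X) ^ 2 := by
  have h' : (1 - X : ℚ⟦X⟧) * geo = 1 := by rw [mul_comm]; exact geo_mul
  have e : (C s : ℚ⟦X⟧) ^ 2 = 1 := by
    rw [← map_pow]
    rcases hs with rfl | rfl <;> norm_num
  unfold ch
  have : (1 - X : ℚ⟦X⟧) ^ 2 * (C s * ((1 + X) * geo)) ^ 2
      = C s ^ 2 * (1 + X) ^ 2 * ((1 - X) * geo) ^ 2 := by ring
  rw [this, e, h']; ring

theorem one_sub_X_ne : (1 - X : ℚ⟦X⟧) ≠ 0 := by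
  intro h
  have := geo_mul
  rw [h, mul_zero] at this
  exact zero_ne_one this

/-- the `K`-operator in the chart -/
theorem ode_ch {s : ℚ} (hs : s = 1 ∨ s = -1) (G : ℚ⟦X⟧) :
    (1 - ch s ^ 2) * (tau * dd (tau * dd ((1 - X) * G)))
      - 2 * ch s ^ 2 * (tau * dd ((1 - X) * G)) - ch s ^ 2 * ((1 - X) * G)
      = -((1 + X) * EE G) := by
  apply mul_left_cancel₀ (pow_ne_zero 2 one_sub_X_ne)
  have hq := ch_sq hs
  have e : (C (1 / 2) : ℚ⟦X⟧) * 2 = 1 := by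
    rw [two_eq, ← map_mul]; norm_num
  rw [EE_expand]
  unfold tau
  have d1 : dd ((1 - X) * G) = (1 - X) * dd G - G := by
    rw [dd_mul, dd_sub, dd_one, dd_X]; ring
  rw [d1]
  have d2 : dd (C (1 / 2) * (1 - X ^ 2) * ((1 - X) * dd G - G))
      = C (1 / 2) * ((1 - X ^ 2) * ((1 - X) * dd (dd G) - 2 * dd G)
        - 2 * X * ((1 - X) * dd G - G)) := by
    rw [dd_mul (C (1 / 2) * (1 - X ^ 2)), dd_mul (C (1 / 2)), dd_C, dd_sub, dd_mul (1 - X),
      dd_sub, dd_sub, dd_one, dd_sq, dd_X]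
    ring
  rw [d2]
  set c := (C (1 / 2) : ℚ⟦X⟧) with hc
  set g1 := dd G
  set g2 := dd g1
  -- A = 4 * τ dd(τ dd f),  B = 2 * τ dd f
  have key : ∀ (U : ℚ⟦X⟧), (1 - X) ^ 2 * U = (1 + X) ^ 2 →
      (1 - X) ^ 2 * ((1 - U) * (c * (1 - X ^ 2) * (c * ((1 - X ^ 2) * ((1 - X) * g2 - 2 * g1)
        - 2 * X * ((1 - X) * g1 - G)))) - 2 * U * (c * (1 - X ^ 2) * ((1 - X) * g1 - G))
        - U * ((1 - X) * G))
      = (1 - X) ^ 2 * (-((1 + X) * (X * (1 - X ^ 2) * g2 + (1 - 3 * X ^ 2) * g1 - X * G))) := by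
    intro U hU
    have t1 : (1 - X) ^ 2 * (1 - U) = -(4 * X) := by linear_combination -hU
    have e2 : c * c * 4 = 1 := by linear_combination (c * 2 + 1) * e
    linear_combination ((c * (1 - X ^ 2) * (c * ((1 - X ^ 2) * ((1 - X) * g2 - 2 * g1)
        - 2 * X * ((1 - X) * g1 - G))))) * t1
      - (2 * (c * (1 - X ^ 2) * ((1 - X) * g1 - G)) + (1 - X) * G) * hU
      - X * (1 - X ^ 2) * ((1 - X ^ 2) * ((1 - X) * g2 - 2 * g1)
        - 2 * X * ((1 - X) * g1 - G)) * e2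
      - (1 + X) ^ 2 * (1 - X ^ 2) * ((1 - X) * g1 - G) * e
  exact key _ hq

/-- the Wronskian `W(G) = H tw(G) - θH G` -/
noncomputable def WW (p : ℕ) (s : ℚ) (G : ℚ⟦X⟧) : ℚ⟦X⟧ :=
  Hc p 0 (ch s) * tw G - Hc p 1 (ch s) * G

/-- the error term -/
noncomputable def eps (p : ℕ) (s : ℚ) : ℚ⟦X⟧ :=
  C ((p : ℚ) ^ 2 * coeff (p - 1) serK) * ch s ^ (p + 1)

theorem dd_WW {s : ℚ} (hs : s = 1 ∨ s = -1) (h2 : p % 2 = 1) (G : ℚ⟦X⟧) :
    dd (X * geo * WW p s G)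
      = C (1 / 2) * (geo * (Hc p 0 (ch s) * EE G) - geo2 * (1 - X) * (G * eps p s)) := by
  have w := wronskian h2 (tau_ch s) (ode_ch hs G)
  have e : (C (1 / 2) : ℚ⟦X⟧) * 2 = 1 := by
    rw [two_eq, ← map_mul]; norm_num
  have hg : (1 - X : ℚ⟦X⟧) * geo = 1 := by rw [mul_comm]; exact geo_mul
  have hg2 : (1 - X ^ 2 : ℚ⟦X⟧) * geo2 = 1 := by rw [mul_comm]; exact geo2_mul
  have hV : Hc p 0 (ch s) * (tau * dd ((1 - X) * G)) - (1 - X) * G * Hc p 1 (ch s)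
      = (1 - X) * WW p s G := by
    unfold WW T.tw T.sc tau
    have : (1 - X ^ 2 : ℚ⟦X⟧) = (1 - X) * (1 + X) := by ring
    rw [this]; ring
  have hU : (1 - ch s ^ 2) * ((1 - X) * WW p s G) = -(4 * (X * geo * WW p s G)) := by
    have hq := ch_sq hs
    have : (1 - ch s ^ 2) * (1 - X) = -(4 * X * geo) := by
      apply mul_left_cancel₀ one_sub_X_ne
      linear_combination -hq + 4 * X * hg
    linear_combination WW p s G * this
  rw [hV, hU] at w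
  have e4 : dd (-(4 * (X * geo * WW p s G))) = -(4 * dd (X * geo * WW p s G)) := by
    rw [dd_neg]
    have : (4 : ℚ⟦X⟧) = C 4 := (map_ofNat (C : ℚ →+* ℚ⟦X⟧) 4).symm
    rw [this, dd_mul, dd_C]; ring
  rw [e4] at w
  set Z := dd (X * geo * WW p s G)
  -- tau * (-4 Z) = H * (-(1+X) EE) + (1-X) G eps
  have w' : (1 - X ^ 2) * (2 * Z) = (1 + X) * (Hc p 0 (ch s) * EE G)
      - (1 - X) * (G * eps p s) := by
    unfold tau at w
    unfold eps
    linear_combination -w - (1 - X ^ 2) * 2 * Z * e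
  have w2 : 2 * Z = geo * (Hc p 0 (ch s) * EE G) - geo2 * (1 - X) * (G * eps p s) := by
    have h3 : geo2 * (1 + X) = geo := by
      apply mul_left_cancel₀ one_sub_X_ne
      linear_combination hg2 - hg
    linear_combination geo2 * w' - 2 * Z * hg2 + Hc p 0 (ch s) * EE G * h3
  linear_combination C (1 / 2) * w2 - Z * e

theorem VB_eps (h2 : p ≠ 2) {s : ℚ} (hs : s = 1 ∨ s = -1) {N : ℕ} : VB p N 2 (eps p s) := by
  unfold eps
  simpa using (VB.C (Vg_psq (p := p) h2)).mul ((VB_ch hs (N := N)).pow (p + 1))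

theorem VB_of_geo_mul {N : ℕ} {e : ℤ} {Z : ℚ⟦X⟧} (h : VB p N e (geo * Z)) : VB p N e Z := by
  have h1 : Z = (1 - X) * (geo * Z) := by
    linear_combination (-Z) * geo_mul
  rw [h1]
  exact (VB.one.sub VB.X).mul0 h

theorem odd_of_ne_two (h2 : p ≠ 2) : p % 2 = 1 := by
  rcases hp.1.eq_two_or_odd with h | h
  · exact absurd h h2
  · exact h

theorem VB_WW (h2 : p ≠ 2) {s : ℚ} (hs : s = 1 ∨ s = -1) {G : ℚ⟦X⟧} {N : ℕ} {e : ℤ}
    (hN : N + 1 ≤ p ^ 2) (hE : VB p N e (EE G)) (hG : VB p N (e - 2) G) :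
    VB p N (e - 1) (WW p s G) := by
  have h := dd_WW hs (odd_of_ne_two h2) G
  have h1 : VB p N e (dd (X * geo * WW p s G)) := by
    rw [h]
    refine (VB.C (Vg_half h2)).mul0 (VB.sub ?_ ?_)
    · exact VB.geo.mul0 ((VB_Hc h2 (VB_ch hs) 0).mul0 hE)
    · refine VB.mul0 (VB.geo2.mul0 (VB.one.sub VB.X)) ?_
      exact (hG.mul (VB_eps h2 hs)).mono (by omega)
  have h3 := VB_of_dd hN h1 (by
    have : coeff 0 (X * geo * WW p s G) = 0 := by
      rw [mul_assoc, coeff_zero_X_mul]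
    rw [this]; exact Vg.zero _)
  rw [mul_assoc] at h3
  exact VB_of_geo_mul (VB_of_X_mul h3)

theorem VB_WW_K (h2 : p ≠ 2) {s : ℚ} (hs : s = 1 ∨ s = -1) {N : ℕ} (hN : N + 1 ≤ p ^ 2) :
    VB p N 1 (WW p s serK) := by
  have := VB_WW (p := p) (e := 2) (G := serK) h2 hs hN (by rw [EE_K]; exact VB.zero)
    (VBK h2 N)
  exact this

theorem VB_WW_B2 (h2 : p ≠ 2) {s : ℚ} (hs : s = 1 ∨ s = -1) {N : ℕ} (hN : N + 1 ≤ p ^ 2) :
    VB p N (-1) (WW p s serB2) := by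
  have h4 : Vg p 0 (-1 / 4 : ℚ) := by
    have := Vg.div_unit (p := p) (n := 4) (x := -1) (e := 0) (not_dvd_four h2) (Vg.one.neg)
    simpa using this
  have := VB_WW (p := p) (e := 0) (G := serB2) h2 hs hN (by rw [EE_B2]; exact VB.C h4)
    ((VBB2 h2 (by omega)).mono (by omega))
  simpa using this

/-- the `T`-coefficient at `c3` -/
noncomputable def YY (p : ℕ) (s : ℚ) : ℚ⟦X⟧ :=
  X * WW p s serM + C (1 / 2) * ((1 - X ^ 2) * (Hc p 0 (ch s) * serK))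

theorem dd_YY {s : ℚ} (hs : s = 1 ∨ s = -1) (h2 : p % 2 = 1) :
    dd (geo * YY p s)
      = -(geo * WW p s serK) - C (1 / 2) * (geo2 * (1 - X) * (serM * eps p s)) := by
  have hM := dd_WW hs h2 serM
  rw [EE_M] at hM
  have hg : (1 - X : ℚ⟦X⟧) * geo = 1 := by rw [mul_comm]; exact geo_mul
  have e : (C (1 / 2) : ℚ⟦X⟧) * 2 = 1 := by
    rw [two_eq, ← map_mul]; norm_num
  have e1 : geo * YY p s = X * geo * WW p s serM
      + C (1 / 2) * ((1 + X) * (Hc p 0 (ch s) * serK)) := by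
    unfold YY
    linear_combination C (1 / 2) * (1 + X) * (Hc p 0 (ch s) * serK) * hg
  have e2 : dd (C (1 / 2) * ((1 + X) * (Hc p 0 (ch s) * serK)))
      = C (1 / 2) * (Hc p 0 (ch s) * serK + (1 + X) * (Hc p 0 (ch s) * dd serK
        + serK * dd (Hc p 0 (ch s)))) := by
    rw [dd_mul (C (1 / 2)), dd_C, dd_mul (1 + X), dd_mul (Hc p 0 (ch s)), dd_add, dd_one, dd_X]
    ring
  have hH := tau_dd_Hc (tau_ch s) p 0
  rw [zero_add] at hH
  rw [e1, dd_add, e2, hM]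
  unfold WW
  rw [← hH]
  unfold T.tw T.sc tau
  have d1 : dd ((1 - X) * serK) = (1 - X) * dd serK - serK := by
    rw [dd_mul, dd_sub, dd_one, dd_X]; ring
  rw [d1]
  have hg2 : (1 - X ^ 2 : ℚ⟦X⟧) * geo = 1 + X := by linear_combination (1 + X) * hg
  set H := Hc p 0 (ch s)
  set H' := dd H
  set K := serK
  set K' := dd K
  set c := (C (1 / 2) : ℚ⟦X⟧)
  linear_combination (-(c * 2 * H * K') + c * H' * K - 2 * c * K * H') * hg2
    + (c * H * (K + (1 + X) * K') - 2 * c * H * K) * hg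

theorem VB_YY (h2 : p ≠ 2) {s : ℚ} (hs : s = 1 ∨ s = -1) {N : ℕ} (hN : N + 1 ≤ p ^ 2) :
    VB p N 0 (YY p s) := by
  have h := dd_YY (p := p) hs (odd_of_ne_two h2)
  have h1 : VB p N 1 (dd (geo * YY p s)) := by
    rw [h]
    refine VB.sub (VB.neg (VB.geo.mul0 (VB_WW_K h2 hs hN))) ?_
    refine (VB.C (Vg_half h2)).mul0 (VB.mul0 (VB.geo2.mul0 (VB.one.sub VB.X)) ?_)
    exact ((VBM h2 (by omega : N ≤ p ^ 2)).mul (VB_eps h2 hs)).mono (by omega)
  have h3 := VB_of_dd hN h1 (by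
    have hb : VB p 1 0 (geo * YY p s) := by
      have e1 : VB p 1 0 (C (1 / 2) * ((1 - X ^ 2) * (Hc p 0 (ch s) * serK)) : ℚ⟦X⟧) := by
        refine (VB.C (Vg_half h2)).mul0 (VB.mul0 (VB.one.sub (VB.X.pow 2)) ?_)
        exact (VB_Hc h2 (VB_ch hs) 0).mul0 (VBK h2 1)
      have e2 : VB p 1 0 (X * WW p s serM) := by
        intro m hm
        obtain rfl : m = 0 := by omega
        rw [coeff_zero_X_mul]; exact Vg.zero _
      exact VB.geo.mul0 (e2.add e1)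
    simpa using hb 0 (by omega))
  exact (VB_of_geo_mul (h3.le (by omega))).mono (by omega)

end Vale.Agent.P030.H678
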